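import Vale.Agent.Lib.P369.DissBound

/-!
Closed form of the pure-loss channel on gauge-invariant operators and its differential equation.
-/

namespace Vale.Agent.Lib.P369

open Matrix Finset
open scoped ComplexOrder

variable {L : ℕ}

/-- Extension of the matrix entries by zero beyond the truncation. -/
noncomputable def rhoHat (ρ : Matrix (Fock2 L) (Fock2 L) ℂ) (x1 y1 x2 y2 : ℕ) : ℂ :=
  if h1 : x1 + y1 ≤ L then
    if h2 : x2 + y2 ≤ L then ρ (mkF x1 y1 h1) (mkF x2 y2 h2) else 0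
  else 0

lemma rhoHat_of_gt1 (ρ : Matrix (Fock2 L) (Fock2 L) ℂ) {x1 y1 : ℕ} (x2 y2 : ℕ) (h : L < x1 + y1) :
    rhoHat ρ x1 y1 x2 y2 = 0 := by
  unfold rhoHat
  rw [dif_neg (by omega)]

lemma rhoHat_of_gt2 (ρ : Matrix (Fock2 L) (Fock2 L) ℂ) (x1 y1 : ℕ) {x2 y2 : ℕ} (h : L < x2 + y2) :
    rhoHat ρ x1 y1 x2 y2 = 0 := by
  unfold rhoHat
  by_cases h1 : x1 + y1 ≤ L
  · rw [dif_pos h1, dif_neg (by omega)]
  · rw [dif_neg h1]

lemma rhoHat_mk (ρ : Matrix (Fock2 L) (Fock2 L) ℂ) (e e' : Fock2 L) :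
    rhoHat ρ (xx e) (yy e) (xx e') (yy e') = ρ e e' := by
  have h1 : xx e + yy e ≤ L := e.2
  have h2 : xx e' + yy e' ≤ L := e'.2
  unfold rhoHat
  rw [dif_pos h1, dif_pos h2, mkF_xx_yy, mkF_xx_yy]

lemma rhoHat_gauge {ρ : Matrix (Fock2 L) (Fock2 L) ℂ}
    (hg : ∀ e f, photons e ≠ photons f → ρ e f = 0) {x1 y1 x2 y2 : ℕ} (h : x1 + y1 ≠ x2 + y2) :
    rhoHat ρ x1 y1 x2 y2 = 0 := by
  unfold rhoHat
  by_cases h1 : x1 + y1 ≤ L
  · rw [dif_pos h1]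
    by_cases h2 : x2 + y2 ≤ L
    · rw [dif_pos h2]
      exact hg _ _ h
    · rw [dif_neg h2]
  · rw [dif_neg h1]

/-- Coefficient of one mode. -/
noncomputable def cc (f g a : ℕ) : ℝ :=
  Real.sqrt ((f + a).choose a : ℝ) * Real.sqrt ((g + a).choose a : ℝ)

lemma cc_zero (f g : ℕ) : cc f g 0 = 1 := by
  simp [cc]

lemma cc_shift (f g a : ℕ) :
    Real.sqrt ((f : ℝ) + 1) * Real.sqrt ((g : ℝ) + 1) * cc (f + 1) (g + 1) a
      = ((a : ℝ) + 1) * cc f g (a + 1) := by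
  have key : ∀ n : ℕ, Real.sqrt ((n : ℝ) + 1) * Real.sqrt ((n + 1 + a).choose a : ℝ)
      = Real.sqrt ((a : ℝ) + 1) * Real.sqrt ((n + (a + 1)).choose (a + 1) : ℝ) := by
    intro n
    rw [← Real.sqrt_mul (by positivity), ← Real.sqrt_mul (by positivity)]
    congr 1
    have h := Nat.choose_succ_right_eq (n + a + 1) a
    have e1 : n + a + 1 - a = n + 1 := by omega
    rw [e1] at h
    have e2 : n + 1 + a = n + a + 1 := by omega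
    have e3 : n + (a + 1) = n + a + 1 := by omega
    rw [e2, e3]
    have h' : (((n + a + 1).choose (a + 1) * (a + 1) : ℕ) : ℝ)
        = (((n + a + 1).choose a * (n + 1) : ℕ) : ℝ) := by rw [h]
    push_cast at h'
    linarith
  unfold cc
  have hk1 := key f
  have hk2 := key g
  have ha : Real.sqrt ((a : ℝ) + 1) * Real.sqrt ((a : ℝ) + 1) = (a : ℝ) + 1 :=
    Real.mul_self_sqrt (by positivity)
  calc Real.sqrt ((f : ℝ) + 1) * Real.sqrt ((g : ℝ) + 1)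
        * (Real.sqrt ((f + 1 + a).choose a : ℝ) * Real.sqrt ((g + 1 + a).choose a : ℝ))
      = (Real.sqrt ((f : ℝ) + 1) * Real.sqrt ((f + 1 + a).choose a : ℝ))
        * (Real.sqrt ((g : ℝ) + 1) * Real.sqrt ((g + 1 + a).choose a : ℝ)) := by ring
    _ = (Real.sqrt ((a : ℝ) + 1) * Real.sqrt ((f + (a + 1)).choose (a + 1) : ℝ))
        * (Real.sqrt ((a : ℝ) + 1) * Real.sqrt ((g + (a + 1)).choose (a + 1) : ℝ)) := by
          rw [hk1, hk2]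
    _ = (Real.sqrt ((a : ℝ) + 1) * Real.sqrt ((a : ℝ) + 1))
        * (Real.sqrt ((f + (a + 1)).choose (a + 1) : ℝ)
          * Real.sqrt ((g + (a + 1)).choose (a + 1) : ℝ)) := by ring
    _ = _ := by rw [ha]

/-- Polynomial form of the output entries. -/
noncomputable def polyE (ρ : Matrix (Fock2 L) (Fock2 L) ℂ) (f1 f2 g1 g2 : ℕ) (z : ℝ) : ℂ :=
  ∑ a ∈ range (L + 1), ∑ b ∈ range (L + 1),
    ((cc f1 g1 a * cc f2 g2 b * (z ^ (f1 + f2) * (1 - z) ^ (a + b)) : ℝ) : ℂ)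
      * rhoHat ρ (f1 + a) (f2 + b) (g1 + a) (g2 + b)

/-- Derivative of the polynomial form. -/
noncomputable def polyD (ρ : Matrix (Fock2 L) (Fock2 L) ℂ) (f1 f2 g1 g2 : ℕ) (z : ℝ) : ℂ :=
  ∑ a ∈ range (L + 1), ∑ b ∈ range (L + 1),
    ((cc f1 g1 a * cc f2 g2 b
        * (((f1 + f2 : ℕ) : ℝ) * z ^ (f1 + f2 - 1) * (1 - z) ^ (a + b)
          - z ^ (f1 + f2) * (((a + b : ℕ) : ℝ) * (1 - z) ^ (a + b - 1))) : ℝ) : ℂ)
      * rhoHat ρ (f1 + a) (f2 + b) (g1 + a) (g2 + b)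

lemma hasDerivAt_polyE (ρ : Matrix (Fock2 L) (Fock2 L) ℂ) (f1 f2 g1 g2 : ℕ) (z : ℝ) :
    HasDerivAt (polyE ρ f1 f2 g1 g2) (polyD ρ f1 f2 g1 g2 z) z := by
  unfold polyE polyD
  apply HasDerivAt.fun_sum
  intro a _
  apply HasDerivAt.fun_sum
  intro b _
  apply HasDerivAt.mul_const
  apply HasDerivAt.ofReal_comp
  apply HasDerivAt.const_mul
  have h1 : HasDerivAt (fun z : ℝ => z ^ (f1 + f2)) (((f1 + f2 : ℕ) : ℝ) * z ^ (f1 + f2 - 1)) z :=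
    hasDerivAt_pow _ _
  have h2 : HasDerivAt (fun z : ℝ => (1 - z) ^ (a + b))
      (((a + b : ℕ) : ℝ) * (1 - z) ^ (a + b - 1) * (-1)) z := by
    have h3 : HasDerivAt (fun z : ℝ => 1 - z) (-1) z := by
      simpa using (hasDerivAt_id z).const_sub 1
    exact h3.pow (a + b)
  have h3 := h1.fun_mul h2
  have e : ((f1 + f2 : ℕ) : ℝ) * z ^ (f1 + f2 - 1) * (1 - z) ^ (a + b)
        - z ^ (f1 + f2) * (((a + b : ℕ) : ℝ) * (1 - z) ^ (a + b - 1))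
      = ((f1 + f2 : ℕ) : ℝ) * z ^ (f1 + f2 - 1) * (1 - z) ^ (a + b)
        + z ^ (f1 + f2) * (((a + b : ℕ) : ℝ) * (1 - z) ^ (a + b - 1) * (-1)) := by ring
  rw [e]
  exact h3

lemma polyE_of_gt1 (ρ : Matrix (Fock2 L) (Fock2 L) ℂ) {f1 f2 : ℕ} (g1 g2 : ℕ) (h : L < f1 + f2)
    (z : ℝ) : polyE ρ f1 f2 g1 g2 z = 0 := by
  unfold polyE
  apply Finset.sum_eq_zero
  intro a _
  apply Finset.sum_eq_zero
  intro b _
  rw [rhoHat_of_gt1 ρ _ _ (by omega), mul_zero]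

lemma polyE_of_gt2 (ρ : Matrix (Fock2 L) (Fock2 L) ℂ) (f1 f2 : ℕ) {g1 g2 : ℕ} (h : L < g1 + g2)
    (z : ℝ) : polyE ρ f1 f2 g1 g2 z = 0 := by
  unfold polyE
  apply Finset.sum_eq_zero
  intro a _
  apply Finset.sum_eq_zero
  intro b _
  rw [rhoHat_of_gt2 ρ _ _ (by omega), mul_zero]

/-- Auxiliary weighted term of the differential equation. -/
noncomputable def polyT (ρ : Matrix (Fock2 L) (Fock2 L) ℂ) (f1 f2 g1 g2 : ℕ) (z : ℝ) (a b : ℕ) : ℂ :=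
  ((cc f1 g1 a * cc f2 g2 b * (z ^ (f1 + f2 + 1) * (1 - z) ^ (a + b - 1)) : ℝ) : ℂ)
      * rhoHat ρ (f1 + a) (f2 + b) (g1 + a) (g2 + b)

lemma part_a (ρ : Matrix (Fock2 L) (Fock2 L) ℂ) (f1 f2 g1 g2 : ℕ) (z : ℝ) :
    ((Real.sqrt ((f1 : ℝ) + 1) * Real.sqrt ((g1 : ℝ) + 1) : ℝ) : ℂ)
        * polyE ρ (f1 + 1) f2 (g1 + 1) g2 z
      = ∑ a ∈ range (L + 1), ∑ b ∈ range (L + 1), ((a : ℂ)) * polyT ρ f1 f2 g1 g2 z a b := by
  unfold polyE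
  rw [Finset.mul_sum]
  rw [Finset.sum_range_succ' (fun a => ∑ b ∈ range (L + 1), ((a : ℂ)) * polyT ρ f1 f2 g1 g2 z a b) L]
  rw [Finset.sum_range_succ (fun a => ((Real.sqrt ((f1 : ℝ) + 1) * Real.sqrt ((g1 : ℝ) + 1) : ℝ) : ℂ) * _) L]
  have htop : ((Real.sqrt ((f1 : ℝ) + 1) * Real.sqrt ((g1 : ℝ) + 1) : ℝ) : ℂ)
      * ∑ b ∈ range (L + 1), ((cc (f1 + 1) (g1 + 1) L * cc f2 g2 b
            * (z ^ (f1 + 1 + f2) * (1 - z) ^ (L + b)) : ℝ) : ℂ)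
          * rhoHat ρ (f1 + 1 + L) (f2 + b) (g1 + 1 + L) (g2 + b) = 0 := by
    rw [Finset.sum_eq_zero, mul_zero]
    intro b _
    rw [rhoHat_of_gt1 ρ _ _ (by omega), mul_zero]
  rw [htop]
  simp only [Nat.cast_zero, zero_mul, Finset.sum_const_zero, add_zero]
  apply Finset.sum_congr rfl
  intro a _
  rw [Finset.mul_sum]
  apply Finset.sum_congr rfl
  intro b _
  unfold polyT
  have e1 : f1 + 1 + a = f1 + (a + 1) := by omega
  have e2 : g1 + 1 + a = g1 + (a + 1) := by omega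
  have e3 : f1 + 1 + f2 = f1 + f2 + 1 := by omega
  have e4 : a + 1 + b - 1 = a + b := by omega
  rw [e1, e2, e3, e4]
  have key : ((Real.sqrt ((f1 : ℝ) + 1) * Real.sqrt ((g1 : ℝ) + 1) : ℝ) : ℂ)
        * ((cc (f1 + 1) (g1 + 1) a * cc f2 g2 b * (z ^ (f1 + f2 + 1) * (1 - z) ^ (a + b)) : ℝ) : ℂ)
      = ((a + 1 : ℕ) : ℂ)
        * ((cc f1 g1 (a + 1) * cc f2 g2 b * (z ^ (f1 + f2 + 1) * (1 - z) ^ (a + b)) : ℝ) : ℂ) := by
    have hs := cc_shift f1 g1 a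
    have : (Real.sqrt ((f1 : ℝ) + 1) * Real.sqrt ((g1 : ℝ) + 1))
        * (cc (f1 + 1) (g1 + 1) a * cc f2 g2 b * (z ^ (f1 + f2 + 1) * (1 - z) ^ (a + b)))
      = ((a + 1 : ℕ) : ℝ)
        * (cc f1 g1 (a + 1) * cc f2 g2 b * (z ^ (f1 + f2 + 1) * (1 - z) ^ (a + b))) := by
      push_cast
      linear_combination (cc f2 g2 b * (z ^ (f1 + f2 + 1) * (1 - z) ^ (a + b))) * hs
    exact_mod_cast this
  linear_combination (rhoHat ρ (f1 + (a + 1)) (f2 + b) (g1 + (a + 1)) (g2 + b)) * key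

lemma part_b (ρ : Matrix (Fock2 L) (Fock2 L) ℂ) (f1 f2 g1 g2 : ℕ) (z : ℝ) :
    ((Real.sqrt ((f2 : ℝ) + 1) * Real.sqrt ((g2 : ℝ) + 1) : ℝ) : ℂ)
        * polyE ρ f1 (f2 + 1) g1 (g2 + 1) z
      = ∑ a ∈ range (L + 1), ∑ b ∈ range (L + 1), ((b : ℂ)) * polyT ρ f1 f2 g1 g2 z a b := by
  unfold polyE
  rw [Finset.mul_sum]
  apply Finset.sum_congr rfl
  intro a _
  rw [Finset.mul_sum]
  rw [Finset.sum_range_succ' (fun b => ((b : ℂ)) * polyT ρ f1 f2 g1 g2 z a b) L]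
  rw [Finset.sum_range_succ (fun b => ((Real.sqrt ((f2 : ℝ) + 1) * Real.sqrt ((g2 : ℝ) + 1) : ℝ) : ℂ) * _) L]
  rw [rhoHat_of_gt1 ρ _ _ (by omega), mul_zero, mul_zero]
  simp only [Nat.cast_zero, zero_mul, add_zero]
  apply Finset.sum_congr rfl
  intro b _
  unfold polyT
  have e1 : f2 + 1 + b = f2 + (b + 1) := by omega
  have e2 : g2 + 1 + b = g2 + (b + 1) := by omega
  have e3 : f1 + (f2 + 1) = f1 + f2 + 1 := by omega
  have e4 : a + (b + 1) - 1 = a + b := by omega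
  rw [e1, e2, e3, e4]
  have key : ((Real.sqrt ((f2 : ℝ) + 1) * Real.sqrt ((g2 : ℝ) + 1) : ℝ) : ℂ)
        * ((cc f1 g1 a * cc (f2 + 1) (g2 + 1) b * (z ^ (f1 + f2 + 1) * (1 - z) ^ (a + b)) : ℝ) : ℂ)
      = ((b + 1 : ℕ) : ℂ)
        * ((cc f1 g1 a * cc f2 g2 (b + 1) * (z ^ (f1 + f2 + 1) * (1 - z) ^ (a + b)) : ℝ) : ℂ) := by
    have hs := cc_shift f2 g2 b
    have : (Real.sqrt ((f2 : ℝ) + 1) * Real.sqrt ((g2 : ℝ) + 1))
        * (cc f1 g1 a * cc (f2 + 1) (g2 + 1) b * (z ^ (f1 + f2 + 1) * (1 - z) ^ (a + b)))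
      = ((b + 1 : ℕ) : ℝ)
        * (cc f1 g1 a * cc f2 g2 (b + 1) * (z ^ (f1 + f2 + 1) * (1 - z) ^ (a + b))) := by
      push_cast
      linear_combination (cc f1 g1 a * (z ^ (f1 + f2 + 1) * (1 - z) ^ (a + b))) * hs
    exact_mod_cast this
  linear_combination (rhoHat ρ (f1 + a) (f2 + (b + 1)) (g1 + a) (g2 + (b + 1))) * key

/-- The differential equation of the loss semigroup, in the entries. -/
theorem polyD_ode (ρ : Matrix (Fock2 L) (Fock2 L) ℂ) (f1 f2 g1 g2 : ℕ) (z : ℝ) :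
    (z : ℂ) * polyD ρ f1 f2 g1 g2 z
      = ((f1 + f2 : ℕ) : ℂ) * polyE ρ f1 f2 g1 g2 z
        - ((Real.sqrt ((f1 : ℝ) + 1) * Real.sqrt ((g1 : ℝ) + 1) : ℝ) : ℂ)
            * polyE ρ (f1 + 1) f2 (g1 + 1) g2 z
        - ((Real.sqrt ((f2 : ℝ) + 1) * Real.sqrt ((g2 : ℝ) + 1) : ℝ) : ℂ)
            * polyE ρ f1 (f2 + 1) g1 (g2 + 1) z := by
  rw [part_a, part_b, sub_sub, ← Finset.sum_add_distrib]
  unfold polyD polyE
  rw [Finset.mul_sum, Finset.mul_sum, ← Finset.sum_sub_distrib]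
  apply Finset.sum_congr rfl
  intro a _
  rw [Finset.mul_sum, Finset.mul_sum, ← Finset.sum_add_distrib, ← Finset.sum_sub_distrib]
  apply Finset.sum_congr rfl
  intro b _
  unfold polyT
  have hz : z * ((((f1 + f2 : ℕ) : ℝ) * z ^ (f1 + f2 - 1) * (1 - z) ^ (a + b)
          - z ^ (f1 + f2) * (((a + b : ℕ) : ℝ) * (1 - z) ^ (a + b - 1))))
      = ((f1 + f2 : ℕ) : ℝ) * (z ^ (f1 + f2) * (1 - z) ^ (a + b))
        - ((a + b : ℕ) : ℝ) * (z ^ (f1 + f2 + 1) * (1 - z) ^ (a + b - 1)) := by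
    have h1 : ((f1 + f2 : ℕ) : ℝ) * (z * z ^ (f1 + f2 - 1)) = ((f1 + f2 : ℕ) : ℝ) * z ^ (f1 + f2) := by
      rcases Nat.eq_zero_or_pos (f1 + f2) with h | h
      · rw [h]; simp
      · congr 1
        rw [← pow_succ']
        congr 1
        omega
    rw [pow_succ z (f1 + f2)]
    linear_combination ((1 - z) ^ (a + b)) * h1
  have hz' : (z : ℂ) * (((((f1 + f2 : ℕ) : ℂ) * (z : ℂ) ^ (f1 + f2 - 1) * (1 - (z : ℂ)) ^ (a + b)
          - (z : ℂ) ^ (f1 + f2) * (((a + b : ℕ) : ℂ) * (1 - (z : ℂ)) ^ (a + b - 1)))))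
      = ((f1 + f2 : ℕ) : ℂ) * ((z : ℂ) ^ (f1 + f2) * (1 - (z : ℂ)) ^ (a + b))
        - ((a + b : ℕ) : ℂ) * ((z : ℂ) ^ (f1 + f2 + 1) * (1 - (z : ℂ)) ^ (a + b - 1)) := by
    exact_mod_cast hz
  push_cast at hz' ⊢
  linear_combination ((cc f1 g1 a : ℂ) * (cc f2 g2 b : ℂ) * rhoHat ρ (f1 + a) (f2 + b) (g1 + a) (g2 + b)) * hz'

end Vale.Agent.Lib.P369
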