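import Mathlib

/-!
Definitions used in the statement of the two-mode gauge-invariant entropy photon-number bound.
-/

namespace Vale.Agent.Lib.P369

open Matrix

/-- The thermal entropy function `g(t) = (t+1) log (t+1) - t log t`. -/
noncomputable def gFun (t : ℝ) : ℝ := (t + 1) * Real.log (t + 1) - t * Real.log t

/-- The inverse of `g : [0,∞) → [0,∞)`. -/
noncomputable def gInv (s : ℝ) : ℝ := Function.invFunOn gFun (Set.Ici 0) s

/-- The von Neumann entropy `S(ρ) = Tr (-ρ log ρ)` of a Hermitian matrix, by functional calculus. -/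
noncomputable def vonNeumann {ι : Type*} [Fintype ι] [DecidableEq ι] (ρ : Matrix ι ι ℂ) : ℝ :=
  (trace (cfc Real.negMulLog ρ)).re

/-- The entropy photon number `N(ρ) = g⁻¹(S(ρ)/n)` of an `n`-mode state. -/
noncomputable def entropyPhotonNumber {ι : Type*} [Fintype ι] [DecidableEq ι] (n : ℕ)
    (ρ : Matrix ι ι ℂ) : ℝ :=
  gInv (vonNeumann ρ / n)

/-- Two-mode Fock basis vectors `|x,y⟩` with at most `L` photons in total. -/
abbrev Fock2 (L : ℕ) := {e : Fin (L + 1) × Fin (L + 1) // (e.1 : ℕ) + (e.2 : ℕ) ≤ L}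

/-- The total photon number `x + y` of `|x,y⟩`. -/
def photons {L : ℕ} (e : Fock2 L) : ℕ := (e.1.1 : ℕ) + (e.1.2 : ℕ)

/-- The Kraus matrix of the pure-loss channel: the entry `(f,e)` of `lossKraus η l` is
the amplitude `⟨f, l| U_η |e, 0⟩` of the beam splitter of transmissivity `η` with vacuum in the
second input, up to the sign `(-1)^(l₁+l₂)`: the environment ends with `l = e - f` photons, and the amplitude is
`√(C(e₁,l₁) C(e₂,l₂)) (√η)^(f₁+f₂) (√(1-η))^(l₁+l₂)`. -/
noncomputable def lossKraus {L : ℕ} (η : ℝ) (l : Fock2 L) : Matrix (Fock2 L) (Fock2 L) ℂ :=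
  fun f e =>
    if (e.1.1 : ℕ) = (f.1.1 : ℕ) + (l.1.1 : ℕ) ∧ (e.1.2 : ℕ) = (f.1.2 : ℕ) + (l.1.2 : ℕ) then
      ((Real.sqrt (((e.1.1 : ℕ).choose (l.1.1 : ℕ) : ℝ) * ((e.1.2 : ℕ).choose (l.1.2 : ℕ) : ℝ))
        * (Real.sqrt η) ^ photons f * (Real.sqrt (1 - η)) ^ photons l : ℝ) : ℂ)
    else 0

/-- The output state: partial trace over the environment of the beam splitter output with
vacuum second input. -/
noncomputable def lossChannel {L : ℕ} (η : ℝ) (ρ : Matrix (Fock2 L) (Fock2 L) ℂ) :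
    Matrix (Fock2 L) (Fock2 L) ℂ :=
  ∑ l : Fock2 L, lossKraus η l * ρ * (lossKraus η l)ᴴ

end Vale.Agent.Lib.P369
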