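import Vale.Agent.Lib.P369.Defs

/-!
Definitions for gauge-invariant two-mode states without a photon-number cut-off.  The state is
given by its matrix entries `ρ e f` in the Fock basis `e, f ∈ ℕ × ℕ`.
-/

namespace Vale.Agent.Lib.P369

open Matrix
open scoped ENNReal

/-- The block of `ρ` at total photon number `m`, in the basis `|m-i,i⟩`, `0 ≤ i ≤ m`. -/
def levelBlock (ρ : ℕ × ℕ → ℕ × ℕ → ℂ) (m : ℕ) : Matrix (Fin (m + 1)) (Fin (m + 1)) ℂ :=
  fun i j => ρ (m - (i : ℕ), (i : ℕ)) (m - (j : ℕ), (j : ℕ))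

/-- The entropy, in `[0,∞]`, of a state commuting with the total photon number: the sum of
`Tr (-R log R)` over its blocks `R` (the spectrum of the state is the union of the spectra of the
blocks). -/
noncomputable def gaugeEntropy (ρ : ℕ × ℕ → ℕ × ℕ → ℂ) : ℝ≥0∞ :=
  ∑' m, ENNReal.ofReal (vonNeumann (levelBlock ρ m))

/-- The amplitude `⟨f, l| U_η |f + l, 0⟩` of the beam splitter of transmissivity `η` with vacuum
second input, up to the sign `(-1)^(l₁+l₂)`. -/
noncomputable def lossAmp (η : ℝ) (l f : ℕ × ℕ) : ℝ :=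
  Real.sqrt (((f.1 + l.1).choose l.1 : ℝ) * ((f.2 + l.2).choose l.2 : ℝ))
    * (Real.sqrt η) ^ (f.1 + f.2) * (Real.sqrt (1 - η)) ^ (l.1 + l.2)

/-- The matrix entries of the output state `ρ_C`: partial trace over the environment. -/
noncomputable def lossOutput (η : ℝ) (ρ : ℕ × ℕ → ℕ × ℕ → ℂ) : ℕ × ℕ → ℕ × ℕ → ℂ :=
  fun f f' => ∑' l : ℕ × ℕ, ((lossAmp η l f * lossAmp η l f' : ℝ) : ℂ) * ρ (f + l) (f' + l)

end Vale.Agent.Lib.P369
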