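import Vale.Agent.Lib.P369.RealFns

/-!
The hazard argument: entropy-dissipation bound for one-mode distributions and its two-mode
chain-rule version.
-/

namespace Vale.Agent.Lib.P369

open Finset Real

/-- Log-sum inequality in the form used below. -/
lemma logsum {α : Type*} (s : Finset α) (a b : α → ℝ) (ha : ∀ x ∈ s, 0 < a x)
    (hb : ∀ x ∈ s, 0 < b x) {B : ℝ} (hB : ∑ x ∈ s, b x ≤ B) (hB0 : 0 < B) :
    ∑ x ∈ s, a x * (Real.log (b x) - Real.log (a x))
      ≤ (∑ x ∈ s, a x) * (Real.log B - Real.log (∑ x ∈ s, a x)) := by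
  rcases s.eq_empty_or_nonempty with rfl | hs
  · simp
  have hA : 0 < ∑ x ∈ s, a x := Finset.sum_pos ha hs
  set A := ∑ x ∈ s, a x with hAdef
  have key : ∀ x ∈ s, a x * (Real.log (b x) - Real.log (a x))
      ≤ a x * (Real.log B - Real.log A) + (b x * (A / B) - a x) := by
    intro x hx
    have hax := ha x hx
    have hbx := hb x hx
    have h1 : Real.log (b x * A / (a x * B)) ≤ b x * A / (a x * B) - 1 :=
      Real.log_le_sub_one_of_pos (by positivity)
    have h2 : Real.log (b x * A / (a x * B))
        = Real.log (b x) + Real.log A - (Real.log (a x) + Real.log B) := by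
      rw [Real.log_div (by positivity) (by positivity), Real.log_mul hbx.ne' hA.ne',
        Real.log_mul hax.ne' hB0.ne']
    have h3 : a x * (b x * A / (a x * B) - 1) = b x * (A / B) - a x := by
      field_simp
    have h4 := mul_le_mul_of_nonneg_left h1 hax.le
    rw [h2, h3] at h4
    nlinarith [h4]
  calc ∑ x ∈ s, a x * (Real.log (b x) - Real.log (a x))
      ≤ ∑ x ∈ s, (a x * (Real.log B - Real.log A) + (b x * (A / B) - a x)) :=
        Finset.sum_le_sum key
    _ = A * (Real.log B - Real.log A) + ((∑ x ∈ s, b x) * (A / B) - A) := by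
        rw [Finset.sum_add_distrib, Finset.sum_sub_distrib, ← Finset.sum_mul, ← Finset.sum_mul]
    _ ≤ A * (Real.log B - Real.log A) + (B * (A / B) - A) := by
        have : 0 ≤ A / B := by positivity
        have := mul_le_mul_of_nonneg_right hB this
        linarith
    _ = A * (Real.log B - Real.log A) := by
        have : B * (A / B) = A := by field_simp
        rw [this]; ring

/-- Tail sums. -/
noncomputable def tl (p : ℕ → ℝ) (n j : ℕ) : ℝ := ∑ x ∈ Ico j (n + 1), p x

lemma tl_succ_top (p : ℕ → ℝ) (n : ℕ) : tl p n (n + 1) = 0 := by simp [tl]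

lemma tl_eq (p : ℕ → ℝ) {n j : ℕ} (h : j ≤ n) : tl p n j = p j + tl p n (j + 1) := by
  unfold tl
  rw [Finset.sum_eq_sum_Ico_succ_bot (by omega)]

lemma tl_nonneg {p : ℕ → ℝ} {n : ℕ} (hp : ∀ x ≤ n, 0 < p x) (j : ℕ) : 0 ≤ tl p n j := by
  unfold tl
  apply Finset.sum_nonneg
  intro x hx
  rw [Finset.mem_Ico] at hx
  exact (hp x (by omega)).le

lemma tl_pos {p : ℕ → ℝ} {n : ℕ} (hp : ∀ x ≤ n, 0 < p x) {j : ℕ} (h : j ≤ n) : 0 < tl p n j := by
  rw [tl_eq p h]
  have := tl_nonneg hp (j + 1)
  have := hp j h
  linarith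

lemma fubini_mul (F : ℕ → ℝ) (n : ℕ) :
    ∑ x ∈ range (n + 1), (x : ℝ) * F x = ∑ j ∈ range n, ∑ x ∈ Ico (j + 1) (n + 1), F x := by
  induction n with
  | zero => simp
  | succ n ih =>
    rw [Finset.sum_range_succ, ih, Finset.sum_range_succ]
    have : ∑ j ∈ range n, ∑ x ∈ Ico (j + 1) (n + 1 + 1), F x
        = ∑ j ∈ range n, (∑ x ∈ Ico (j + 1) (n + 1), F x + F (n + 1)) := by
      apply Finset.sum_congr rfl
      intro j hj
      rw [Finset.mem_range] at hj
      rw [Finset.sum_Ico_succ_top (by omega)]
    rw [this, Finset.sum_add_distrib]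
    simp only [Finset.sum_const, Finset.card_range, nsmul_eq_mul, Nat.Ico_succ_singleton,
      Finset.sum_singleton]
    push_cast
    ring

/-- The chi part of the chain-rule identity. -/
lemma chi_identity {q P : ℝ} (hq : 0 < q) (hP : 0 ≤ P) :
    q * chi (P / q) = P * (Real.log (q + P) - Real.log P) := by
  rcases hP.eq_or_lt with rfl | hP
  · simp [chi]
  have h1 : P / q + 1 = (q + P) / q := by field_simp; ring
  unfold chi
  rw [h1, Real.log_div (by positivity) hq.ne', Real.log_div hP.ne' hq.ne']
  field_simp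
  ring

/-- The g part of the chain-rule identity. -/
lemma g_identity {q P : ℝ} (hq : 0 < q) (hP : 0 ≤ P) :
    q * gFun (P / q) = (q + P) * Real.log (q + P) - P * Real.log P - q * Real.log q := by
  rcases hP.eq_or_lt with rfl | hP
  · simp [gFun]
  have h1 : P / q + 1 = (q + P) / q := by field_simp; ring
  unfold gFun
  rw [h1, Real.log_div (by positivity) hq.ne', Real.log_div hP.ne' hq.ne']
  field_simp
  ring

/-- **Hazard inequality.** For a positive sequence, a bound of the one-mode dissipation. -/
theorem hazard1 {n : ℕ} {p : ℕ → ℝ} (hp : ∀ x ≤ n, 0 < p x) {u : ℝ} (hu : 0 < u) :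
    ∑ x ∈ range (n + 1), (x : ℝ) * (p x * (Real.log (p (x - 1)) - Real.log (p x)))
      ≤ (∑ x ∈ range (n + 1), p x) * (chi u - psi u * gFun u)
        + psi u * ((∑ x ∈ range (n + 1), p x) * Real.log (∑ x ∈ range (n + 1), p x)
          + ∑ x ∈ range (n + 1), Real.negMulLog (p x)) := by
  set c := psi u with hc
  set κ := chi u - c * gFun u with hκ
  rw [fubini_mul]
  -- step 1: Jensen per level
  have h1 : ∀ j ∈ range n, ∑ x ∈ Ico (j + 1) (n + 1), p x * (Real.log (p (x - 1)) - Real.log (p x))
      ≤ tl p n (j + 1) * (Real.log (tl p n j) - Real.log (tl p n (j + 1))) := by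
    intro j hj
    rw [Finset.mem_range] at hj
    have := logsum (Ico (j + 1) (n + 1)) p (fun x => p (x - 1))
      (fun x hx => hp x (by rw [Finset.mem_Ico] at hx; omega))
      (fun x hx => hp (x - 1) (by rw [Finset.mem_Ico] at hx; omega))
      (B := tl p n j) ?_ (tl_pos hp (by omega))
    · exact this
    · -- reindex
      have e : ∑ x ∈ Ico (j + 1) (n + 1), p (x - 1) = ∑ x ∈ Ico j n, p x := by
        have := Finset.sum_Ico_add' (fun x => p (x - 1)) j n 1
        simp only [Nat.add_sub_cancel] at this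
        exact this.symm
      rw [e]
      unfold tl
      apply Finset.sum_le_sum_of_subset_of_nonneg
      · intro x hx
        rw [Finset.mem_Ico] at hx ⊢
        omega
      · intro x hx _
        rw [Finset.mem_Ico] at hx
        exact (hp x (by omega)).le
  -- step 2: add the vanishing top term
  have h2 : ∑ j ∈ range n, ∑ x ∈ Ico (j + 1) (n + 1), p x * (Real.log (p (x - 1)) - Real.log (p x))
      ≤ ∑ j ∈ range (n + 1), tl p n (j + 1) * (Real.log (tl p n j) - Real.log (tl p n (j + 1))) := by
    rw [Finset.sum_range_succ, tl_succ_top]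
    simp only [zero_mul, add_zero]
    exact Finset.sum_le_sum h1
  -- step 3: tangent inequality and identities
  have h3 : ∀ j ∈ range (n + 1), tl p n (j + 1) * (Real.log (tl p n j) - Real.log (tl p n (j + 1)))
      ≤ p j * κ + c * ((tl p n j * Real.log (tl p n j)
          - tl p n (j + 1) * Real.log (tl p n (j + 1))) + Real.negMulLog (p j)) := by
    intro j hj
    rw [Finset.mem_range] at hj
    have hq := hp j (by omega)
    have hP := tl_nonneg hp (j + 1)
    have hT : tl p n j = p j + tl p n (j + 1) := tl_eq p (by omega)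
    have hchi := chi_identity hq hP
    have hg := g_identity hq hP
    have ht := tangent_ineq hu (div_nonneg hP hq.le : 0 ≤ tl p n (j + 1) / p j)
    rw [← hT] at hchi hg
    rw [← hchi]
    have := mul_le_mul_of_nonneg_left ht hq.le
    have e : p j * (chi u + psi u * (gFun (tl p n (j + 1) / p j) - gFun u))
        = p j * κ + c * (p j * gFun (tl p n (j + 1) / p j)) := by
      rw [hκ, hc]; ring
    rw [e, hg] at this
    have e2 : Real.negMulLog (p j) = - (p j * Real.log (p j)) := by
      simp [Real.negMulLog]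
    rw [e2]
    linarith
  have h4 := Finset.sum_le_sum h3
  have h5 : ∑ j ∈ range (n + 1), (p j * κ + c * ((tl p n j * Real.log (tl p n j)
          - tl p n (j + 1) * Real.log (tl p n (j + 1))) + Real.negMulLog (p j)))
      = (∑ x ∈ range (n + 1), p x) * κ
        + c * ((∑ x ∈ range (n + 1), p x) * Real.log (∑ x ∈ range (n + 1), p x)
          + ∑ x ∈ range (n + 1), Real.negMulLog (p x)) := by
    rw [Finset.sum_add_distrib, ← Finset.sum_mul, ← Finset.mul_sum, Finset.sum_add_distrib,
      Finset.sum_range_sub']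
    rw [tl_succ_top]
    have : tl p n 0 = ∑ x ∈ range (n + 1), p x := by
      unfold tl
      rw [Finset.range_eq_Ico]
    rw [this]
    simp
  rw [h5] at h4
  refine le_trans ?_ (le_trans h2 h4)
  apply le_of_eq
  apply Finset.sum_congr rfl
  intro j _
  apply Finset.sum_congr rfl
  intro x _
  ring

/-- Two-mode classical dissipation bound. -/
theorem classical_two {L : ℕ} {p : ℕ → ℕ → ℝ} (hp : ∀ x y, x + y ≤ L → 0 < p x y)
    (hM : ∑ x ∈ range (L + 1), ∑ y ∈ range (L + 1 - x), p x y = 1) {u : ℝ} (hu : 0 < u) :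
    ∑ x ∈ range (L + 1), ∑ y ∈ range (L + 1 - x),
        ((x : ℝ) * (p x y * (Real.log (p (x - 1) y) - Real.log (p x y)))
          + (y : ℝ) * (p x y * (Real.log (p x (y - 1)) - Real.log (p x y))))
      ≤ 2 * (chi u - psi u * gFun u)
        + psi u * ∑ x ∈ range (L + 1), ∑ y ∈ range (L + 1 - x), Real.negMulLog (p x y) := by
  set c := psi u with hc
  set κ := chi u - c * gFun u with hκ
  set M : ℕ → ℝ := fun x => ∑ y ∈ range (L + 1 - x), p x y with hMdef
  have hMpos : ∀ x ≤ L, 0 < M x := by
    intro x hx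
    apply Finset.sum_pos
    · intro y hy
      rw [Finset.mem_range] at hy
      exact hp x y (by omega)
    · exact ⟨0, by rw [Finset.mem_range]; omega⟩
  have hMtot : ∑ x ∈ range (L + 1), M x = 1 := hM
  -- the y-part, row by row
  have hy : ∀ x ∈ range (L + 1), ∑ y ∈ range (L + 1 - x),
        (y : ℝ) * (p x y * (Real.log (p x (y - 1)) - Real.log (p x y)))
      ≤ M x * κ + c * (M x * Real.log (M x) + ∑ y ∈ range (L + 1 - x), Real.negMulLog (p x y)) := by
    intro x hx
    rw [Finset.mem_range] at hx
    have e : L + 1 - x = (L - x) + 1 := by omega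
    have := hazard1 (n := L - x) (p := p x) (fun y hy => hp x y (by omega)) hu
    simp only [hMdef]
    rw [e]
    exact this
  -- the x-part, log-sum against the marginal
  have hx1 : ∀ x ∈ range (L + 1), ∑ y ∈ range (L + 1 - x),
        (x : ℝ) * (p x y * (Real.log (p (x - 1) y) - Real.log (p x y)))
      ≤ (x : ℝ) * (M x * (Real.log (M (x - 1)) - Real.log (M x))) := by
    intro x hx
    rw [Finset.mem_range] at hx
    rw [← Finset.mul_sum]
    rcases Nat.eq_zero_or_pos x with rfl | hxpos
    · simp
    apply mul_le_mul_of_nonneg_left _ (Nat.cast_nonneg x)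
    apply logsum (range (L + 1 - x)) (p x) (p (x - 1))
      (fun y hy => hp x y (by rw [Finset.mem_range] at hy; omega))
      (fun y hy => hp (x - 1) y (by rw [Finset.mem_range] at hy; omega))
      ?_ (hMpos (x - 1) (by omega))
    simp only [hMdef]
    apply Finset.sum_le_sum_of_subset_of_nonneg
    · intro y hy
      rw [Finset.mem_range] at hy ⊢
      omega
    · intro y hy _
      rw [Finset.mem_range] at hy
      exact (hp (x - 1) y (by omega)).le
  have hx2 := hazard1 (n := L) (p := M) hMpos hu
  rw [hMtot] at hx2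
  simp only [Real.log_one, mul_zero, zero_add, one_mul] at hx2
  -- combine
  have hsplit : ∑ x ∈ range (L + 1), ∑ y ∈ range (L + 1 - x),
        ((x : ℝ) * (p x y * (Real.log (p (x - 1) y) - Real.log (p x y)))
          + (y : ℝ) * (p x y * (Real.log (p x (y - 1)) - Real.log (p x y))))
      = ∑ x ∈ range (L + 1), ∑ y ∈ range (L + 1 - x),
          (x : ℝ) * (p x y * (Real.log (p (x - 1) y) - Real.log (p x y)))
        + ∑ x ∈ range (L + 1), ∑ y ∈ range (L + 1 - x),
          (y : ℝ) * (p x y * (Real.log (p x (y - 1)) - Real.log (p x y))) := by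
    simp only [Finset.sum_add_distrib]
  rw [hsplit]
  have h1 := Finset.sum_le_sum hx1
  have h2 := Finset.sum_le_sum hy
  have e3 : ∑ x ∈ range (L + 1), (M x * κ + c * (M x * Real.log (M x)
        + ∑ y ∈ range (L + 1 - x), Real.negMulLog (p x y)))
      = κ + c * (∑ x ∈ range (L + 1), M x * Real.log (M x)
        + ∑ x ∈ range (L + 1), ∑ y ∈ range (L + 1 - x), Real.negMulLog (p x y)) := by
    rw [Finset.sum_add_distrib, ← Finset.sum_mul, hMtot, one_mul, ← Finset.mul_sum,
      Finset.sum_add_distrib]
  rw [e3] at h2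
  have e4 : ∑ x ∈ range (L + 1), Real.negMulLog (M x) = - ∑ x ∈ range (L + 1), M x * Real.log (M x) := by
    rw [← Finset.sum_neg_distrib]
    apply Finset.sum_congr rfl
    intro x _
    simp [Real.negMulLog]
  rw [e4] at hx2
  have : ∑ x ∈ range (L + 1), (x : ℝ) * (M x * (Real.log (M (x - 1)) - Real.log (M x)))
      ≤ κ + c * (- ∑ x ∈ range (L + 1), M x * Real.log (M x)) := hx2
  nlinarith [h1, h2, this]

end Vale.Agent.Lib.P369
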