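import Mathlib

/-!
Double Abel summation: the bidiagonal coupling maximises the transport functional for antitone
weights among all couplings with the margins `m+1` and `m+2`.
-/

namespace Vale.Agent.Lib.P369

open Finset

lemma abel_identity (n : ℕ) (x l : ℕ → ℝ) :
    ∑ k ∈ range (n + 1), x k * l k
      = ∑ K ∈ range n, (∑ k ∈ range (K + 1), x k) * (l K - l (K + 1))
        + (∑ k ∈ range (n + 1), x k) * l n := by
  induction n with
  | zero => simp
  | succ n ih =>
    rw [Finset.sum_range_succ, ih, Finset.sum_range_succ (fun K => _ * _) n,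
      Finset.sum_range_succ (fun k => x k) (n + 1)]
    ring

lemma abel_nonneg (n : ℕ) (x l : ℕ → ℝ) (hl : ∀ K < n, l (K + 1) ≤ l K)
    (hp : ∀ K < n, 0 ≤ ∑ k ∈ range (K + 1), x k) (ht : ∑ k ∈ range (n + 1), x k = 0) :
    0 ≤ ∑ k ∈ range (n + 1), x k * l k := by
  rw [abel_identity, ht, zero_mul, add_zero]
  apply Finset.sum_nonneg
  intro K hK
  rw [Finset.mem_range] at hK
  exact mul_nonneg (hp K hK) (by linarith [hl K hK])

/-- The Fock (bidiagonal) coupling. -/
noncomputable def biW (m k i : ℕ) : ℝ :=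
  (if k = i then ((m + 1 - i : ℕ) : ℝ) else 0) + (if k + 1 = i then (i : ℝ) else 0)

lemma biW_nonneg (m k i : ℕ) : 0 ≤ biW m k i := by
  unfold biW
  split_ifs <;> positivity

lemma sum_biW_k (m K i : ℕ) : ∑ k ∈ range (K + 1), biW m k i
    = (if i ≤ K then ((m + 1 - i : ℕ) : ℝ) else 0)
      + (if 1 ≤ i ∧ i ≤ K + 1 then (i : ℝ) else 0) := by
  unfold biW
  rw [Finset.sum_add_distrib]
  congr 1
  · rw [Finset.sum_ite_eq' (range (K + 1)) i]
    simp only [Finset.mem_range, Nat.lt_succ_iff]
  · cases i with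
    | zero => simp
    | succ j =>
      have : ∀ k, (k + 1 = j + 1) = (k = j) := by intro k; simp
      simp only [this]
      rw [Finset.sum_ite_eq' (range (K + 1)) j]
      simp only [Finset.mem_range, Nat.lt_succ_iff]
      by_cases h : j ≤ K
      · rw [if_pos h, if_pos ⟨by omega, by omega⟩]
      · rw [if_neg h, if_neg (by omega)]

lemma sum_biW_i (m I k : ℕ) : ∑ i ∈ range (I + 1), biW m k i
    = (if k ≤ I then ((m + 1 - k : ℕ) : ℝ) else 0)
      + (if k + 1 ≤ I then ((k + 1 : ℕ) : ℝ) else 0) := by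
  unfold biW
  rw [Finset.sum_add_distrib]
  congr 1
  · have : ∀ i, (if k = i then ((m + 1 - i : ℕ) : ℝ) else 0)
        = if k = i then ((m + 1 - k : ℕ) : ℝ) else 0 := by
      intro i
      split_ifs with h
      · rw [h]
      · rfl
    simp only [this]
    rw [Finset.sum_ite_eq (range (I + 1)) k]
    simp only [Finset.mem_range, Nat.lt_succ_iff]
  · have : ∀ i, (if k + 1 = i then (i : ℝ) else 0)
        = if k + 1 = i then ((k + 1 : ℕ) : ℝ) else 0 := by
      intro i
      split_ifs with h
      · rw [h]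
      · rfl
    simp only [this]
    rw [Finset.sum_ite_eq (range (I + 1)) (k + 1)]
    simp only [Finset.mem_range, Nat.lt_succ_iff]

lemma row_biW {m i : ℕ} (hi : i ≤ m + 1) : ∑ k ∈ range (m + 1), biW m k i = ((m + 1 : ℕ) : ℝ) := by
  rw [sum_biW_k]
  by_cases h : i ≤ m
  · rw [if_pos h]
    by_cases h1 : 1 ≤ i
    · rw [if_pos ⟨h1, by omega⟩, ← Nat.cast_add]
      congr 1
      omega
    · have : i = 0 := by omega
      subst this
      simp
  · have : i = m + 1 := by omega
    subst this
    simp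

lemma col_biW {m k : ℕ} (hk : k ≤ m) : ∑ i ∈ range (m + 1 + 1), biW m k i = ((m + 2 : ℕ) : ℝ) := by
  rw [sum_biW_i, if_pos (by omega), if_pos (by omega), ← Nat.cast_add]
  congr 1
  omega

/-- Comparison of corner sums. -/
lemma corner_le {m : ℕ} {W : ℕ → ℕ → ℝ}
    (hW : ∀ k ≤ m, ∀ i ≤ m + 1, 0 ≤ W k i)
    (hrow : ∀ i ≤ m + 1, ∑ k ∈ range (m + 1), W k i = ((m + 1 : ℕ) : ℝ))
    (hcol : ∀ k ≤ m, ∑ i ∈ range (m + 1 + 1), W k i = ((m + 2 : ℕ) : ℝ))
    {K I : ℕ} (hK : K ≤ m) (hI : I ≤ m + 1) :
    ∑ k ∈ range (K + 1), ∑ i ∈ range (I + 1), W k i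
      ≤ ∑ k ∈ range (K + 1), ∑ i ∈ range (I + 1), biW m k i := by
  rcases le_or_gt I K with h | h
  · rw [Finset.sum_comm, Finset.sum_comm (f := fun k i => biW m k i)]
    apply Finset.sum_le_sum
    intro i hi
    rw [Finset.mem_range] at hi
    have h1 : ∑ k ∈ range (K + 1), biW m k i = ((m + 1 : ℕ) : ℝ) := by
      rw [sum_biW_k, if_pos (by omega)]
      by_cases h1 : 1 ≤ i
      · rw [if_pos ⟨h1, by omega⟩, ← Nat.cast_add]
        congr 1
        omega
      · have : i = 0 := by omega
        subst this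
        simp
    rw [h1, ← hrow i (by omega)]
    apply Finset.sum_le_sum_of_subset_of_nonneg
    · intro k hk
      rw [Finset.mem_range] at hk ⊢
      omega
    · intro k hk _
      rw [Finset.mem_range] at hk
      exact hW k (by omega) i (by omega)
  · apply Finset.sum_le_sum
    intro k hk
    rw [Finset.mem_range] at hk
    have h1 : ∑ i ∈ range (I + 1), biW m k i = ((m + 2 : ℕ) : ℝ) := by
      rw [sum_biW_i, if_pos (by omega), if_pos (by omega), ← Nat.cast_add]
      congr 1
      omega
    rw [h1, ← hcol k (by omega)]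
    apply Finset.sum_le_sum_of_subset_of_nonneg
    · intro i hi
      rw [Finset.mem_range] at hi ⊢
      omega
    · intro i hi _
      rw [Finset.mem_range] at hi
      exact hW k (by omega) i (by omega)

/-- **Transport lemma.** -/
theorem transport {m : ℕ} {W : ℕ → ℕ → ℝ} {a l : ℕ → ℝ}
    (hW : ∀ k ≤ m, ∀ i ≤ m + 1, 0 ≤ W k i)
    (hrow : ∀ i ≤ m + 1, ∑ k ∈ range (m + 1), W k i = ((m + 1 : ℕ) : ℝ))
    (hcol : ∀ k ≤ m, ∑ i ∈ range (m + 1 + 1), W k i = ((m + 2 : ℕ) : ℝ))
    (ha : ∀ i < m + 1, a (i + 1) ≤ a i) (hl : ∀ k < m, l (k + 1) ≤ l k) :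
    ∑ k ∈ range (m + 1), ∑ i ∈ range (m + 1 + 1), W k i * (a i * l k)
      ≤ ∑ i ∈ range (m + 1 + 1),
          (((m + 1 - i : ℕ) : ℝ) * (a i * l i) + (i : ℝ) * (a i * l (i - 1))) := by
  -- the right side is the functional of the bidiagonal coupling
  have hR : ∑ i ∈ range (m + 1 + 1),
        (((m + 1 - i : ℕ) : ℝ) * (a i * l i) + (i : ℝ) * (a i * l (i - 1)))
      = ∑ k ∈ range (m + 1), ∑ i ∈ range (m + 1 + 1), biW m k i * (a i * l k) := by
    rw [Finset.sum_comm]
    apply Finset.sum_congr rfl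
    intro i hi
    rw [Finset.mem_range] at hi
    unfold biW
    simp only [add_mul, ite_mul, zero_mul]
    rw [Finset.sum_add_distrib]
    congr 1
    · rw [Finset.sum_ite_eq' (range (m + 1)) i]
      by_cases h : i ∈ range (m + 1)
      · rw [if_pos h]
      · rw [if_neg h]
        have : i = m + 1 := by
          rw [Finset.mem_range] at h
          omega
        subst this
        simp
    · cases i with
      | zero => simp
      | succ j =>
        have : ∀ k, (k + 1 = j + 1) = (k = j) := by intro k; simp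
        simp only [this]
        rw [Finset.sum_ite_eq' (range (m + 1)) j, if_pos (by rw [Finset.mem_range]; omega)]
        simp
  rw [hR]
  -- difference
  set d : ℕ → ℕ → ℝ := fun k i => biW m k i - W k i with hd
  have hdrow : ∀ i ≤ m + 1, ∑ k ∈ range (m + 1), d k i = 0 := by
    intro i hi
    simp only [hd]
    rw [Finset.sum_sub_distrib, row_biW hi, hrow i hi, sub_self]
  have hdcol : ∀ k ≤ m, ∑ i ∈ range (m + 1 + 1), d k i = 0 := by
    intro k hk
    simp only [hd]
    rw [Finset.sum_sub_distrib, col_biW hk, hcol k hk, sub_self]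
  have hcorner : ∀ K ≤ m, ∀ I ≤ m + 1,
      0 ≤ ∑ i ∈ range (I + 1), ∑ k ∈ range (K + 1), d k i := by
    intro K hK I hI
    rw [Finset.sum_comm]
    simp only [hd, Finset.sum_sub_distrib]
    have := corner_le hW hrow hcol hK hI
    linarith
  -- inner Abel summation, in the index i
  have hinner : ∀ K ≤ m, 0 ≤ ∑ k ∈ range (K + 1), ∑ i ∈ range (m + 1 + 1), d k i * a i := by
    intro K hK
    have h := abel_nonneg (m + 1) (fun i => ∑ k ∈ range (K + 1), d k i) a ha
      (fun I hI => hcorner K hK I (by omega)) ?_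
    · rw [Finset.sum_comm]
      simp only [Finset.sum_mul] at h
      exact h
    · rw [Finset.sum_comm]
      apply Finset.sum_eq_zero
      intro k hk
      rw [Finset.mem_range] at hk
      exact hdcol k (by omega)
  -- outer Abel summation, in the index k
  have houter := abel_nonneg m (fun k => ∑ i ∈ range (m + 1 + 1), d k i * a i) l hl
    (fun K hK => hinner K (by omega)) ?_
  · have e : ∑ k ∈ range (m + 1), ∑ i ∈ range (m + 1 + 1), biW m k i * (a i * l k)
        - ∑ k ∈ range (m + 1), ∑ i ∈ range (m + 1 + 1), W k i * (a i * l k)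
        = ∑ k ∈ range (m + 1), (∑ i ∈ range (m + 1 + 1), d k i * a i) * l k := by
      rw [← Finset.sum_sub_distrib]
      apply Finset.sum_congr rfl
      intro k _
      rw [← Finset.sum_sub_distrib, Finset.sum_mul]
      apply Finset.sum_congr rfl
      intro i _
      simp only [hd]
      ring
    linarith
  · rw [Finset.sum_comm]
    apply Finset.sum_eq_zero
    intro i hi
    rw [Finset.mem_range] at hi
    rw [← Finset.sum_mul, hdrow i (by omega), zero_mul]

end Vale.Agent.Lib.P369
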