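import Vale.Agent.Lib.P369.Fock
import Vale.Agent.Lib.P369.Hazard
import Vale.Agent.Lib.P369.Transport

/-!
The entropy dissipation of a gauge-invariant two-mode operator is bounded through the transport
lemma by the dissipation of a Fock-diagonal distribution with the same level spectra, and then by
the classical hazard bound.
-/

namespace Vale.Agent.Lib.P369

open Matrix Finset
open scoped ComplexOrder

variable {L : ℕ}

/-- Truncated annihilation operator of the first mode. -/
noncomputable def ann1 (L : ℕ) : Matrix (Fock2 L) (Fock2 L) ℂ :=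
  fun f e => if xx e = xx f + 1 ∧ yy e = yy f then ((Real.sqrt (xx e) : ℝ) : ℂ) else 0

/-- Truncated annihilation operator of the second mode. -/
noncomputable def ann2 (L : ℕ) : Matrix (Fock2 L) (Fock2 L) ℂ :=
  fun f e => if xx e = xx f ∧ yy e = yy f + 1 then ((Real.sqrt (yy e) : ℝ) : ℂ) else 0

/-- Total number operator. -/
noncomputable def numOp (L : ℕ) : Matrix (Fock2 L) (Fock2 L) ℂ :=
  rdiag (fun e : Fock2 L => (photons e : ℝ))

lemma ann1_support {f e : Fock2 L} (h : photons e ≠ photons f + 1) : ann1 L f e = 0 := by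
  unfold ann1
  rw [if_neg]
  rintro ⟨h1, h2⟩
  apply h
  simp only [photons_eq]
  omega

lemma ann2_support {f e : Fock2 L} (h : photons e ≠ photons f + 1) : ann2 L f e = 0 := by
  unfold ann2
  rw [if_neg]
  rintro ⟨h1, h2⟩
  apply h
  simp only [photons_eq]
  omega

lemma sum_if_low1 (e : Fock2 L) (c : ℂ) :
    ∑ f : Fock2 L, (if xx e = xx f + 1 ∧ yy e = yy f then c else 0)
      = if 1 ≤ xx e then c else 0 := by
  by_cases h : 1 ≤ xx e
  · rw [if_pos h]
    have hf0 : xx e - 1 + yy e ≤ L := by have := xx_add_yy_le e; omega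
    have key : ∀ f : Fock2 L, (xx e = xx f + 1 ∧ yy e = yy f) ↔ f = mkF (xx e - 1) (yy e) hf0 := by
      intro f
      constructor
      · rintro ⟨h1, h2⟩
        apply fock_ext
        · simp only [xx_mkF]; omega
        · simp only [yy_mkF]; omega
      · rintro rfl
        exact ⟨(Nat.sub_add_cancel h).symm, rfl⟩
    simp only [key]
    simp
  · rw [if_neg h]
    apply Finset.sum_eq_zero
    intro f _
    rw [if_neg]
    rintro ⟨h1, _⟩
    omega

lemma sum_if_low2 (e : Fock2 L) (c : ℂ) :
    ∑ f : Fock2 L, (if xx e = xx f ∧ yy e = yy f + 1 then c else 0)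
      = if 1 ≤ yy e then c else 0 := by
  by_cases h : 1 ≤ yy e
  · rw [if_pos h]
    have hf0 : xx e + (yy e - 1) ≤ L := by have := xx_add_yy_le e; omega
    have key : ∀ f : Fock2 L, (xx e = xx f ∧ yy e = yy f + 1) ↔ f = mkF (xx e) (yy e - 1) hf0 := by
      intro f
      constructor
      · rintro ⟨h1, h2⟩
        apply fock_ext
        · simp only [xx_mkF]; omega
        · simp only [yy_mkF]; omega
      · rintro rfl
        exact ⟨rfl, (Nat.sub_add_cancel h).symm⟩
    simp only [key]
    simp
  · rw [if_neg h]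
    apply Finset.sum_eq_zero
    intro f _
    rw [if_neg]
    rintro ⟨_, h1⟩
    omega

lemma sum_if_up1 (f : Fock2 L) (c : ℂ) :
    ∑ e : Fock2 L, (if xx e = xx f + 1 ∧ yy e = yy f then c else 0)
      = if photons f < L then c else 0 := by
  by_cases h : photons f < L
  · rw [if_pos h]
    have hf0 : xx f + 1 + yy f ≤ L := by rw [photons_eq] at h; omega
    have key : ∀ e : Fock2 L, (xx e = xx f + 1 ∧ yy e = yy f) ↔ e = mkF (xx f + 1) (yy f) hf0 := by
      intro e
      constructor
      · rintro ⟨h1, h2⟩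
        apply fock_ext
        · simp only [xx_mkF]; omega
        · simp only [yy_mkF]; omega
      · rintro rfl
        simp only [xx_mkF, yy_mkF, and_self]
    simp only [key]
    simp
  · rw [if_neg h]
    apply Finset.sum_eq_zero
    intro e _
    rw [if_neg]
    rintro ⟨h1, h2⟩
    have := xx_add_yy_le e
    rw [photons_eq] at h
    omega

lemma sum_if_up2 (f : Fock2 L) (c : ℂ) :
    ∑ e : Fock2 L, (if xx e = xx f ∧ yy e = yy f + 1 then c else 0)
      = if photons f < L then c else 0 := by
  by_cases h : photons f < L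
  · rw [if_pos h]
    have hf0 : xx f + (yy f + 1) ≤ L := by rw [photons_eq] at h; omega
    have key : ∀ e : Fock2 L, (xx e = xx f ∧ yy e = yy f + 1) ↔ e = mkF (xx f) (yy f + 1) hf0 := by
      intro e
      constructor
      · rintro ⟨h1, h2⟩
        apply fock_ext
        · simp only [xx_mkF]; omega
        · simp only [yy_mkF]; omega
      · rintro rfl
        simp only [xx_mkF, yy_mkF, and_self]
    simp only [key]
    simp
  · rw [if_neg h]
    apply Finset.sum_eq_zero
    intro e _
    rw [if_neg]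
    rintro ⟨h1, h2⟩
    have := xx_add_yy_le e
    rw [photons_eq] at h
    omega

lemma star_mul_sqrt (n : ℕ) :
    star ((Real.sqrt (n : ℝ) : ℝ) : ℂ) * ((Real.sqrt (n : ℝ) : ℝ) : ℂ) = ((n : ℝ) : ℂ) := by
  rw [Complex.star_def, Complex.conj_ofReal, ← Complex.ofReal_mul,
    Real.mul_self_sqrt (Nat.cast_nonneg n)]

lemma ann1H_mul_ann1 : (ann1 L)ᴴ * ann1 L = rdiag (fun e : Fock2 L => (xx e : ℝ)) := by
  ext e e'
  rw [Matrix.mul_apply]
  simp only [conjTranspose_apply]
  by_cases he : e = e'
  · subst he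
    have term : ∀ f : Fock2 L, star (ann1 L f e) * ann1 L f e
        = if xx e = xx f + 1 ∧ yy e = yy f then ((xx e : ℝ) : ℂ) else 0 := by
      intro f
      unfold ann1
      split_ifs with h
      · exact star_mul_sqrt _
      · simp
    simp only [term]
    rw [sum_if_low1]
    simp only [rdiag, diagonal_apply_eq]
    split_ifs with h
    · rfl
    · have : xx e = 0 := by omega
      simp [this]
  · rw [rdiag, diagonal_apply_ne _ he]
    apply Finset.sum_eq_zero
    intro f _
    unfold ann1
    split_ifs with h1 h2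
    · exfalso
      apply he
      apply fock_ext
      · omega
      · omega
    · simp
    · simp
    · simp

lemma ann2H_mul_ann2 : (ann2 L)ᴴ * ann2 L = rdiag (fun e : Fock2 L => (yy e : ℝ)) := by
  ext e e'
  rw [Matrix.mul_apply]
  simp only [conjTranspose_apply]
  by_cases he : e = e'
  · subst he
    have term : ∀ f : Fock2 L, star (ann2 L f e) * ann2 L f e
        = if xx e = xx f ∧ yy e = yy f + 1 then ((yy e : ℝ) : ℂ) else 0 := by
      intro f
      unfold ann2
      split_ifs with h
      · exact star_mul_sqrt _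
      · simp
    simp only [term]
    rw [sum_if_low2]
    simp only [rdiag, diagonal_apply_eq]
    split_ifs with h
    · rfl
    · have : yy e = 0 := by omega
      simp [this]
  · rw [rdiag, diagonal_apply_ne _ he]
    apply Finset.sum_eq_zero
    intro f _
    unfold ann2
    split_ifs with h1 h2
    · exfalso
      apply he
      apply fock_ext
      · omega
      · omega
    · simp
    · simp
    · simp

lemma ann1_mul_ann1H : ann1 L * (ann1 L)ᴴ
    = rdiag (fun f : Fock2 L => if photons f < L then ((xx f : ℝ) + 1) else 0) := by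
  ext f f'
  rw [Matrix.mul_apply]
  simp only [conjTranspose_apply]
  by_cases he : f = f'
  · subst he
    have term : ∀ e : Fock2 L, ann1 L f e * star (ann1 L f e)
        = if xx e = xx f + 1 ∧ yy e = yy f then (((xx f : ℝ) + 1 : ℝ) : ℂ) else 0 := by
      intro e
      unfold ann1
      split_ifs with h
      · rw [mul_comm, star_mul_sqrt, h.1]
        push_cast
        ring
      · simp
    simp only [term]
    rw [sum_if_up1]
    simp only [rdiag, diagonal_apply_eq]
    split_ifs with h
    · rfl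
    · simp
  · rw [rdiag, diagonal_apply_ne _ he]
    apply Finset.sum_eq_zero
    intro e _
    unfold ann1
    split_ifs with h1 h2
    · exfalso
      apply he
      apply fock_ext
      · omega
      · omega
    · simp
    · simp
    · simp

lemma ann2_mul_ann2H : ann2 L * (ann2 L)ᴴ
    = rdiag (fun f : Fock2 L => if photons f < L then ((yy f : ℝ) + 1) else 0) := by
  ext f f'
  rw [Matrix.mul_apply]
  simp only [conjTranspose_apply]
  by_cases he : f = f'
  · subst he
    have term : ∀ e : Fock2 L, ann2 L f e * star (ann2 L f e)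
        = if xx e = xx f ∧ yy e = yy f + 1 then (((yy f : ℝ) + 1 : ℝ) : ℂ) else 0 := by
      intro e
      unfold ann2
      split_ifs with h
      · rw [mul_comm, star_mul_sqrt, h.2]
        push_cast
        ring
      · simp
    simp only [term]
    rw [sum_if_up2]
    simp only [rdiag, diagonal_apply_eq]
    split_ifs with h
    · rfl
    · simp
  · rw [rdiag, diagonal_apply_ne _ he]
    apply Finset.sum_eq_zero
    intro e _
    unfold ann2
    split_ifs with h1 h2
    · exfalso
      apply he
      apply fock_ext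
      · omega
      · omega
    · simp
    · simp
    · simp

lemma sum_annH_ann : (ann1 L)ᴴ * ann1 L + (ann2 L)ᴴ * ann2 L = numOp L := by
  rw [ann1H_mul_ann1, ann2H_mul_ann2, numOp]
  ext e e'
  by_cases he : e = e'
  · subst he
    simp [rdiag, photons_eq]
  · simp [rdiag, diagonal_apply_ne _ he]

lemma sum_ann_annH : ann1 L * (ann1 L)ᴴ + ann2 L * (ann2 L)ᴴ
    = rdiag (fun f : Fock2 L => if photons f < L then ((photons f : ℝ) + 2) else 0) := by
  rw [ann1_mul_ann1H, ann2_mul_ann2H]
  ext e e'
  by_cases he : e = e'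
  · subst he
    simp only [rdiag, Matrix.add_apply, diagonal_apply_eq]
    split_ifs with h
    · simp only [photons_eq]
      push_cast
      ring
    · simp
  · simp [rdiag, diagonal_apply_ne _ he]

/-- A level-preserving unitary commutes with functions of the photon number. -/
lemma conj_level_diag {U : Matrix (Fock2 L) (Fock2 L) ℂ} (hU2 : Uᴴ * U = 1)
    (hlev : ∀ e f, photons e ≠ photons f → U e f = 0) (μ : ℕ → ℝ) :
    Uᴴ * rdiag (fun e : Fock2 L => μ (photons e)) * U = rdiag (fun e : Fock2 L => μ (photons e)) := by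
  have hc : rdiag (fun e : Fock2 L => μ (photons e)) * U
      = U * rdiag (fun e : Fock2 L => μ (photons e)) := by
    ext g f
    rw [rdiag, diagonal_mul, mul_diagonal]
    by_cases h : photons g = photons f
    · rw [h, mul_comm]
    · rw [hlev g f h]
      simp
  rw [Matrix.mul_assoc, hc, ← Matrix.mul_assoc, hU2, Matrix.one_mul]

/-- The transition weights in an eigenbasis. -/
noncomputable def Wt (U : Matrix (Fock2 L) (Fock2 L) ℂ) (f e : Fock2 L) : ℝ :=
  Complex.normSq ((Uᴴ * ann1 L * U) f e) + Complex.normSq ((Uᴴ * ann2 L * U) f e)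

lemma Wt_nonneg (U : Matrix (Fock2 L) (Fock2 L) ℂ) (f e : Fock2 L) : 0 ≤ Wt U f e :=
  add_nonneg (Complex.normSq_nonneg _) (Complex.normSq_nonneg _)

lemma conj_support {U A : Matrix (Fock2 L) (Fock2 L) ℂ}
    (hlev : ∀ e f, photons e ≠ photons f → U e f = 0)
    (hA : ∀ f e, photons e ≠ photons f + 1 → A f e = 0) {f e : Fock2 L}
    (h : photons e ≠ photons f + 1) : (Uᴴ * A * U) f e = 0 := by
  rw [Matrix.mul_apply]
  apply Finset.sum_eq_zero
  intro k _
  by_cases hk : photons k = photons e
  · rw [Matrix.mul_apply, Finset.sum_mul]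
    apply Finset.sum_eq_zero
    intro g _
    by_cases hg : photons g = photons f
    · rw [hA g k (by rw [hk, hg]; exact h)]
      simp
    · rw [conjTranspose_apply, hlev g f hg]
      simp
  · rw [hlev k e hk]
    simp

lemma Wt_support (U : Matrix (Fock2 L) (Fock2 L) ℂ)
    (hlev : ∀ e f, photons e ≠ photons f → U e f = 0) {f e : Fock2 L}
    (h : photons e ≠ photons f + 1) : Wt U f e = 0 := by
  unfold Wt
  rw [conj_support hlev (fun _ _ h => ann1_support h) h,
    conj_support hlev (fun _ _ h => ann2_support h) h]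
  simp

lemma Wt_row {U : Matrix (Fock2 L) (Fock2 L) ℂ} (hU1 : U * Uᴴ = 1) (hU2 : Uᴴ * U = 1)
    (hlev : ∀ e f, photons e ≠ photons f → U e f = 0) (e : Fock2 L) :
    ∑ f, Wt U f e = (photons e : ℝ) := by
  have h1 := sum_normSq_col (Uᴴ * ann1 L * U) e
  have h2 := sum_normSq_col (Uᴴ * ann2 L * U) e
  have e1 : ∀ A : Matrix (Fock2 L) (Fock2 L) ℂ, (Uᴴ * A * U)ᴴ * (Uᴴ * A * U) = Uᴴ * (Aᴴ * A) * U := by
    intro A
    rw [conjTranspose_mul, conjTranspose_mul, conjTranspose_conjTranspose]
    calc Uᴴ * (Aᴴ * U) * (Uᴴ * A * U) = Uᴴ * Aᴴ * (U * Uᴴ) * A * U := by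
          simp only [Matrix.mul_assoc]
      _ = Uᴴ * (Aᴴ * A) * U := by
          rw [hU1, Matrix.mul_one]
          simp only [Matrix.mul_assoc]
  rw [e1] at h1 h2
  have h3 : Uᴴ * ((ann1 L)ᴴ * ann1 L) * U + Uᴴ * ((ann2 L)ᴴ * ann2 L) * U = numOp L := by
    rw [← Matrix.add_mul, ← Matrix.mul_add, sum_annH_ann, numOp]
    exact conj_level_diag hU2 hlev (fun n => (n : ℝ))
  have h4 : (((∑ f, Wt U f e : ℝ)) : ℂ) = ((photons e : ℝ) : ℂ) := by
    unfold Wt
    rw [Finset.sum_add_distrib, Complex.ofReal_add, h1, h2, ← Matrix.add_apply, h3, numOp]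
    simp [rdiag]
  exact_mod_cast h4

lemma Wt_col {U : Matrix (Fock2 L) (Fock2 L) ℂ} (hU1 : U * Uᴴ = 1) (hU2 : Uᴴ * U = 1)
    (hlev : ∀ e f, photons e ≠ photons f → U e f = 0) (f : Fock2 L) :
    ∑ e, Wt U f e = if photons f < L then ((photons f : ℝ) + 2) else 0 := by
  have h1 := sum_normSq_row (Uᴴ * ann1 L * U) f
  have h2 := sum_normSq_row (Uᴴ * ann2 L * U) f
  have e1 : ∀ A : Matrix (Fock2 L) (Fock2 L) ℂ, (Uᴴ * A * U) * (Uᴴ * A * U)ᴴ = Uᴴ * (A * Aᴴ) * U := by
    intro A
    rw [conjTranspose_mul, conjTranspose_mul, conjTranspose_conjTranspose]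
    calc Uᴴ * A * U * (Uᴴ * (Aᴴ * U)) = Uᴴ * A * (U * Uᴴ) * Aᴴ * U := by
          simp only [Matrix.mul_assoc]
      _ = Uᴴ * (A * Aᴴ) * U := by
          rw [hU1, Matrix.mul_one]
          simp only [Matrix.mul_assoc]
  rw [e1] at h1 h2
  have h3 : Uᴴ * (ann1 L * (ann1 L)ᴴ) * U + Uᴴ * (ann2 L * (ann2 L)ᴴ) * U
      = rdiag (fun f : Fock2 L => if photons f < L then ((photons f : ℝ) + 2) else 0) := by
    rw [← Matrix.add_mul, ← Matrix.mul_add, sum_ann_annH]
    exact conj_level_diag hU2 hlev (fun n => if n < L then ((n : ℝ) + 2) else 0)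
  have h4 : (((∑ e, Wt U f e : ℝ)) : ℂ)
      = (((if photons f < L then ((photons f : ℝ) + 2) else 0 : ℝ)) : ℂ) := by
    unfold Wt
    rw [Finset.sum_add_distrib, Complex.ofReal_add, h1, h2, ← Matrix.add_apply, h3]
    simp [rdiag]
  exact_mod_cast h4

/-- The dissipation functional in the eigenbasis. -/
theorem trace_dissipation {B U : Matrix (Fock2 L) (Fock2 L) ℂ} {a l : Fock2 L → ℝ}
    (hU2 : Uᴴ * U = 1) (hlev : ∀ e f, photons e ≠ photons f → U e f = 0)
    (hd : B = U * rdiag a * Uᴴ) :
    (trace ((ann1 L * B * (ann1 L)ᴴ + ann2 L * B * (ann2 L)ᴴ - numOp L * B)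
        * (U * rdiag l * Uᴴ))).re
      = ∑ f, ∑ e, Wt U f e * (a e * l f) - ∑ e, (photons e : ℝ) * (a e * l e) := by
  have hA : ∀ A : Matrix (Fock2 L) (Fock2 L) ℂ, trace (A * B * Aᴴ * (U * rdiag l * Uᴴ))
      = trace ((Uᴴ * A * U) * rdiag a * (Uᴴ * A * U)ᴴ * rdiag l) := by
    intro A
    rw [hd, conjTranspose_mul, conjTranspose_mul, conjTranspose_conjTranspose]
    calc trace (A * (U * rdiag a * Uᴴ) * Aᴴ * (U * rdiag l * Uᴴ))
        = trace (Uᴴ * (A * (U * rdiag a * Uᴴ) * Aᴴ * (U * rdiag l))) := by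
          rw [← Matrix.mul_assoc _ _ Uᴴ, Matrix.trace_mul_comm]
      _ = _ := by simp only [Matrix.mul_assoc]
  have hN : trace (numOp L * B * (U * rdiag l * Uᴴ))
      = ((∑ e, (photons e : ℝ) * (a e * l e) : ℝ) : ℂ) := by
    rw [hd]
    have e1 : numOp L * (U * rdiag a * Uᴴ) * (U * rdiag l * Uᴴ)
        = numOp L * U * (rdiag a * (Uᴴ * U) * rdiag l) * Uᴴ := by
      simp only [Matrix.mul_assoc]
    have e2 : Uᴴ * (numOp L) * U = numOp L := conj_level_diag hU2 hlev (fun n => (n : ℝ))
    rw [e1, hU2, Matrix.mul_one]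
    have e3 : trace (numOp L * U * (rdiag a * rdiag l) * Uᴴ)
        = trace (numOp L * (rdiag a * rdiag l)) := by
      calc trace (numOp L * U * (rdiag a * rdiag l) * Uᴴ)
          = trace (Uᴴ * (numOp L * U * (rdiag a * rdiag l))) := Matrix.trace_mul_comm _ _
        _ = trace (Uᴴ * numOp L * U * (rdiag a * rdiag l)) := by simp only [Matrix.mul_assoc]
        _ = trace (numOp L * (rdiag a * rdiag l)) := by rw [e2]
    rw [e3, numOp, rdiag, rdiag, rdiag, diagonal_mul_diagonal, diagonal_mul_diagonal, trace_diagonal]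
    push_cast
    rfl
  rw [Matrix.sub_mul, Matrix.add_mul, trace_sub, trace_add, hA, hA, hN, trace_sandwich, trace_sandwich]
  simp only [Complex.sub_re, Complex.add_re, Complex.ofReal_re]
  congr 1
  rw [← Finset.sum_add_distrib]
  apply Finset.sum_congr rfl
  intro f _
  rw [← Finset.sum_add_distrib]
  apply Finset.sum_congr rfl
  intro e _
  unfold Wt
  ring

end Vale.Agent.Lib.P369
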