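import Vale.Agent.Lib.P369.Diss

/-!
The dissipation bound for gauge-invariant two-mode operators.
-/

namespace Vale.Agent.Lib.P369

open Matrix Finset
open scoped ComplexOrder

variable {L : ℕ}

lemma Wt_row_level {U : Matrix (Fock2 L) (Fock2 L) ℂ} (hU1 : U * Uᴴ = 1) (hU2 : Uᴴ * U = 1)
    (hlev : ∀ e f, photons e ≠ photons f → U e f = 0) {m i : ℕ} (hm : m < L) (hi : i ≤ m + 1) :
    ∑ k ∈ range (m + 1), Wt U (emb L m k) (emb L (m + 1) i) = ((m + 1 : ℕ) : ℝ) := by
  have h := Wt_row hU1 hU2 hlev (emb L (m + 1) i)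
  rw [photons_emb hi (by omega), sum_levels] at h
  rw [← h]
  symm
  apply Finset.sum_eq_single m
  · intro m' hm' hne
    rw [Finset.mem_range] at hm'
    apply Finset.sum_eq_zero
    intro k hk
    rw [Finset.mem_range] at hk
    apply Wt_support U hlev
    rw [photons_emb hi (by omega), photons_emb (by omega) (by omega)]
    omega
  · intro h'
    exfalso
    apply h'
    rw [Finset.mem_range]
    omega

lemma Wt_col_level {U : Matrix (Fock2 L) (Fock2 L) ℂ} (hU1 : U * Uᴴ = 1) (hU2 : Uᴴ * U = 1)
    (hlev : ∀ e f, photons e ≠ photons f → U e f = 0) {m k : ℕ} (hm : m < L) (hk : k ≤ m) :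
    ∑ i ∈ range (m + 1 + 1), Wt U (emb L m k) (emb L (m + 1) i) = ((m + 2 : ℕ) : ℝ) := by
  have h := Wt_col hU1 hU2 hlev (emb L m k)
  rw [photons_emb hk (by omega), if_pos hm, sum_levels] at h
  have e : ((m + 2 : ℕ) : ℝ) = (m : ℝ) + 2 := by push_cast; ring
  rw [e, ← h]
  symm
  apply Finset.sum_eq_single (m + 1)
  · intro m' hm' hne
    rw [Finset.mem_range] at hm'
    apply Finset.sum_eq_zero
    intro i hi
    rw [Finset.mem_range] at hi
    apply Wt_support U hlev
    rw [photons_emb hk (by omega), photons_emb (by omega) (by omega)]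
    omega
  · intro h'
    exfalso
    apply h'
    rw [Finset.mem_range]
    omega

/-- Reorganisation of the double sum by levels. -/
lemma sum_by_levels {U : Matrix (Fock2 L) (Fock2 L) ℂ}
    (hlev : ∀ e f, photons e ≠ photons f → U e f = 0) (a l : Fock2 L → ℝ) :
    ∑ f, ∑ e, Wt U f e * (a e * l f)
      = ∑ m ∈ range L, ∑ k ∈ range (m + 1), ∑ i ∈ range (m + 1 + 1),
          Wt U (emb L m k) (emb L (m + 1) i) * (a (emb L (m + 1) i) * l (emb L m k)) := by
  rw [sum_levels, Finset.sum_range_succ]
  have htop : ∑ k ∈ range (L + 1), ∑ e, Wt U (emb L L k) e * (a e * l (emb L L k)) = 0 := by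
    apply Finset.sum_eq_zero
    intro k hk
    rw [Finset.mem_range] at hk
    apply Finset.sum_eq_zero
    intro e _
    rw [Wt_support U hlev, zero_mul]
    rw [photons_emb (by omega) le_rfl]
    have := photons_le e
    omega
  rw [htop, add_zero]
  apply Finset.sum_congr rfl
  intro m hm
  rw [Finset.mem_range] at hm
  apply Finset.sum_congr rfl
  intro k hk
  rw [Finset.mem_range] at hk
  rw [sum_levels]
  apply Finset.sum_eq_single (m + 1)
  · intro m' hm' hne
    rw [Finset.mem_range] at hm'
    apply Finset.sum_eq_zero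
    intro i hi
    rw [Finset.mem_range] at hi
    rw [Wt_support U hlev, zero_mul]
    rw [photons_emb (by omega) (by omega), photons_emb (by omega) (by omega)]
    omega
  · intro h'
    exfalso
    apply h'
    rw [Finset.mem_range]
    omega

/-- **Dissipation bound.** -/
theorem dissipation_bound {U : Matrix (Fock2 L) (Fock2 L) ℂ} {a : Fock2 L → ℝ}
    (hU1 : U * Uᴴ = 1) (hU2 : Uᴴ * U = 1)
    (hlev : ∀ e f, photons e ≠ photons f → U e f = 0)
    (hsort : ∀ e f, photons e = photons f → yy e ≤ yy f → a f ≤ a e)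
    (hpos : ∀ e, 0 < a e) (hsum : ∑ e, a e = 1) {u : ℝ} (hu : 0 < u) :
    ∑ f, ∑ e, Wt U f e * (a e * Real.log (a f)) - ∑ e, (photons e : ℝ) * (a e * Real.log (a e))
      ≤ 2 * (chi u - psi u * gFun u) + psi u * ∑ e, Real.negMulLog (a e) := by
  set A : ℕ → ℕ → ℝ := fun m k => a (emb L m k) with hA
  set p : ℕ → ℕ → ℝ := fun x y => a (emb L (x + y) y) with hp
  have hpA : ∀ {m k : ℕ}, k ≤ m → p (m - k) k = A m k := by
    intro m k hk
    simp only [hp, hA, Nat.sub_add_cancel hk]
  have hsortA : ∀ {m k k' : ℕ}, m ≤ L → k' ≤ m → k ≤ k' → A m k' ≤ A m k := by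
    intro m k k' hm hk' hkk
    apply hsort
    · rw [photons_emb (by omega) hm, photons_emb hk' hm]
    · rw [yy_emb (by omega) hm, yy_emb hk' hm]
      exact hkk
  have hApos : ∀ m k, 0 < A m k := fun m k => hpos _
  -- reorganise
  rw [sum_by_levels hlev a (fun e => Real.log (a e))]
  -- transport for each level pair
  have htrans : ∀ m ∈ range L, ∑ k ∈ range (m + 1), ∑ i ∈ range (m + 1 + 1),
        Wt U (emb L m k) (emb L (m + 1) i) * (a (emb L (m + 1) i) * Real.log (a (emb L m k)))
      ≤ ∑ i ∈ range (m + 1 + 1), (((m + 1 - i : ℕ) : ℝ) * (A (m + 1) i * Real.log (A m i))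
          + (i : ℝ) * (A (m + 1) i * Real.log (A m (i - 1)))) := by
    intro m hm
    rw [Finset.mem_range] at hm
    exact transport (W := fun k i => Wt U (emb L m k) (emb L (m + 1) i))
      (a := fun i => A (m + 1) i) (l := fun k => Real.log (A m k))
      (fun k _ i _ => Wt_nonneg U _ _)
      (fun i hi => Wt_row_level hU1 hU2 hlev hm hi)
      (fun k hk => Wt_col_level hU1 hU2 hlev hm hk)
      (fun i hi => hsortA (by omega) (by omega) (by omega))
      (fun k hk => Real.log_le_log (hApos _ _) (hsortA (by omega) (by omega) (by omega)))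
  have h1 := Finset.sum_le_sum htrans
  -- classical quantities
  set G : ℕ → ℕ → ℝ := fun x y => (x : ℝ) * (p x y * Real.log (p (x - 1) y))
      + (y : ℝ) * (p x y * Real.log (p x (y - 1))) with hG
  set G' : ℕ → ℕ → ℝ := fun x y => ((x : ℝ) + (y : ℝ)) * (p x y * Real.log (p x y)) with hG'
  have hterm : ∀ m ∈ range L, ∀ i ∈ range (m + 1 + 1),
      (((m + 1 - i : ℕ) : ℝ) * (A (m + 1) i * Real.log (A m i))
          + (i : ℝ) * (A (m + 1) i * Real.log (A m (i - 1)))) = G (m + 1 - i) i := by
    intro m _ i hi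
    rw [Finset.mem_range] at hi
    have hi' : i ≤ m + 1 := by omega
    simp only [hG]
    rw [hpA hi']
    congr 1
    · by_cases h : m + 1 - i = 0
      · rw [h]; simp
      · have : p (m + 1 - i - 1) i = A m i := by
          have e : m + 1 - i - 1 = m - i := by omega
          rw [e]
          exact hpA (by omega)
        rw [this]
    · by_cases h : i = 0
      · subst h; simp
      · have : p (m + 1 - i) (i - 1) = A m (i - 1) := by
          have e : m + 1 - i = m - (i - 1) := by omega
          rw [e]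
          exact hpA (by omega)
        rw [this]
  have h2 : ∑ m ∈ range L, ∑ i ∈ range (m + 1 + 1), (((m + 1 - i : ℕ) : ℝ) * (A (m + 1) i * Real.log (A m i))
          + (i : ℝ) * (A (m + 1) i * Real.log (A m (i - 1))))
      = ∑ m ∈ range (L + 1), ∑ i ∈ range (m + 1), G (m - i) i := by
    rw [Finset.sum_range_succ' (fun m => ∑ i ∈ range (m + 1), G (m - i) i) L]
    have h0 : ∑ i ∈ range (0 + 1), G (0 - i) i = 0 := by
      simp [hG]
    rw [h0, add_zero]
    apply Finset.sum_congr rfl
    intro m hm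
    apply Finset.sum_congr rfl
    intro i hi
    exact hterm m hm i hi
  have h3 : ∑ e, (photons e : ℝ) * (a e * Real.log (a e))
      = ∑ m ∈ range (L + 1), ∑ i ∈ range (m + 1), G' (m - i) i := by
    rw [sum_levels]
    apply Finset.sum_congr rfl
    intro m hm
    rw [Finset.mem_range] at hm
    apply Finset.sum_congr rfl
    intro i hi
    rw [Finset.mem_range] at hi
    have hi' : i ≤ m := by omega
    simp only [hG']
    rw [hpA hi', photons_emb hi' (by omega)]
    have : ((m - i : ℕ) : ℝ) + (i : ℝ) = (m : ℝ) := by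
      rw [← Nat.cast_add, Nat.sub_add_cancel hi']
    rw [this]
  have hchange : ∀ φ : ℝ → ℝ, ∑ e, φ (a e)
      = ∑ x ∈ range (L + 1), ∑ y ∈ range (L + 1 - x), φ (p x y) := by
    intro φ
    rw [sum_levels, ← tri_sum (fun x y => φ (p x y))]
    apply Finset.sum_congr rfl
    intro m _
    apply Finset.sum_congr rfl
    intro i hi
    rw [Finset.mem_range] at hi
    rw [hpA (by omega)]
  have hM : ∑ x ∈ range (L + 1), ∑ y ∈ range (L + 1 - x), p x y = 1 := by
    rw [← hsum]
    exact (hchange id).symm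
  have hH : ∑ e, Real.negMulLog (a e)
      = ∑ x ∈ range (L + 1), ∑ y ∈ range (L + 1 - x), Real.negMulLog (p x y) :=
    hchange Real.negMulLog
  have hcl := classical_two (L := L) (p := p) (fun x y _ => hpos _) hM hu
  rw [hH]
  refine le_trans ?_ hcl
  rw [h3]
  have h4 : ∑ x ∈ range (L + 1), ∑ y ∈ range (L + 1 - x),
        ((x : ℝ) * (p x y * (Real.log (p (x - 1) y) - Real.log (p x y)))
          + (y : ℝ) * (p x y * (Real.log (p x (y - 1)) - Real.log (p x y))))
      = ∑ m ∈ range (L + 1), ∑ i ∈ range (m + 1), G (m - i) i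
        - ∑ m ∈ range (L + 1), ∑ i ∈ range (m + 1), G' (m - i) i := by
    rw [tri_sum G, tri_sum G', ← Finset.sum_sub_distrib]
    apply Finset.sum_congr rfl
    intro x _
    rw [← Finset.sum_sub_distrib]
    apply Finset.sum_congr rfl
    intro y _
    simp only [hG, hG']
    ring
  rw [h4, ← h2]
  linarith

end Vale.Agent.Lib.P369
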