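import Vale.Agent.Lib.P369.Flow

/-!
Removing the positive definiteness assumption, and the final form of the inequality.
-/

namespace Vale.Agent.Lib.P369

open Matrix Finset Filter Topology Set
open scoped ComplexOrder

variable {L : ℕ}

/-- The flat state. -/
noncomputable def flatState (L : ℕ) : Matrix (Fock2 L) (Fock2 L) ℂ :=
  (((Fintype.card (Fock2 L) : ℝ)⁻¹ : ℝ) : ℂ) • (1 : Matrix (Fock2 L) (Fock2 L) ℂ)

lemma card_fock_pos : 0 < Fintype.card (Fock2 L) :=
  Fintype.card_pos_iff.mpr ⟨vac L⟩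

lemma flatState_posDef : (flatState L).PosDef := by
  unfold flatState
  apply Matrix.PosDef.smul Matrix.PosDef.one
  have h : (0:ℝ) < (Fintype.card (Fock2 L) : ℝ)⁻¹ := by
    have := card_fock_pos (L := L)
    positivity
  exact_mod_cast h

lemma flatState_trace : trace (flatState L) = 1 := by
  unfold flatState
  rw [trace_smul, trace_one, smul_eq_mul]
  have h : (Fintype.card (Fock2 L) : ℝ) ≠ 0 := by
    have := card_fock_pos (L := L)
    positivity
  push_cast
  have h' : (Fintype.card (Fock2 L) : ℂ) ≠ 0 := by exact_mod_cast h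
  field_simp

lemma flatState_gauge : ∀ e f : Fock2 L, photons e ≠ photons f → flatState L e f = 0 := by
  intro e f h
  have hne : e ≠ f := fun h' => h (by rw [h'])
  unfold flatState
  rw [Matrix.smul_apply, Matrix.one_apply_ne hne, smul_zero]

/-- The regularised state. -/
noncomputable def regState (ρ : Matrix (Fock2 L) (Fock2 L) ℂ) (t : ℝ) : Matrix (Fock2 L) (Fock2 L) ℂ :=
  ((1 - t : ℝ) : ℂ) • ρ + ((t : ℝ) : ℂ) • flatState L

lemma regState_posSemidef {ρ : Matrix (Fock2 L) (Fock2 L) ℂ} (hρ : ρ.PosSemidef) {t : ℝ}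
    (h0 : 0 ≤ t) (h1 : t ≤ 1) : (regState ρ t).PosSemidef := by
  unfold regState
  apply Matrix.PosSemidef.add
  · apply hρ.smul
    have : (0:ℝ) ≤ 1 - t := by linarith
    exact_mod_cast this
  · apply flatState_posDef.posSemidef.smul
    exact_mod_cast h0

lemma regState_posDef {ρ : Matrix (Fock2 L) (Fock2 L) ℂ} (hρ : ρ.PosSemidef) {t : ℝ}
    (h0 : 0 < t) (h1 : t ≤ 1) : (regState ρ t).PosDef := by
  unfold regState
  apply Matrix.PosDef.posSemidef_add
  · apply hρ.smul
    have : (0:ℝ) ≤ 1 - t := by linarith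
    exact_mod_cast this
  · apply flatState_posDef.smul
    exact_mod_cast h0

lemma regState_trace {ρ : Matrix (Fock2 L) (Fock2 L) ℂ} (htr : trace ρ = 1) (t : ℝ) :
    trace (regState ρ t) = 1 := by
  unfold regState
  rw [trace_add, trace_smul, trace_smul, htr, flatState_trace]
  simp

lemma regState_gauge {ρ : Matrix (Fock2 L) (Fock2 L) ℂ}
    (hg : ∀ e f, photons e ≠ photons f → ρ e f = 0) (t : ℝ) :
    ∀ e f, photons e ≠ photons f → regState ρ t e f = 0 := by
  intro e f h
  unfold regState
  rw [Matrix.add_apply, Matrix.smul_apply, Matrix.smul_apply, hg e f h, flatState_gauge e f h]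
  simp

lemma regState_zero (ρ : Matrix (Fock2 L) (Fock2 L) ℂ) : regState ρ 0 = ρ := by
  unfold regState
  simp

lemma continuous_regState (ρ : Matrix (Fock2 L) (Fock2 L) ℂ) : Continuous (regState ρ) := by
  unfold regState
  apply Continuous.add
  · exact (Complex.continuous_ofReal.comp (continuous_const.sub continuous_id)).smul continuous_const
  · exact Complex.continuous_ofReal.smul continuous_const

lemma lossChannel_regState (a : ℝ) (ρ : Matrix (Fock2 L) (Fock2 L) ℂ) (t : ℝ) :
    lossChannel a (regState ρ t)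
      = ((1 - t : ℝ) : ℂ) • lossChannel a ρ + ((t : ℝ) : ℂ) • lossChannel a (flatState L) := by
  unfold regState
  rw [lossChannel_add, lossChannel_smul, lossChannel_smul]

lemma continuous_lossChannel_regState (a : ℝ) (ρ : Matrix (Fock2 L) (Fock2 L) ℂ) :
    Continuous (fun t => lossChannel a (regState ρ t)) := by
  simp only [lossChannel_regState]
  apply Continuous.add
  · exact (Complex.continuous_ofReal.comp (continuous_const.sub continuous_id)).smul continuous_const
  · exact Complex.continuous_ofReal.smul continuous_const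

/-- The inequality for an arbitrary gauge-invariant state. -/
theorem final_ineq {ρ : Matrix (Fock2 L) (Fock2 L) ℂ} (hρ : ρ.PosSemidef)
    (hg : ∀ e f, photons e ≠ photons f → ρ e f = 0) (htr : trace ρ = 1) {a : ℝ} (ha : 0 < a)
    (ha1 : a ≤ 1) {u : ℝ} (hu : 0 ≤ u) (hS : 2 * gFun u = vonNeumann ρ) :
    2 * gFun (a * u) ≤ vonNeumann (lossChannel a ρ) := by
  have hout0 : 0 ≤ vonNeumann (lossChannel a ρ) := by
    apply vonNeumann_nonneg (lossChannel_posSemidef hρ a)
    rw [trace_lossChannel hg ha.le ha1, htr]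
  rcases hu.eq_or_lt with rfl | hupos
  · simp only [mul_zero, gFun_zero]
    exact hout0
  -- entropies along the regularisation
  have hc1 : ContinuousOn (fun t => vonNeumann (regState ρ t)) (Icc 0 1) :=
    continuousOn_vonNeumann (continuous_regState ρ).continuousOn
      (fun t ht => regState_posSemidef hρ ht.1 ht.2) (fun t _ => regState_trace htr t)
  have hc2 : ContinuousOn (fun t => vonNeumann (lossChannel a (regState ρ t))) (Icc 0 1) :=
    continuousOn_vonNeumann (continuous_lossChannel_regState a ρ).continuousOn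
      (fun t ht => lossChannel_posSemidef (regState_posSemidef hρ ht.1 ht.2) a)
      (fun t _ => by
        rw [trace_lossChannel (regState_gauge hg t) ha.le ha1, regState_trace htr])
  have hzero : (0:ℝ) ∈ Icc (0:ℝ) 1 := ⟨le_rfl, zero_le_one⟩
  have hnh : Icc (0:ℝ) 1 ∈ 𝓝[>] (0:ℝ) := Icc_mem_nhdsGT zero_lt_one
  have ht1 : Tendsto (fun t => vonNeumann (regState ρ t)) (𝓝[>] 0) (𝓝 (vonNeumann ρ)) := by
    have h := (hc1 0 hzero).tendsto
    rw [regState_zero] at h
    exact h.mono_left (nhdsWithin_le_of_mem hnh)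
  have ht2 : Tendsto (fun t => vonNeumann (lossChannel a (regState ρ t))) (𝓝[>] 0)
      (𝓝 (vonNeumann (lossChannel a ρ))) := by
    have h := (hc2 0 hzero).tendsto
    rw [regState_zero] at h
    exact h.mono_left (nhdsWithin_le_of_mem hnh)
  -- for every smaller u'
  have hsmall : ∀ u', 0 ≤ u' → u' < u → 2 * gFun (a * u') ≤ vonNeumann (lossChannel a ρ) := by
    intro u' hu'0 hu'
    have hlt : 2 * gFun u' < vonNeumann ρ := by
      rw [← hS]
      have := strictMonoOn_gFun (show u' ∈ Ici (0:ℝ) from hu'0) (show u ∈ Ici (0:ℝ) from hu) hu'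
      linarith
    have hev : ∀ᶠ t in 𝓝[>] (0:ℝ), 2 * gFun u' < vonNeumann (regState ρ t) :=
      ht1.eventually (lt_mem_nhds hlt)
    apply ge_of_tendsto ht2
    filter_upwards [hev, hnh, self_mem_nhdsWithin] with t ht hIcc htpos
    exact flow_pd_conclusion (regState_posDef hρ htpos hIcc.2) (regState_gauge hg t)
      (regState_trace htr t) ha ha1 hu'0 ht.le
  -- limit in u'
  have hcg : ContinuousWithinAt gFun (Ici 0) (a * u) :=
    continuousOn_gFun (a * u) (by simp only [Set.mem_Ici]; positivity)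
  have hE : Tendsto (fun u' : ℝ => a * u') (𝓝[<] u) (𝓝[Ici 0] (a * u)) := by
    rw [tendsto_nhdsWithin_iff]
    constructor
    · have : Tendsto (fun u' : ℝ => a * u') (𝓝 u) (𝓝 (a * u)) :=
        (continuous_const.mul continuous_id).tendsto u
      exact this.mono_left nhdsWithin_le_nhds
    · filter_upwards [Ioo_mem_nhdsLT hupos] with u' hu'
      simp only [Set.mem_Ici]
      exact mul_nonneg ha.le hu'.1.le
  have hlim := (hcg.tendsto.comp hE).const_mul 2
  apply le_of_tendsto hlim
  filter_upwards [Ioo_mem_nhdsLT hupos] with u' hu'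
  exact hsmall u' hu'.1.le hu'.2

lemma gInv_spec {s : ℝ} (hs : 0 ≤ s) : 0 ≤ gInv s ∧ gFun (gInv s) = s := by
  obtain ⟨u, hu, hgu⟩ := exists_gFun_eq hs
  have hex : ∃ a ∈ Ici (0:ℝ), gFun a = s := ⟨u, hu, hgu⟩
  exact ⟨Function.invFunOn_mem hex, Function.invFunOn_eq hex⟩

/-- The output is a state. -/
theorem lossChannel_state {ρ : Matrix (Fock2 L) (Fock2 L) ℂ} (hρ : ρ.PosSemidef)
    (hg : ∀ e f, photons e ≠ photons f → ρ e f = 0) (htr : trace ρ = 1) {η : ℝ} (h0 : 0 ≤ η)
    (h1 : η ≤ 1) : (lossChannel η ρ).PosSemidef ∧ trace (lossChannel η ρ) = 1 :=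
  ⟨lossChannel_posSemidef hρ η, by rw [trace_lossChannel hg h0 h1, htr]⟩

/-- The entropy photon-number inequality for two-mode gauge-invariant states and vacuum second
input. -/
theorem main_two_mode {ρ : Matrix (Fock2 L) (Fock2 L) ℂ} (hρ : ρ.PosSemidef)
    (hg : ∀ e f, photons e ≠ photons f → ρ e f = 0) (htr : trace ρ = 1) {η : ℝ} (h0 : 0 ≤ η)
    (h1 : η ≤ 1) :
    η * entropyPhotonNumber 2 ρ ≤ entropyPhotonNumber 2 (lossChannel η ρ) := by
  obtain ⟨hout, houttr⟩ := lossChannel_state hρ hg htr h0 h1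
  have hS0 : 0 ≤ vonNeumann ρ := vonNeumann_nonneg hρ htr
  have hS1 : 0 ≤ vonNeumann (lossChannel η ρ) := vonNeumann_nonneg hout houttr
  unfold entropyPhotonNumber
  simp only [Nat.cast_ofNat]
  obtain ⟨hu0, hu⟩ := gInv_spec (s := vonNeumann ρ / 2) (by positivity)
  obtain ⟨hh0, hh⟩ := gInv_spec (s := vonNeumann (lossChannel η ρ) / 2) (by positivity)
  set u := gInv (vonNeumann ρ / 2)
  set h := gInv (vonNeumann (lossChannel η ρ) / 2)
  rcases h0.eq_or_lt with rfl | hη
  · simpa using hh0
  have hf := final_ineq hρ hg htr hη h1 hu0 (by rw [hu]; ring)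
  have h2 : gFun (η * u) ≤ gFun h := by
    rw [hh]
    linarith
  by_contra hcon
  push Not at hcon
  have := strictMonoOn_gFun (show h ∈ Ici (0:ℝ) from hh0)
    (show η * u ∈ Ici (0:ℝ) by simp only [Set.mem_Ici]; positivity) hcon
  linarith

end Vale.Agent.Lib.P369
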