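import Vale.Agent.Lib.P369.Kraus

/-!
The comparison argument along the loss semigroup, using Klein's inequality in place of
differentiating the entropy.
-/

namespace Vale.Agent.Lib.P369

open Matrix Finset Filter Topology Set
open scoped ComplexOrder

variable {L : ℕ}

/-- One-sided derivative estimate for the output entropy. -/
lemma local_step {ρ : Matrix (Fock2 L) (Fock2 L) ℂ} (hρ : ρ.PosDef)
    (hg : ∀ e f, photons e ≠ photons f → ρ e f = 0) (htr : trace ρ = 1) {x : ℝ} (hx0 : 0 < x)
    (hx1 : x < 1) :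
    ∃ d : ℝ, (∀ r, d < r → ∃ᶠ z in 𝓝[>] x, slope (fun w => vonNeumann (lossChannel w ρ)) x z < r) ∧
      ∀ u, 0 < u → d ≤ (2 * (chi u - psi u * gFun u)
        + psi u * vonNeumann (lossChannel x ρ)) / x := by
  set B := lossChannel x ρ with hB
  have hBpd : B.PosDef := lossChannel_posDef hρ hx0
  have hBg := lossChannel_gauge hg x
  have hBtr : trace B = 1 := by
    rw [hB, trace_lossChannel hg hx0.le hx1.le, htr]
  obtain ⟨U, α, hU1, hU2, hlev, hd, hsort⟩ := exists_level_decomp hBpd.isHermitian hBg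
  have hαpos : ∀ e, 0 < α e := decomp_pos hBpd hU2 hd
  have hαsum : ∑ e, α e = 1 := by
    have h1 : trace B = ((∑ e, α e : ℝ) : ℂ) := by
      rw [hd, Matrix.trace_mul_cycle, hU2, Matrix.one_mul, rdiag, trace_diagonal]
      push_cast
      rfl
    rw [hBtr] at h1
    exact_mod_cast h1.symm
  set LL : Matrix (Fock2 L) (Fock2 L) ℂ := U * rdiag (fun i => Real.log (α i)) * Uᴴ with hLL
  set Fz : ℝ → ℝ := fun w => - (traceP ρ LL w).re with hFz
  have hF : HasDerivAt Fz (- (tracePD ρ LL x).re) x := by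
    have h1 := hasDerivAt_traceP ρ LL x
    have h2 : HasDerivAt (fun w => (traceP ρ LL w).re) (tracePD ρ LL x).re x :=
      Complex.reCLM.hasFDerivAt.comp_hasDerivAt x h1
    exact h2.neg
  have hkl : ∀ z, 0 ≤ z → z ≤ 1 → vonNeumann (lossChannel z ρ) ≤ Fz z := by
    intro z hz0 hz1
    have h1 := klein (σ := lossChannel z ρ) (a := α) (lossChannel_posSemidef hρ.posSemidef z)
      hU1 hU2 hαpos
    have h2 : (trace (lossChannel z ρ)).re = 1 := by
      rw [trace_lossChannel hg hz0 hz1, htr]
      simp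
    rw [h2, hαsum, ← hLL, trace_eq_traceP hg LL hz0 hz1] at h1
    simp only [hFz]
    linarith
  have hat : vonNeumann B = Fz x := by
    have h1 := vonNeumann_eq_neg_trace hBpd.isHermitian hU2 hd
    rw [h1, ← hLL]
    simp only [hFz]
    rw [trace_eq_traceP hg LL hx0.le hx1.le]
  refine ⟨- (tracePD ρ LL x).re, ?_, ?_⟩
  · intro r hr
    apply Filter.Eventually.frequently
    have hs : ∀ᶠ z in 𝓝[>] x, slope Fz x z < r :=
      (hasDerivWithinAt_iff_tendsto_slope' (lt_irrefl x)).1
        hF.hasDerivWithinAt (Iio_mem_nhds hr)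
    filter_upwards [hs, Ioc_mem_nhdsGT hx1] with z hz1 hz2
    refine lt_of_le_of_lt ?_ hz1
    rw [slope_def_field, slope_def_field]
    apply div_le_div_of_nonneg_right _ (sub_pos.mpr hz2.1).le
    have h1 := hkl z (by linarith [hz2.1]) hz2.2
    have h2 : vonNeumann (lossChannel x ρ) = Fz x := hat
    rw [h2]
    linarith
  · intro u hu
    have h1 : (x : ℂ) * tracePD ρ LL x = - trace (genM B * LL) :=
      mul_tracePD hg LL hx0.le hx1.le
    have h2 : x * (tracePD ρ LL x).re = - (trace (genM B * LL)).re := by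
      have := congrArg Complex.re h1
      simpa using this
    have h3 : (trace (genM B * LL)).re
        = ∑ f, ∑ e, Wt U f e * (α e * Real.log (α f))
          - ∑ e, (photons e : ℝ) * (α e * Real.log (α e)) :=
      trace_dissipation hU2 hlev hd
    have h4 := dissipation_bound hU1 hU2 hlev hsort hαpos hαsum hu
    have h5 : vonNeumann B = ∑ e, Real.negMulLog (α e) :=
      vonNeumann_of_decomp hBpd.isHermitian hU2 hd
    rw [le_div_iff₀ hx0, h5]
    rw [← h3] at h4
    nlinarith [h2, h4]

lemma hasDerivAt_barrier {c ε x : ℝ} (hv : 0 < c * x * (1 + ε * x)) :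
    HasDerivAt (fun x => 2 * gFun (c * x * (1 + ε * x)))
      (2 * (ell (c * x * (1 + ε * x)) * (c * (1 + 2 * ε * x)))) x := by
  have hv' : HasDerivAt (fun x => c * x * (1 + ε * x)) (c * (1 + 2 * ε * x)) x := by
    have h1 : HasDerivAt (fun x => c * x) c x := by
      simpa using (hasDerivAt_id x).const_mul c
    have h2 : HasDerivAt (fun x => 1 + ε * x) ε x := by
      simpa using ((hasDerivAt_id x).const_mul ε).const_add 1
    have h3 := h1.fun_mul h2
    have e : c * (1 + 2 * ε * x) = c * (1 + ε * x) + c * x * ε := by ring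
    rw [e]
    exact h3
  have h := (hasDerivAt_ell_parts hv).comp x hv'
  exact h.const_mul 2

/-- The barrier comparison. -/
theorem flow_eps {ρ : Matrix (Fock2 L) (Fock2 L) ℂ} (hρ : ρ.PosDef)
    (hg : ∀ e f, photons e ≠ photons f → ρ e f = 0) (htr : trace ρ = 1) {a : ℝ} (ha : 0 < a)
    (ha1 : a ≤ 1) {h0 ε : ℝ} (hh0 : 0 < h0) (hε : 0 < ε)
    (hstart : vonNeumann (lossChannel a ρ) ≤ 2 * gFun h0) :
    vonNeumann ρ ≤ 2 * gFun (h0 * (1 + ε) / (a * (1 + ε * a))) := by
  set c := h0 / (a * (1 + ε * a)) with hc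
  have hdenom : 0 < a * (1 + ε * a) := by positivity
  have hcpos : 0 < c := by positivity
  set v : ℝ → ℝ := fun x => c * x * (1 + ε * x) with hv
  have hvpos : ∀ x, 0 < x → 0 < v x := by
    intro x hx
    simp only [hv]
    positivity
  set f : ℝ → ℝ := fun w => vonNeumann (lossChannel w ρ) with hf
  have hcont : ContinuousOn f (Icc a 1) := by
    apply continuousOn_vonNeumann (continuous_lossChannel ρ).continuousOn
    · intro w _
      exact lossChannel_posSemidef hρ.posSemidef w
    · intro w hw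
      rw [trace_lossChannel hg (by linarith [hw.1]) hw.2, htr]
  have hloc : ∀ x, ∃ d : ℝ, x ∈ Ico a 1 →
      ((∀ r, d < r → ∃ᶠ z in 𝓝[>] x, slope f x z < r) ∧
      ∀ u, 0 < u → d ≤ (2 * (chi u - psi u * gFun u) + psi u * f x) / x) := by
    intro x
    by_cases hx : x ∈ Ico a 1
    · obtain ⟨d, h1, h2⟩ := local_step hρ hg htr (lt_of_lt_of_le ha hx.1) hx.2
      exact ⟨d, fun _ => ⟨h1, h2⟩⟩
    · exact ⟨0, fun h => absurd h hx⟩
  choose d hd using hloc
  set Bb : ℝ → ℝ := fun x => 2 * gFun (v x) with hBb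
  set Bb' : ℝ → ℝ := fun x => 2 * (ell (v x) * (c * (1 + 2 * ε * x))) with hBb'
  have hderiv : ∀ x, 0 < x → HasDerivAt Bb (Bb' x) x := by
    intro x hx
    exact hasDerivAt_barrier (hvpos x hx)
  have hmain := image_le_of_liminf_slope_right_lt_deriv_boundary' (f := f) (f' := d) (a := a) (b := 1)
    (B := Bb) (B' := Bb') hcont
    (fun x hx => (hd x hx).1)
    (by
      have hva : v a = h0 := by
        simp only [hv, hc]
        field_simp
      simp only [hBb, hva]
      exact hstart)
    (fun x hx => (hderiv x (lt_of_lt_of_le ha hx.1)).continuousAt.continuousWithinAt)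
    (fun x hx => (hderiv x (lt_of_lt_of_le ha hx.1)).hasDerivWithinAt)
    (by
      intro x hx hcontact
      have hx0 : 0 < x := lt_of_lt_of_le ha hx.1
      have hvx := hvpos x hx0
      have h1 := (hd x hx).2 (v x) hvx
      rw [hcontact] at h1
      refine lt_of_le_of_lt h1 ?_
      simp only [hBb, hBb']
      have h2 : (2 * (chi (v x) - psi (v x) * gFun (v x)) + psi (v x) * (2 * gFun (v x))) / x
          = 2 * (ell (v x) * (c * (1 + ε * x))) := by
        have : chi (v x) = v x * ell (v x) := rfl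
        rw [show 2 * (chi (v x) - psi (v x) * gFun (v x)) + psi (v x) * (2 * gFun (v x))
            = 2 * chi (v x) by ring, this]
        simp only [hv]
        field_simp
      rw [h2]
      have hell := ell_pos hvx
      have : ell (v x) * (c * (1 + ε * x)) < ell (v x) * (c * (1 + 2 * ε * x)) := by
        apply mul_lt_mul_of_pos_left _ hell
        apply mul_lt_mul_of_pos_left _ hcpos
        nlinarith [mul_pos hε hx0]
      linarith)
  have hone := hmain (⟨ha1, le_rfl⟩ : (1:ℝ) ∈ Icc a 1)
  have hf1 : f 1 = vonNeumann ρ := by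
    simp only [hf]
    rw [lossChannel_one hg]
  rw [hf1] at hone
  have hv1 : v 1 = h0 * (1 + ε) / (a * (1 + ε * a)) := by
    simp only [hv, hc]
    field_simp
  simp only [hBb, hv1] at hone
  exact hone

/-- The comparison, with the barrier removed. -/
theorem flow_pd {ρ : Matrix (Fock2 L) (Fock2 L) ℂ} (hρ : ρ.PosDef)
    (hg : ∀ e f, photons e ≠ photons f → ρ e f = 0) (htr : trace ρ = 1) {a : ℝ} (ha : 0 < a)
    (ha1 : a ≤ 1) {h : ℝ} (hh : 0 ≤ h) (hS : vonNeumann (lossChannel a ρ) = 2 * gFun h) :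
    vonNeumann ρ ≤ 2 * gFun (h / a) := by
  have hbound : ∀ ε, 0 < ε →
      vonNeumann ρ ≤ 2 * gFun ((h + ε) * (1 + ε) / (a * (1 + ε * a))) := by
    intro ε hε
    apply flow_eps hρ hg htr ha ha1 (by linarith) hε
    rw [hS]
    have := strictMonoOn_gFun.monotoneOn (show h ∈ Ici (0:ℝ) from hh)
      (show h + ε ∈ Ici (0:ℝ) by simp only [Set.mem_Ici]; linarith) (by linarith : h ≤ h + ε)
    linarith
  have hE : Tendsto (fun ε : ℝ => (h + ε) * (1 + ε) / (a * (1 + ε * a))) (𝓝[>] 0)
      (𝓝[Ici 0] (h / a)) := by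
    rw [tendsto_nhdsWithin_iff]
    constructor
    · have hc : ContinuousAt (fun ε : ℝ => (h + ε) * (1 + ε) / (a * (1 + ε * a))) 0 := by
        apply ContinuousAt.div
        · fun_prop
        · fun_prop
        · simp [ha.ne']
      have : Tendsto (fun ε : ℝ => (h + ε) * (1 + ε) / (a * (1 + ε * a))) (𝓝 0) (𝓝 (h / a)) := by
        have h0 := hc.tendsto
        simpa using h0
      exact this.mono_left nhdsWithin_le_nhds
    · filter_upwards [self_mem_nhdsWithin] with ε hε
      have hε' : (0:ℝ) < ε := hε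
      simp only [Set.mem_Ici]
      positivity
  have hg1 : ContinuousWithinAt gFun (Ici 0) (h / a) :=
    continuousOn_gFun (h / a) (by simp only [Set.mem_Ici]; positivity)
  have hlim := (hg1.tendsto.comp hE).const_mul 2
  have := ge_of_tendsto hlim (by
    filter_upwards [self_mem_nhdsWithin] with ε hε
    exact hbound ε hε)
  exact this

/-- The conclusion for a positive definite input. -/
theorem flow_pd_conclusion {ρ : Matrix (Fock2 L) (Fock2 L) ℂ} (hρ : ρ.PosDef)
    (hg : ∀ e f, photons e ≠ photons f → ρ e f = 0) (htr : trace ρ = 1) {a : ℝ} (ha : 0 < a)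
    (ha1 : a ≤ 1) {u : ℝ} (hu : 0 ≤ u) (hS : 2 * gFun u ≤ vonNeumann ρ) :
    2 * gFun (a * u) ≤ vonNeumann (lossChannel a ρ) := by
  have hS0 : 0 ≤ vonNeumann (lossChannel a ρ) / 2 := by
    have : 0 ≤ vonNeumann (lossChannel a ρ) := by
      apply vonNeumann_nonneg (lossChannel_posSemidef hρ.posSemidef a)
      rw [trace_lossChannel hg ha.le ha1, htr]
    linarith
  obtain ⟨h, hh, hgh⟩ := exists_gFun_eq hS0
  have hh2 : vonNeumann (lossChannel a ρ) = 2 * gFun h := by linarith
  have h1 := flow_pd hρ hg htr ha ha1 hh hh2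
  have h2 : gFun u ≤ gFun (h / a) := by linarith
  have h3 : u ≤ h / a := by
    by_contra hcon
    push Not at hcon
    have := strictMonoOn_gFun (show h / a ∈ Ici (0:ℝ) by simp only [Set.mem_Ici]; positivity)
      (show u ∈ Ici (0:ℝ) from hu) hcon
    linarith
  have h4 : a * u ≤ h := by
    rw [le_div_iff₀ ha] at h3
    linarith
  have := strictMonoOn_gFun.monotoneOn (show a * u ∈ Ici (0:ℝ) by simp only [Set.mem_Ici]; positivity)
    (show h ∈ Ici (0:ℝ) from hh) h4
  linarith

end Vale.Agent.Lib.P369
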