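import Vale.Agent.Lib.P369.Spec

/-!
Combinatorics of the truncated two-mode Fock basis and the level-by-level diagonalisation of
operators commuting with the total photon number.
-/

namespace Vale.Agent.Lib.P369

open Matrix Finset
open scoped ComplexOrder

variable {L : ℕ}

/-- Occupation of the first mode. -/
def xx (e : Fock2 L) : ℕ := (e.1.1 : ℕ)

/-- Occupation of the second mode. -/
def yy (e : Fock2 L) : ℕ := (e.1.2 : ℕ)

lemma photons_eq (e : Fock2 L) : photons e = xx e + yy e := rfl

lemma xx_add_yy_le (e : Fock2 L) : xx e + yy e ≤ L := e.2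

lemma photons_le (e : Fock2 L) : photons e ≤ L := e.2

/-- Basis vector from occupations. -/
def mkF (a b : ℕ) (h : a + b ≤ L) : Fock2 L :=
  ⟨(⟨a, by omega⟩, ⟨b, by omega⟩), h⟩

@[simp] lemma xx_mkF (a b : ℕ) (h : a + b ≤ L) : xx (mkF a b h) = a := rfl

@[simp] lemma yy_mkF (a b : ℕ) (h : a + b ≤ L) : yy (mkF a b h) = b := rfl

lemma fock_ext {e f : Fock2 L} (h1 : xx e = xx f) (h2 : yy e = yy f) : e = f := by
  apply Subtype.ext
  apply Prod.ext
  · exact Fin.ext h1
  · exact Fin.ext h2

lemma mkF_xx_yy (e : Fock2 L) : mkF (xx e) (yy e) e.2 = e := fock_ext rfl rfl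

/-- The basis vector `|m-k,k⟩`, with a default value outside the valid range. -/
def emb (L m k : ℕ) : Fock2 L :=
  if h : k ≤ m ∧ m ≤ L then mkF (m - k) k (by omega) else mkF 0 0 (by omega)

lemma emb_spec {m k : ℕ} (hk : k ≤ m) (hm : m ≤ L) : emb L m k = mkF (m - k) k (by omega) := by
  unfold emb
  rw [dif_pos ⟨hk, hm⟩]

lemma xx_emb {m k : ℕ} (hk : k ≤ m) (hm : m ≤ L) : xx (emb L m k) = m - k := by
  rw [emb_spec hk hm]; rfl

lemma yy_emb {m k : ℕ} (hk : k ≤ m) (hm : m ≤ L) : yy (emb L m k) = k := by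
  rw [emb_spec hk hm]; rfl

lemma photons_emb {m k : ℕ} (hk : k ≤ m) (hm : m ≤ L) : photons (emb L m k) = m := by
  rw [photons_eq, xx_emb hk hm, yy_emb hk hm]; omega

lemma emb_photons (e : Fock2 L) : emb L (photons e) (yy e) = e := by
  have h1 : yy e ≤ photons e := by rw [photons_eq]; omega
  have h2 : photons e ≤ L := photons_le e
  apply fock_ext
  · rw [xx_emb h1 h2, photons_eq]; omega
  · rw [yy_emb h1 h2]

/-- Sum over the basis, level by level. -/
lemma sum_levels {M : Type*} [AddCommMonoid M] (F : Fock2 L → M) :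
    ∑ e, F e = ∑ m ∈ range (L + 1), ∑ k ∈ range (m + 1), F (emb L m k) := by
  rw [Finset.sum_sigma']
  apply Finset.sum_bij' (fun e _ => (⟨photons e, yy e⟩ : Σ _ : ℕ, ℕ))
    (fun p _ => emb L p.1 p.2)
  · intro e _
    simp only [Finset.mem_sigma, Finset.mem_range]
    have := photons_le e
    have h2 : photons e = xx e + yy e := photons_eq e
    omega
  · intro p _
    exact Finset.mem_univ _
  · intro e _
    exact emb_photons e
  · rintro ⟨m, k⟩ hp
    simp only [Finset.mem_sigma, Finset.mem_range] at hp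
    have h1 : k ≤ m := by omega
    have h2 : m ≤ L := by omega
    simp only [photons_emb h1 h2, yy_emb h1 h2]
  · intro e _
    rw [emb_photons]

/-- Triangle sums: levels against rows. -/
lemma tri_sum {M : Type*} [AddCommMonoid M] (G : ℕ → ℕ → M) :
    ∑ m ∈ range (L + 1), ∑ k ∈ range (m + 1), G (m - k) k
      = ∑ x ∈ range (L + 1), ∑ y ∈ range (L + 1 - x), G x y := by
  rw [Finset.sum_sigma', Finset.sum_sigma']
  apply Finset.sum_bij' (fun p _ => (⟨p.1 - p.2, p.2⟩ : Σ _ : ℕ, ℕ))
    (fun p _ => (⟨p.1 + p.2, p.2⟩ : Σ _ : ℕ, ℕ))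
  · rintro ⟨m, k⟩ hp
    simp only [Finset.mem_sigma, Finset.mem_range] at hp ⊢
    omega
  · rintro ⟨x, y⟩ hp
    simp only [Finset.mem_sigma, Finset.mem_range] at hp ⊢
    omega
  · rintro ⟨m, k⟩ hp
    simp only [Finset.mem_sigma, Finset.mem_range] at hp
    have : m - k + k = m := by omega
    simp [this]
  · rintro ⟨x, y⟩ _
    simp
  · rintro ⟨m, k⟩ _
    rfl

/-- The equivalence with the sigma type of levels. -/
def levelEquiv (L : ℕ) : Fock2 L ≃ Σ m : Fin (L + 1), Fin ((m : ℕ) + 1) where
  toFun e := ⟨⟨photons e, by have := photons_le e; omega⟩,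
    ⟨yy e, by have h2 : photons e = xx e + yy e := photons_eq e; simp only []; omega⟩⟩
  invFun p := mkF ((p.1 : ℕ) - (p.2 : ℕ)) (p.2 : ℕ) (by
    have h1 := p.1.2
    have h2 := p.2.2
    omega)
  left_inv e := by
    apply fock_ext
    · simp only [xx_mkF, photons_eq]; omega
    · simp only [yy_mkF]
  right_inv := by
    rintro ⟨m, k⟩
    have key : ∀ (m' : Fin (L + 1)) (k' : Fin ((m' : ℕ) + 1)), (m' : ℕ) = m → (k' : ℕ) = k →
        (⟨m', k'⟩ : Σ m : Fin (L + 1), Fin ((m : ℕ) + 1)) = ⟨m, k⟩ := by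
      intro m' k' h1 h2
      obtain rfl : m' = m := Fin.ext h1
      obtain rfl : k' = k := Fin.ext h2
      rfl
    apply key
    · have := k.2
      simp only [photons_eq, xx_mkF, yy_mkF]
      omega
    · simp only [yy_mkF]

lemma levelEquiv_fst (e : Fock2 L) : ((levelEquiv L e).1 : ℕ) = photons e := rfl

lemma levelEquiv_snd (e : Fock2 L) : ((levelEquiv L e).2 : ℕ) = yy e := rfl

/-- Sorted diagonalisation of one Hermitian block. -/
lemma block_decomp {n : ℕ} {R : Matrix (Fin n) (Fin n) ℂ} (hR : R.IsHermitian) :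
    ∃ (V : Matrix (Fin n) (Fin n) ℂ) (a : Fin n → ℝ), V * Vᴴ = 1 ∧ Vᴴ * V = 1 ∧
      R = V * rdiag a * Vᴴ ∧ Antitone a := by
  set lam := hR.eigenvalues with hlam
  set V0 : Matrix (Fin n) (Fin n) ℂ := (hR.eigenvectorUnitary : Matrix (Fin n) (Fin n) ℂ) with hV0
  have hV1 : V0 * V0ᴴ = 1 := by
    have := Unitary.mul_star_self_of_mem hR.eigenvectorUnitary.2
    simpa [star_eq_conjTranspose] using this
  have hV2 : V0ᴴ * V0 = 1 := by
    have := Unitary.star_mul_self_of_mem hR.eigenvectorUnitary.2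
    simpa [star_eq_conjTranspose] using this
  have hd : R = V0 * rdiag lam * V0ᴴ := by
    conv_lhs => rw [hR.spectral_theorem, Unitary.conjStarAlgAut_apply]
    rfl
  set τ : Equiv.Perm (Fin n) := Tuple.sort (fun i => - lam i) with hτ
  have hmono : Monotone ((fun i => - lam i) ∘ τ) := Tuple.monotone_sort _
  refine ⟨V0.submatrix id τ, lam ∘ τ, ?_, ?_, ?_, ?_⟩
  · ext i j
    have := congrFun (congrFun hV1 i) j
    rw [Matrix.mul_apply] at this ⊢
    rw [← this]
    simp only [conjTranspose_apply, submatrix_apply, id]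
    exact Equiv.sum_comp τ (fun k => V0 i k * star (V0 j k))
  · rw [conjTranspose_submatrix]
    have : V0ᴴ.submatrix τ id * V0.submatrix id τ = (V0ᴴ * V0).submatrix τ τ := by
      ext i j
      simp only [Matrix.mul_apply, submatrix_apply, id]
    rw [this, hV2]
    simp
  · conv_lhs => rw [hd]
    ext i j
    simp only [Matrix.mul_apply, submatrix_apply, id, conjTranspose_apply, Matrix.diagonal_apply,
      mul_ite, mul_zero, Finset.sum_ite_eq', Finset.mem_univ, if_true, Function.comp]
    exact (Equiv.sum_comp τ (fun k => V0 i k * (lam k : ℂ) * star (V0 j k))).symm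
  · intro i j hij
    have := hmono hij
    simp only [Function.comp] at this ⊢
    linarith

/-- Diagonalisation adapted to the photon-number levels, sorted in each level. -/
theorem exists_level_decomp {B : Matrix (Fock2 L) (Fock2 L) ℂ} (hB : B.IsHermitian)
    (hg : ∀ e f, photons e ≠ photons f → B e f = 0) :
    ∃ (U : Matrix (Fock2 L) (Fock2 L) ℂ) (a : Fock2 L → ℝ),
      U * Uᴴ = 1 ∧ Uᴴ * U = 1 ∧ (∀ e f, photons e ≠ photons f → U e f = 0) ∧
      B = U * rdiag a * Uᴴ ∧ (∀ e f, photons e = photons f → yy e ≤ yy f → a f ≤ a e) := by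
  classical
  let E := levelEquiv L
  let R : ∀ m : Fin (L + 1), Matrix (Fin ((m : ℕ) + 1)) (Fin ((m : ℕ) + 1)) ℂ :=
    fun m i j => B (E.symm ⟨m, i⟩) (E.symm ⟨m, j⟩)
  have hR : ∀ m, (R m).IsHermitian := by
    intro m
    ext i j
    simp only [R]
    exact hB.apply _ _
  choose V a hV1 hV2 hVd hanti using fun m => block_decomp (hR m)
  let US := blockDiagonal' V
  let U : Matrix (Fock2 L) (Fock2 L) ℂ := US.submatrix E E
  let aS : (Σ m : Fin (L + 1), Fin ((m : ℕ) + 1)) → ℝ := fun p => a p.1 p.2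
  have hUS1 : US * USᴴ = 1 := by
    simp only [US]
    rw [blockDiagonal'_conjTranspose, ← blockDiagonal'_mul]
    have : (fun k => V k * (V k)ᴴ) = 1 := by
      funext k
      exact hV1 k
    rw [this, blockDiagonal'_one]
  have hUS2 : USᴴ * US = 1 := by
    simp only [US]
    rw [blockDiagonal'_conjTranspose, ← blockDiagonal'_mul]
    have : (fun k => (V k)ᴴ * V k) = 1 := by
      funext k
      exact hV2 k
    rw [this, blockDiagonal'_one]
  have hBS : B.submatrix E.symm E.symm = US * rdiag aS * USᴴ := by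
    have e1 : rdiag aS = blockDiagonal' (fun m => rdiag (a m)) := by
      rw [blockDiagonal'_diagonal]
    simp only [US]
    rw [e1, blockDiagonal'_conjTranspose, ← blockDiagonal'_mul, ← blockDiagonal'_mul]
    have e2 : (fun k => V k * rdiag (a k) * (V k)ᴴ) = R := by
      funext k
      exact (hVd k).symm
    rw [e2]
    ext ⟨m, i⟩ ⟨m', j⟩
    rw [blockDiagonal'_apply']
    by_cases h : m = m'
    · subst h
      simp [R]
    · rw [dif_neg h]
      simp only [submatrix_apply]
      apply hg
      have h1 : photons (E.symm ⟨m, i⟩) = m := by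
        change ((m : ℕ) - (i : ℕ)) + (i : ℕ) = m
        have := i.2
        omega
      have h2 : photons (E.symm ⟨m', j⟩) = m' := by
        change ((m' : ℕ) - (j : ℕ)) + (j : ℕ) = m'
        have := j.2
        omega
      rw [h1, h2]
      intro h3
      exact h (Fin.ext h3)
  refine ⟨U, fun e => aS (E e), ?_, ?_, ?_, ?_, ?_⟩
  · simp only [U]
    rw [conjTranspose_submatrix, submatrix_mul_equiv, hUS1, submatrix_one_equiv]
  · simp only [U]
    rw [conjTranspose_submatrix, submatrix_mul_equiv, hUS2, submatrix_one_equiv]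
  · intro e f hef
    simp only [U, submatrix_apply]
    change blockDiagonal' V ⟨(E e).1, (E e).2⟩ ⟨(E f).1, (E f).2⟩ = 0
    apply blockDiagonal'_apply_ne
    intro h
    apply hef
    have := congrArg (fun p : Fin (L + 1) => (p : ℕ)) h
    exact this
  · have h1 : B = (B.submatrix E.symm E.symm).submatrix E E := by
      ext e f
      simp
    rw [h1, hBS]
    simp only [U]
    have : (US * rdiag aS * USᴴ).submatrix E E
        = US.submatrix E E * (rdiag aS).submatrix E E * (USᴴ).submatrix E E := by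
      rw [submatrix_mul_equiv, submatrix_mul_equiv]
    rw [this, conjTranspose_submatrix]
    congr 2
    ext e f
    simp only [submatrix_apply, diagonal_apply, EmbeddingLike.apply_eq_iff_eq]
  · intro e f hef hyy
    have key : ∀ (m m' : Fin (L + 1)) (i : Fin ((m : ℕ) + 1)) (j : Fin ((m' : ℕ) + 1)),
        m = m' → (i : ℕ) ≤ (j : ℕ) → a m' j ≤ a m i := by
      intro m m' i j h hij
      subst h
      exact hanti m hij
    exact key (E e).1 (E f).1 (E e).2 (E f).2 (Fin.ext hef) hyy

/-- Positivity of the eigenvalues of a positive definite operator. -/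
lemma decomp_pos {B U : Matrix (Fock2 L) (Fock2 L) ℂ} {a : Fock2 L → ℝ} (hB : B.PosDef)
    (hU2 : Uᴴ * U = 1) (hd : B = U * rdiag a * Uᴴ) (e : Fock2 L) : 0 < a e := by
  have hinj : Function.Injective U.mulVec := by
    intro v w h
    have := congrArg (fun z => Uᴴ.mulVec z) h
    simpa [Matrix.mulVec_mulVec, hU2] using this
  have h1 := hB.conjTranspose_mul_mul_same hinj
  have h2 : Uᴴ * B * U = rdiag a := by
    rw [hd]
    calc Uᴴ * (U * rdiag a * Uᴴ) * U = (Uᴴ * U) * rdiag a * (Uᴴ * U) := by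
          simp only [Matrix.mul_assoc]
      _ = rdiag a := by rw [hU2, Matrix.one_mul, Matrix.mul_one]
  rw [h2] at h1
  have h3 := h1.diag_pos (i := e)
  simp only [rdiag, diagonal_apply_eq] at h3
  exact_mod_cast h3

end Vale.Agent.Lib.P369
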