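import Vale.Agent.Lib.P369.Spec

/-!
More spectral tools: closedness of positivity, entry bounds, scaling of the entropy, Klein's
inequality against a dominating operator.
-/

namespace Vale.Agent.Lib.P369

open Matrix
open scoped ComplexOrder

variable {ι : Type*} [Fintype ι] [DecidableEq ι]

lemma isClosed_posSemidef : IsClosed {M : Matrix ι ι ℂ | M.PosSemidef} := by
  have h : {M : Matrix ι ι ℂ | M.PosSemidef}
      = {M : Matrix ι ι ℂ | Mᴴ = M} ∩ ⋂ x : ι → ℂ, {M : Matrix ι ι ℂ | 0 ≤ star x ⬝ᵥ (M *ᵥ x)} := by
    ext M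
    simp only [Set.mem_ofPred_eq, Set.mem_inter_iff, Set.mem_iInter]
    exact posSemidef_iff_dotProduct_mulVec
  rw [h]
  apply IsClosed.inter
  · exact isClosed_eq (continuous_id.matrix_conjTranspose) continuous_id
  · apply isClosed_iInter
    intro x
    have hc : Continuous (fun M : Matrix ι ι ℂ => star x ⬝ᵥ (M *ᵥ x)) := by
      apply Continuous.dotProduct continuous_const
      exact Continuous.matrix_mulVec continuous_id continuous_const
    exact isClosed_Ici.preimage hc

lemma hasSum_posSemidef {β : Type*} {T : β → Matrix ι ι ℂ} {Y : Matrix ι ι ℂ} (hs : HasSum T Y)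
    (hT : ∀ b, (T b).PosSemidef) : Y.PosSemidef := by
  have : Y ∈ {M : Matrix ι ι ℂ | M.PosSemidef} := by
    apply isClosed_posSemidef.mem_of_tendsto hs
    exact Filter.Eventually.of_forall fun s => Matrix.posSemidef_sum s (fun b _ => hT b)
  exact this

lemma posSemidef_sub_of_hasSum {β : Type*} [DecidableEq β] {T : β → Matrix ι ι ℂ}
    {Y : Matrix ι ι ℂ} (hs : HasSum T Y) (hT : ∀ b, (T b).PosSemidef) (t : Finset β) :
    (Y - ∑ b ∈ t, T b).PosSemidef := by
  have h1 : HasSum (fun b => if b ∈ t then T b else 0) (∑ b ∈ t, T b) := by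
    have h0 : HasSum (fun b => if b ∈ t then T b else 0) (∑ b ∈ t, if b ∈ t then T b else 0) :=
      hasSum_sum_of_ne_finset_zero (fun b hb => by simp only [if_neg hb])
    convert h0 using 1
    apply Finset.sum_congr rfl
    intro b hb
    rw [if_pos hb]
  have h2 := hs.sub h1
  apply hasSum_posSemidef h2
  intro b
  by_cases hb : b ∈ t
  · simp only [if_pos hb, sub_self]
    exact Matrix.PosSemidef.zero
  · simp only [if_neg hb, sub_zero]
    exact hT b

/-- Diagonal entries of a positive semidefinite matrix are real and nonnegative. -/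
lemma diag_re_nonneg {M : Matrix ι ι ℂ} (hM : M.PosSemidef) (k : ι) : 0 ≤ (M k k).re := by
  have := hM.diag_nonneg (i := k)
  exact (Complex.le_def.mp this).1

lemma diag_im_zero {M : Matrix ι ι ℂ} (hM : M.PosSemidef) (k : ι) : (M k k).im = 0 := by
  have := hM.diag_nonneg (i := k)
  exact ((Complex.le_def.mp this).2).symm

/-- Entry bound for positive semidefinite matrices. -/
lemma norm_entry_le {M : Matrix ι ι ℂ} (hM : M.PosSemidef) (k k' : ι) :
    ‖M k k'‖ ≤ ((M k k).re + (M k' k').re) / 2 := by
  by_cases hkk : k = k'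
  · subst hkk
    have h1 := diag_re_nonneg hM k
    have h2 := diag_im_zero hM k
    have : M k k = ((M k k).re : ℂ) := by
      apply Complex.ext <;> simp [h2]
    rw [this, Complex.norm_real]
    simp only [Complex.ofReal_re, Real.norm_eq_abs, abs_of_nonneg h1]
    linarith
  set z := M k k' with hz
  by_cases hz0 : z = 0
  · rw [hz0, norm_zero]
    have h1 := diag_re_nonneg hM k
    have h2 := diag_re_nonneg hM k'
    linarith
  have hnorm : (‖z‖ : ℝ) ≠ 0 := norm_ne_zero_iff.mpr hz0
  set c : ℂ := (starRingEnd ℂ) z / (‖z‖ : ℂ) with hc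
  have hzz : M k' k = (starRingEnd ℂ) z := by
    rw [← hM.isHermitian.apply k' k, hz]
    rfl
  have hcz : c * z = (‖z‖ : ℂ) := by
    rw [hc, div_mul_eq_mul_div, mul_comm, Complex.mul_conj, Complex.normSq_eq_norm_sq]
    have : ((‖z‖ : ℂ)) ≠ 0 := by exact_mod_cast hnorm
    push_cast
    field_simp
  have hcc : (starRingEnd ℂ) c * c = 1 := by
    rw [mul_comm, Complex.mul_conj, Complex.normSq_eq_norm_sq, hc, norm_div, Complex.norm_conj,
      Complex.norm_real, norm_norm, div_self hnorm]
    simp
  set x : ι → ℂ := Pi.single k 1 + Pi.single k' (-c) with hx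
  have hq := hM.dotProduct_mulVec_nonneg x
  have hv : M *ᵥ x = fun i => M i k + M i k' * (-c) := by
    funext i
    rw [hx, Matrix.mulVec_add, Matrix.mulVec_single, Matrix.mulVec_single]
    simp
    ring
  rw [hv] at hq
  have hstar : star x = Pi.single k 1 + Pi.single k' (-(starRingEnd ℂ) c) := by
    funext i
    simp only [hx, Pi.star_apply, Pi.add_apply, star_add]
    congr 1
    · by_cases h : i = k
      · subst h; simp
      · simp [h]
    · by_cases h : i = k'
      · subst h; simp
      · simp [h]
  rw [hstar, add_dotProduct, single_dotProduct, single_dotProduct] at hq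
  simp only [one_mul] at hq
  have hval : M k k + M k k' * -c + -(starRingEnd ℂ) c * (M k' k + M k' k' * -c)
      = M k k + M k' k' * ((starRingEnd ℂ) c * c) - ((c * z) + (starRingEnd ℂ) (c * z)) := by
    rw [hzz, ← hz, map_mul]
    ring
  rw [hval, hcc, hcz, Complex.conj_ofReal] at hq
  have hre := (Complex.le_def.mp hq).1
  simp only [Complex.zero_re, Complex.sub_re, Complex.add_re, Complex.ofReal_re, mul_one] at hre
  linarith

/-- Nonnegativity of the entropy for subnormalised operators. -/
lemma eig_le_one_of_trace_le {ρ : Matrix ι ι ℂ} (hρ : ρ.PosSemidef) (htr : (trace ρ).re ≤ 1)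
    (i : ι) : hρ.isHermitian.eigenvalues i ≤ 1 := by
  have hH := hρ.isHermitian
  have h1 : ∑ j, hH.eigenvalues j = (trace ρ).re := by
    have := hH.trace_eq_sum_eigenvalues
    rw [this]
    simp
  have h2 : hH.eigenvalues i ≤ ∑ j, hH.eigenvalues j :=
    Finset.single_le_sum (f := hH.eigenvalues) (fun j _ => hρ.eigenvalues_nonneg j) (Finset.mem_univ i)
  linarith

lemma vonNeumann_nonneg' {ρ : Matrix ι ι ℂ} (hρ : ρ.PosSemidef) (htr : (trace ρ).re ≤ 1) :
    0 ≤ vonNeumann ρ := by
  have hH := hρ.isHermitian
  rw [vonNeumann_eq_eig hH]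
  apply Finset.sum_nonneg
  intro i _
  exact Real.negMulLog_nonneg (hρ.eigenvalues_nonneg i) (eig_le_one_of_trace_le hρ htr i)

/-- Entropy under scaling by a positive constant. -/
lemma vonNeumann_smul {X : Matrix ι ι ℂ} (hX : X.IsHermitian) {c : ℝ} (hc : 0 < c) :
    vonNeumann ((c : ℂ) • X) = c * vonNeumann X - c * Real.log c * (trace X).re := by
  set a := hX.eigenvalues with ha
  set V : Matrix ι ι ℂ := (hX.eigenvectorUnitary : Matrix ι ι ℂ) with hV
  have hV2 : Vᴴ * V = 1 := by
    have := Unitary.star_mul_self_of_mem hX.eigenvectorUnitary.2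
    simpa [star_eq_conjTranspose] using this
  have hd : X = V * rdiag a * Vᴴ := by
    conv_lhs => rw [hX.spectral_theorem, Unitary.conjStarAlgAut_apply]
    rfl
  have hd2 : (c : ℂ) • X = V * rdiag (fun i => c * a i) * Vᴴ := by
    conv_lhs => rw [hd]
    have : rdiag (fun i => c * a i) = (c : ℂ) • rdiag a := by
      ext i j
      by_cases h : i = j
      · subst h
        simp [rdiag]
      · simp [rdiag, diagonal_apply_ne _ h]
    rw [this, Matrix.mul_smul, Matrix.smul_mul]
  have hH2 : ((c : ℂ) • X).IsHermitian := by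
    rw [IsHermitian, conjTranspose_smul, hX.eq]
    simp
  rw [vonNeumann_of_decomp hH2 hV2 hd2, vonNeumann_of_decomp hX hV2 hd]
  have htr : (trace X).re = ∑ i, a i := by
    have := hX.trace_eq_sum_eigenvalues
    rw [this]
    simp [ha]
  rw [htr, Finset.mul_sum, Finset.mul_sum, ← Finset.sum_sub_distrib]
  apply Finset.sum_congr rfl
  intro i _
  by_cases h : a i = 0
  · simp [h]
  · simp only [Real.negMulLog]
    rw [Real.log_mul hc.ne' h]
    ring

/-- Klein's inequality against a dominating operator: if `c X ≤ Y`, `Y` has trace at most one,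
then `S(Y) ≥ c (S(X) + Tr X - Tr Y)`. -/
theorem klein_dominated {X Y : Matrix ι ι ℂ} (hX : X.PosSemidef) (hY : Y.PosSemidef) {c : ℝ}
    (hc : 0 < c) (hdom : (Y - (c : ℂ) • X).PosSemidef) (hYtr : (trace Y).re ≤ 1) :
    c * (vonNeumann X + (trace X).re - (trace Y).re) ≤ vonNeumann Y := by
  have hYH := hY.isHermitian
  have hXH := hX.isHermitian
  set a := hYH.eigenvalues with ha
  set U : Matrix ι ι ℂ := (hYH.eigenvectorUnitary : Matrix ι ι ℂ) with hU
  have hU1 : U * Uᴴ = 1 := by
    have := Unitary.mul_star_self_of_mem hYH.eigenvectorUnitary.2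
    simpa [star_eq_conjTranspose] using this
  have hU2 : Uᴴ * U = 1 := by
    have := Unitary.star_mul_self_of_mem hYH.eigenvectorUnitary.2
    simpa [star_eq_conjTranspose] using this
  have hYd : Y = U * rdiag a * Uᴴ := by
    conv_lhs => rw [hYH.spectral_theorem, Unitary.conjStarAlgAut_apply]
    rfl
  set s := hXH.eigenvalues with hs
  set V : Matrix ι ι ℂ := (hXH.eigenvectorUnitary : Matrix ι ι ℂ) with hV
  have hV1 : V * Vᴴ = 1 := by
    have := Unitary.mul_star_self_of_mem hXH.eigenvectorUnitary.2
    simpa [star_eq_conjTranspose] using this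
  have hV2 : Vᴴ * V = 1 := by
    have := Unitary.star_mul_self_of_mem hXH.eigenvectorUnitary.2
    simpa [star_eq_conjTranspose] using this
  have hXd : X = V * rdiag s * Vᴴ := by
    conv_lhs => rw [hXH.spectral_theorem, Unitary.conjStarAlgAut_apply]
    rfl
  have ha0 : ∀ k, 0 ≤ a k := fun k => hY.eigenvalues_nonneg k
  have ha1 : ∀ k, a k ≤ 1 := fun k => eig_le_one_of_trace_le hY hYtr k
  have hs0 : ∀ i, 0 ≤ s i := fun i => hX.eigenvalues_nonneg i
  set G : Matrix ι ι ℂ := Uᴴ * V with hG
  have hGrow : ∀ k, ∑ i, Complex.normSq (G k i) = 1 := by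
    intro k
    have h := sum_normSq_row G k
    have e : G * Gᴴ = 1 := by
      rw [hG, conjTranspose_mul, conjTranspose_conjTranspose, Matrix.mul_assoc, ← Matrix.mul_assoc V,
        hV1, Matrix.one_mul, hU2]
    rw [e, Matrix.one_apply_eq] at h
    exact_mod_cast h
  have hGcol : ∀ i, ∑ k, Complex.normSq (G k i) = 1 := by
    intro i
    have h := sum_normSq_col G i
    have e : Gᴴ * G = 1 := by
      rw [hG, conjTranspose_mul, conjTranspose_conjTranspose, Matrix.mul_assoc, ← Matrix.mul_assoc U,
        hU1, Matrix.one_mul, hV2]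
    rw [e, Matrix.one_apply_eq] at h
    exact_mod_cast h
  set LL : Matrix ι ι ℂ := U * rdiag (fun k => Real.log (a k)) * Uᴴ with hLL
  -- the conjugate of X by U, on the diagonal
  have hUXU : ∀ k, ((c : ℂ) • (Uᴴ * X * U)) k k = (((c * ∑ i, Complex.normSq (G k i) * s i : ℝ)) : ℂ) := by
    intro k
    have e : Uᴴ * X * U = G * rdiag s * Gᴴ := by
      rw [hXd, hG, conjTranspose_mul, conjTranspose_conjTranspose]
      simp only [Matrix.mul_assoc]
    rw [e, Matrix.smul_apply]
    simp only [Matrix.mul_apply, rdiag, Matrix.diagonal_apply, conjTranspose_apply, mul_ite, mul_zero,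
      Finset.sum_ite_eq', Finset.mem_univ, if_true, smul_eq_mul]
    push_cast
    congr 1
    apply Finset.sum_congr rfl
    intro i _
    have h : (G k i) * (star (G k i)) = ((Complex.normSq (G k i) : ℝ) : ℂ) := by
      rw [Complex.star_def, Complex.mul_conj]
    calc G k i * (s i : ℂ) * star (G k i) = (G k i * star (G k i)) * (s i : ℂ) := by ring
      _ = _ := by rw [h]
  -- domination: on a null eigenvector of Y the weight of X vanishes
  have hdomk : ∀ k, c * ∑ i, Complex.normSq (G k i) * s i ≤ a k := by
    intro k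
    have h1 := (hdom.conjTranspose_mul_mul_same U).diag_nonneg (i := k)
    have e : Uᴴ * (Y - (c : ℂ) • X) * U = rdiag a - (c : ℂ) • (Uᴴ * X * U) := by
      rw [Matrix.mul_sub, Matrix.sub_mul, hYd]
      have e1 : Uᴴ * (U * rdiag a * Uᴴ) * U = (Uᴴ * U) * rdiag a * (Uᴴ * U) := by
        simp only [Matrix.mul_assoc]
      rw [e1, hU2, Matrix.one_mul, Matrix.mul_one, Matrix.mul_smul, Matrix.smul_mul]
    rw [e, Matrix.sub_apply, hUXU k] at h1
    simp only [rdiag, diagonal_apply_eq] at h1
    have h2 := (Complex.le_def.mp h1).1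
    simp only [Complex.zero_re, Complex.sub_re, Complex.ofReal_re] at h2
    linarith
  have hT : trace (X * LL) = trace (G * rdiag s * Gᴴ * rdiag (fun k => Real.log (a k))) := by
    rw [hXd, hG, conjTranspose_mul, conjTranspose_conjTranspose, hLL]
    calc trace (V * rdiag s * Vᴴ * (U * rdiag (fun i => Real.log (a i)) * Uᴴ))
        = trace (Uᴴ * (V * rdiag s * Vᴴ * (U * rdiag (fun i => Real.log (a i))))) := by
          rw [← Matrix.mul_assoc _ _ Uᴴ, Matrix.trace_mul_comm]
      _ = trace (Uᴴ * V * rdiag s * (Vᴴ * U) * rdiag (fun i => Real.log (a i))) := by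
          simp only [Matrix.mul_assoc]
  -- termwise inequality
  have hterm : ∀ k i, Complex.normSq (G k i) * (Real.negMulLog (s i) + s i - a k)
      ≤ Complex.normSq (G k i) * (- (s i * Real.log (a k))) := by
    intro k i
    by_cases hak : a k = 0
    · by_cases hG0 : Complex.normSq (G k i) = 0
      · rw [hG0]; simp
      · have h1 := hdomk k
        rw [hak] at h1
        have hsum0 : ∑ j, Complex.normSq (G k j) * s j ≤ 0 := by
          by_contra hcon
          push Not at hcon
          have := mul_pos hc hcon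
          linarith
        have hnn : ∀ j ∈ Finset.univ, 0 ≤ Complex.normSq (G k j) * s j :=
          fun j _ => mul_nonneg (Complex.normSq_nonneg _) (hs0 j)
        have hz := (Finset.sum_eq_zero_iff_of_nonneg hnn).mp (le_antisymm hsum0 (Finset.sum_nonneg hnn))
        have hsi : s i = 0 := by
          have := hz i (Finset.mem_univ i)
          exact (mul_eq_zero.mp this).resolve_left hG0
        simp [hsi, hak]
    · have hpos : 0 < a k := lt_of_le_of_ne (ha0 k) (Ne.symm hak)
      exact mul_le_mul_of_nonneg_left (pointwise_klein (hs0 i) hpos) (Complex.normSq_nonneg _)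
  have hsum : ∑ i, Real.negMulLog (s i) + ∑ i, s i - ∑ k, a k
      ≤ - (trace (X * LL)).re := by
    rw [hT, trace_sandwich, Complex.ofReal_re, ← Finset.sum_neg_distrib]
    have e1 : ∑ k, ∑ i, Complex.normSq (G k i) * (Real.negMulLog (s i) + s i - a k)
        = ∑ i, Real.negMulLog (s i) + ∑ i, s i - ∑ k, a k := by
      have : ∀ k i, Complex.normSq (G k i) * (Real.negMulLog (s i) + s i - a k)
          = Complex.normSq (G k i) * (Real.negMulLog (s i) + s i)
            - Complex.normSq (G k i) * a k := by intro k i; ring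
      simp only [this, Finset.sum_sub_distrib]
      rw [Finset.sum_comm]
      have h2 : ∑ y, ∑ x, Complex.normSq (G x y) * (Real.negMulLog (s y) + s y)
          = ∑ i, (Real.negMulLog (s i) + s i) := by
        apply Finset.sum_congr rfl
        intro i _
        rw [← Finset.sum_mul, hGcol i, one_mul]
      have h3 : ∑ k, ∑ i, Complex.normSq (G k i) * a k = ∑ k, a k := by
        apply Finset.sum_congr rfl
        intro k _
        rw [← Finset.sum_mul, hGrow k, one_mul]
      rw [h2, h3, Finset.sum_add_distrib]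
    rw [← e1]
    apply Finset.sum_le_sum
    intro k _
    calc ∑ i, Complex.normSq (G k i) * (Real.negMulLog (s i) + s i - a k)
        ≤ ∑ i, Complex.normSq (G k i) * (- (s i * Real.log (a k))) :=
          Finset.sum_le_sum (fun i _ => hterm k i)
      _ = - ∑ i, Complex.normSq (G k i) * (s i * Real.log (a k)) := by
          simp only [mul_neg, Finset.sum_neg_distrib]
  -- the entropy of Y
  have hSY : vonNeumann Y = - (trace (Y * LL)).re := by
    rw [vonNeumann_of_decomp hYH hU2 hYd]
    have : Y * LL = U * rdiag (fun i => a i * Real.log (a i)) * Uᴴ := by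
      rw [hYd, hLL]
      calc U * rdiag a * Uᴴ * (U * rdiag (fun i => Real.log (a i)) * Uᴴ)
          = U * rdiag a * (Uᴴ * U) * rdiag (fun i => Real.log (a i)) * Uᴴ := by
            simp only [Matrix.mul_assoc]
        _ = U * rdiag (fun i => a i * Real.log (a i)) * Uᴴ := by
            rw [hU2, Matrix.mul_one, Matrix.mul_assoc U, Matrix.diagonal_mul_diagonal]
            simp only [rdiag, Complex.ofReal_mul]
    rw [this, Matrix.trace_mul_cycle, hU2, Matrix.one_mul, trace_diagonal]
    simp only [Real.negMulLog, Complex.re_sum, Complex.ofReal_re, ← Finset.sum_neg_distrib]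
    apply Finset.sum_congr rfl
    intro i _
    ring
  -- the remainder has nonnegative weight against minus the logarithm
  have hrem : 0 ≤ - (trace ((Y - (c : ℂ) • X) * LL)).re := by
    have e : trace ((Y - (c : ℂ) • X) * LL)
        = trace ((Uᴴ * (Y - (c : ℂ) • X) * U) * rdiag (fun k => Real.log (a k))) := by
      rw [hLL]
      calc trace ((Y - (c : ℂ) • X) * (U * rdiag (fun k => Real.log (a k)) * Uᴴ))
          = trace (Uᴴ * ((Y - (c : ℂ) • X) * (U * rdiag (fun k => Real.log (a k))))) := by
            rw [← Matrix.mul_assoc _ _ Uᴴ, Matrix.trace_mul_comm]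
        _ = _ := by simp only [Matrix.mul_assoc]
    rw [e]
    have hp := hdom.conjTranspose_mul_mul_same U
    unfold trace
    simp only [diag_apply, Matrix.mul_apply, rdiag, Matrix.diagonal_apply, mul_ite, mul_zero,
      Finset.sum_ite_eq', Finset.mem_univ, if_true, Complex.re_sum]
    rw [← Finset.sum_neg_distrib]
    apply Finset.sum_nonneg
    intro k _
    have h1 : Real.log (a k) ≤ 0 := Real.log_nonpos (ha0 k) (ha1 k)
    have h2 := diag_re_nonneg hp k
    have h3 := diag_im_zero hp k
    rw [Complex.mul_re, Complex.ofReal_re, Complex.ofReal_im, mul_zero, sub_zero]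
    have h4 := mul_nonneg h2 (neg_nonneg.mpr h1)
    rw [Matrix.mul_apply] at h2
    simp only [Matrix.mul_apply] at h2 h3 h4 ⊢
    linarith
  have hsplit : (trace (Y * LL)).re
      = c * (trace (X * LL)).re + (trace ((Y - (c : ℂ) • X) * LL)).re := by
    rw [Matrix.sub_mul, trace_sub, Matrix.smul_mul, trace_smul, Complex.sub_re, smul_eq_mul,
      Complex.mul_re]
    simp
  have hSX : vonNeumann X = ∑ i, Real.negMulLog (s i) := vonNeumann_eq_eig hXH
  have htrX : (trace X).re = ∑ i, s i := by
    have := hXH.trace_eq_sum_eigenvalues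
    rw [this]
    simp [hs]
  have htrY : (trace Y).re = ∑ k, a k := by
    have := hYH.trace_eq_sum_eigenvalues
    rw [this]
    simp [ha]
  rw [hSY, hSX, htrX, htrY, hsplit]
  have := mul_le_mul_of_nonneg_left hsum hc.le
  nlinarith [this, hrem]

end Vale.Agent.Lib.P369
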