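import Vale.Agent.Lib.P369.Final
import Vale.Agent.Lib.P369.Spec2
import Vale.Agent.Lib.P369.DefsInf

/-!
Blocks of operators on the truncated Fock space, truncation of infinite matrices.
-/

namespace Vale.Agent.Lib.P369

open Matrix Finset Filter Topology
open scoped ComplexOrder ENNReal

variable {L : ℕ}

/-- The block at level `m` of an operator on the truncated space. -/
def blockF (B : Matrix (Fock2 L) (Fock2 L) ℂ) (m : ℕ) : Matrix (Fin (m + 1)) (Fin (m + 1)) ℂ :=
  fun i j => B (emb L m i) (emb L m j)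

lemma blockF_posSemidef {B : Matrix (Fock2 L) (Fock2 L) ℂ} (hB : B.PosSemidef) (m : ℕ) :
    (blockF B m).PosSemidef :=
  hB.submatrix (fun i : Fin (m + 1) => emb L m i)

lemma blockF_smul (c : ℂ) (B : Matrix (Fock2 L) (Fock2 L) ℂ) (m : ℕ) :
    blockF (c • B) m = c • blockF B m := by
  ext i j
  simp [blockF]

lemma trace_eq_sum_blocks (B : Matrix (Fock2 L) (Fock2 L) ℂ) :
    trace B = ∑ m ∈ range (L + 1), trace (blockF B m) := by
  unfold trace
  simp only [diag_apply]
  rw [sum_levels]
  apply Finset.sum_congr rfl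
  intro m _
  rw [← Fin.sum_univ_eq_sum_range (fun k => B (emb L m k) (emb L m k))]
  rfl

/-- Sum over one level. -/
lemma sum_one_level {M : Type*} [AddCommMonoid M] {m : ℕ} (hm : m ≤ L) (F : Fock2 L → M)
    (hF : ∀ g, photons g ≠ m → F g = 0) :
    ∑ g, F g = ∑ k : Fin (m + 1), F (emb L m k) := by
  rw [sum_levels]
  rw [Finset.sum_eq_single m]
  · rw [← Fin.sum_univ_eq_sum_range (fun k => F (emb L m k))]
  · intro m' hm' hne
    rw [Finset.mem_range] at hm'
    apply Finset.sum_eq_zero
    intro k hk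
    rw [Finset.mem_range] at hk
    apply hF
    rw [photons_emb (by omega) (by omega)]
    exact hne
  · intro h
    exact absurd (Finset.mem_range.mpr (by omega)) h

lemma emb_inj {m : ℕ} (hm : m ≤ L) {i j : Fin (m + 1)} (h : emb L m i = emb L m j) : i = j := by
  have h1 : yy (emb L m i) = yy (emb L m j) := by rw [h]
  rw [yy_emb (by omega) hm, yy_emb (by omega) hm] at h1
  exact Fin.ext h1

/-- The entropy of a level-preserving operator is the sum of the entropies of its blocks. -/
theorem vonNeumann_eq_sum_blocks {B : Matrix (Fock2 L) (Fock2 L) ℂ} (hB : B.IsHermitian)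
    (hg : ∀ e f, photons e ≠ photons f → B e f = 0) :
    vonNeumann B = ∑ m ∈ range (L + 1), vonNeumann (blockF B m) := by
  obtain ⟨U, a, _, hU2, hlev, hd, _⟩ := exists_level_decomp hB hg
  rw [vonNeumann_of_decomp hB hU2 hd, sum_levels]
  apply Finset.sum_congr rfl
  intro m hm
  rw [Finset.mem_range] at hm
  have hm' : m ≤ L := by omega
  have hph : ∀ i : Fin (m + 1), photons (emb L m i) = m := fun i =>
    photons_emb (by omega) hm'
  set V : Matrix (Fin (m + 1)) (Fin (m + 1)) ℂ := fun i j => U (emb L m i) (emb L m j) with hV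
  set am : Fin (m + 1) → ℝ := fun i => a (emb L m i) with ham
  have hV2 : Vᴴ * V = 1 := by
    ext i j
    rw [Matrix.mul_apply]
    have h1 := congrFun (congrFun hU2 (emb L m i)) (emb L m j)
    rw [Matrix.mul_apply, sum_one_level hm' (fun g => Uᴴ (emb L m i) g * U g (emb L m j))] at h1
    · simp only [conjTranspose_apply] at h1 ⊢
      simp only [hV]
      rw [h1]
      by_cases hij : i = j
      · subst hij
        simp
      · have hne : emb L m i ≠ emb L m j := fun h => hij (emb_inj hm' h)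
        rw [Matrix.one_apply_ne hne, Matrix.one_apply_ne hij]
    · intro g hgm
      rw [conjTranspose_apply, hlev g (emb L m i) (by rw [hph]; exact hgm)]
      simp
  have hdb : blockF B m = V * rdiag am * Vᴴ := by
    ext i j
    have h1 := congrFun (congrFun hd (emb L m i)) (emb L m j)
    simp only [Matrix.mul_apply, rdiag, Matrix.diagonal_apply, mul_ite, mul_zero,
      Finset.sum_ite_eq', Finset.mem_univ, if_true, conjTranspose_apply] at h1 ⊢
    simp only [blockF, hV, ham]
    rw [h1, sum_one_level hm' (fun g => U (emb L m i) g * (a g : ℂ) * star (U (emb L m j) g))]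
    intro g hgm
    rw [hlev (emb L m i) g (by rw [hph]; exact fun h => hgm h.symm)]
    simp
  have hBH : (blockF B m).IsHermitian := by
    ext i j
    simp only [conjTranspose_apply, blockF]
    exact hB.apply _ _
  rw [vonNeumann_of_decomp hBH hV2 hdb]
  rw [← Fin.sum_univ_eq_sum_range (fun k => Real.negMulLog (a (emb L m k)))]

/-- Truncation of an infinite matrix to at most `L` photons. -/
def trunc (ρ : ℕ × ℕ → ℕ × ℕ → ℂ) (L : ℕ) : Matrix (Fock2 L) (Fock2 L) ℂ :=
  fun e f => ρ (xx e, yy e) (xx f, yy f)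

lemma blockF_trunc (ρ : ℕ × ℕ → ℕ × ℕ → ℂ) {m : ℕ} (hm : m ≤ L) :
    blockF (trunc ρ L) m = levelBlock ρ m := by
  ext i j
  have hi : (i : ℕ) ≤ m := by omega
  have hj : (j : ℕ) ≤ m := by omega
  simp only [blockF, trunc, levelBlock, xx_emb hi hm, yy_emb hi hm, xx_emb hj hm, yy_emb hj hm]

lemma trunc_gauge {ρ : ℕ × ℕ → ℕ × ℕ → ℂ} (hg : ∀ e f : ℕ × ℕ, e.1 + e.2 ≠ f.1 + f.2 → ρ e f = 0) :
    ∀ e f : Fock2 L, photons e ≠ photons f → trunc ρ L e f = 0 := by
  intro e f h
  exact hg _ _ h

lemma posSemidef_blockDiagonal' {o : Type*} [Fintype o] [DecidableEq o] {m' : o → Type*}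
    [∀ i, Fintype (m' i)] [∀ i, DecidableEq (m' i)] (M : ∀ i, Matrix (m' i) (m' i) ℂ)
    (h : ∀ i, (M i).PosSemidef) : (blockDiagonal' M).PosSemidef := by
  apply Matrix.PosSemidef.of_dotProduct_mulVec_nonneg
  · rw [IsHermitian, blockDiagonal'_conjTranspose]
    congr 1
    funext i
    exact (h i).isHermitian
  · intro x
    have e : star x ⬝ᵥ (blockDiagonal' M *ᵥ x)
        = ∑ i, star (fun a => x ⟨i, a⟩) ⬝ᵥ (M i *ᵥ (fun a => x ⟨i, a⟩)) := by
      simp only [dotProduct, mulVec]
      rw [Fintype.sum_sigma]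
      apply Finset.sum_congr rfl
      intro i _
      apply Finset.sum_congr rfl
      intro a _
      congr 1
      rw [Fintype.sum_sigma, Finset.sum_eq_single i]
      · apply Finset.sum_congr rfl
        intro b _
        rw [blockDiagonal'_apply_eq]
      · intro k _ hk
        apply Finset.sum_eq_zero
        intro b _
        rw [blockDiagonal'_apply_ne _ _ _ (Ne.symm hk), zero_mul]
      · intro h'
        exact absurd (Finset.mem_univ _) h'
    rw [e]
    exact Finset.sum_nonneg fun i _ => (h i).dotProduct_mulVec_nonneg _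

lemma trunc_posSemidef {ρ : ℕ × ℕ → ℕ × ℕ → ℂ}
    (hg : ∀ e f : ℕ × ℕ, e.1 + e.2 ≠ f.1 + f.2 → ρ e f = 0)
    (hpsd : ∀ m, (levelBlock ρ m).PosSemidef) : (trunc ρ L).PosSemidef := by
  rw [← posSemidef_submatrix_equiv (levelEquiv L).symm]
  have : (trunc ρ L).submatrix (levelEquiv L).symm (levelEquiv L).symm
      = blockDiagonal' (fun m : Fin (L + 1) => levelBlock ρ m) := by
    ext ⟨m, i⟩ ⟨m', j⟩
    rw [blockDiagonal'_apply']
    by_cases h : m = m'
    · subst h
      simp only [dite_true, submatrix_apply, trunc, levelBlock]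
      rfl
    · rw [dif_neg h]
      simp only [submatrix_apply, trunc]
      apply hg
      have h1 : xx ((levelEquiv L).symm ⟨m, i⟩) + yy ((levelEquiv L).symm ⟨m, i⟩) = m := by
        change ((m : ℕ) - (i : ℕ)) + (i : ℕ) = m
        have := i.2
        omega
      have h2 : xx ((levelEquiv L).symm ⟨m', j⟩) + yy ((levelEquiv L).symm ⟨m', j⟩) = m' := by
        change ((m' : ℕ) - (j : ℕ)) + (j : ℕ) = m'
        have := j.2
        omega
      simp only [h1, h2]
      intro h3
      exact h (Fin.ext h3)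
  rw [this]
  exact posSemidef_blockDiagonal' _ (fun m => hpsd m)

lemma rhoHat_trunc (ρ : ℕ × ℕ → ℕ × ℕ → ℂ) (x1 y1 x2 y2 : ℕ) :
    rhoHat (trunc ρ L) x1 y1 x2 y2
      = if x1 + y1 ≤ L ∧ x2 + y2 ≤ L then ρ (x1, y1) (x2, y2) else 0 := by
  unfold rhoHat
  by_cases h1 : x1 + y1 ≤ L
  · rw [dif_pos h1]
    by_cases h2 : x2 + y2 ≤ L
    · rw [dif_pos h2, if_pos ⟨h1, h2⟩]
      rfl
    · rw [dif_neg h2, if_neg (fun h => h2 h.2)]
  · rw [dif_neg h1, if_neg (fun h => h1 h.1)]

end Vale.Agent.Lib.P369
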