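import Vale.Agent.Lib.P369.Infinite1

/-!
The Kraus terms at a fixed output level, summability, and comparison of the output of the
truncated state with the full output.
-/

namespace Vale.Agent.Lib.P369

open Matrix Finset Filter Topology
open scoped ComplexOrder ENNReal

variable {L : ℕ}

/-- The basis vector of index `k` at level `J`. -/
abbrev fk (J : ℕ) (k : Fin (J + 1)) : ℕ × ℕ := (J - (k : ℕ), (k : ℕ))

/-- The contribution of the environment state `p` to the output block at level `J`. -/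
noncomputable def termM (η : ℝ) (ρ : ℕ × ℕ → ℕ × ℕ → ℂ) (J : ℕ) (p : ℕ × ℕ) :
    Matrix (Fin (J + 1)) (Fin (J + 1)) ℂ :=
  fun k k' => ((lossAmp η p (fk J k) * lossAmp η p (fk J k') : ℝ) : ℂ)
    * ρ (fk J k + p) (fk J k' + p)

lemma termM_posSemidef (η : ℝ) {ρ : ℕ × ℕ → ℕ × ℕ → ℂ} (hpsd : ∀ m, (levelBlock ρ m).PosSemidef)
    (J : ℕ) (p : ℕ × ℕ) : (termM η ρ J p).PosSemidef := by
  set m := J + p.1 + p.2 with hm
  let τ : Fin (J + 1) → Fin (m + 1) := fun k => ⟨(k : ℕ) + p.2, by have := k.2; omega⟩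
  have h1 : ((levelBlock ρ m).submatrix τ τ).PosSemidef := (hpsd m).submatrix τ
  let v : Fin (J + 1) → ℂ := fun k => ((lossAmp η p (fk J k) : ℝ) : ℂ)
  have h2 := h1.mul_mul_conjTranspose_same (diagonal v)
  have e : diagonal v * (levelBlock ρ m).submatrix τ τ * (diagonal v)ᴴ = termM η ρ J p := by
    ext k k'
    rw [diagonal_conjTranspose, mul_diagonal, diagonal_mul]
    simp only [termM, submatrix_apply, levelBlock, v, τ, Pi.star_apply, Complex.star_def,
      Complex.conj_ofReal]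
    have hk : ∀ k : Fin (J + 1), (m - ((k : ℕ) + p.2), (k : ℕ) + p.2) = fk J k + p := by
      intro k
      have := k.2
      apply Prod.ext
      · simp only [Prod.fst_add]
        omega
      · simp only [Prod.snd_add]
    rw [hk k, hk k']
    push_cast
    ring
  rw [e] at h2
  exact h2

lemma binom_term_le_one {η : ℝ} (h0 : 0 ≤ η) (h1 : η ≤ 1) (f a : ℕ) :
    ((f + a).choose a : ℝ) * η ^ f * (1 - η) ^ a ≤ 1 := by
  have h := add_pow η (1 - η) (f + a)
  have e : η + (1 - η) = 1 := by ring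
  rw [e, one_pow] at h
  have hle := Finset.single_le_sum (s := range (f + a + 1))
    (f := fun m => η ^ m * (1 - η) ^ (f + a - m) * ((f + a).choose m : ℝ))
    (fun m _ => mul_nonneg (mul_nonneg (pow_nonneg h0 _) (pow_nonneg (by linarith) _))
      (Nat.cast_nonneg _)) (Finset.mem_range.mpr (by omega : f < f + a + 1))
  have e2 : f + a - f = a := by omega
  simp only [e2] at hle
  have e3 : (f + a).choose f = (f + a).choose a := Nat.choose_symm_add
  rw [e3] at hle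
  calc ((f + a).choose a : ℝ) * η ^ f * (1 - η) ^ a
      = η ^ f * (1 - η) ^ a * ((f + a).choose a : ℝ) := by ring
    _ ≤ _ := hle
    _ = 1 := h.symm

lemma lossAmp_sq {η : ℝ} (h0 : 0 ≤ η) (h1 : η ≤ 1) (l f : ℕ × ℕ) :
    lossAmp η l f * lossAmp η l f
      = (((f.1 + l.1).choose l.1 : ℝ) * η ^ f.1 * (1 - η) ^ l.1)
        * (((f.2 + l.2).choose l.2 : ℝ) * η ^ f.2 * (1 - η) ^ l.2) := by
  unfold lossAmp
  have h2 : Real.sqrt (((f.1 + l.1).choose l.1 : ℝ) * ((f.2 + l.2).choose l.2 : ℝ))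
      * Real.sqrt (((f.1 + l.1).choose l.1 : ℝ) * ((f.2 + l.2).choose l.2 : ℝ))
      = ((f.1 + l.1).choose l.1 : ℝ) * ((f.2 + l.2).choose l.2 : ℝ) :=
    Real.mul_self_sqrt (by positivity)
  have h3 : (Real.sqrt η) ^ (f.1 + f.2) * (Real.sqrt η) ^ (f.1 + f.2) = η ^ f.1 * η ^ f.2 := by
    rw [← mul_pow, Real.mul_self_sqrt h0, pow_add]
  have h4 : (Real.sqrt (1 - η)) ^ (l.1 + l.2) * (Real.sqrt (1 - η)) ^ (l.1 + l.2)
      = (1 - η) ^ l.1 * (1 - η) ^ l.2 := by
    rw [← mul_pow, Real.mul_self_sqrt (by linarith), pow_add]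
  calc _ = (Real.sqrt (((f.1 + l.1).choose l.1 : ℝ) * ((f.2 + l.2).choose l.2 : ℝ))
      * Real.sqrt (((f.1 + l.1).choose l.1 : ℝ) * ((f.2 + l.2).choose l.2 : ℝ)))
        * ((Real.sqrt η) ^ (f.1 + f.2) * (Real.sqrt η) ^ (f.1 + f.2))
        * ((Real.sqrt (1 - η)) ^ (l.1 + l.2) * (Real.sqrt (1 - η)) ^ (l.1 + l.2)) := by ring
    _ = _ := by rw [h2, h3, h4]; ring

lemma lossAmp_sq_nonneg (η : ℝ) (l f : ℕ × ℕ) : 0 ≤ lossAmp η l f * lossAmp η l f :=
  mul_self_nonneg _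

lemma lossAmp_sq_le_one {η : ℝ} (h0 : 0 ≤ η) (h1 : η ≤ 1) (l f : ℕ × ℕ) :
    lossAmp η l f * lossAmp η l f ≤ 1 := by
  rw [lossAmp_sq h0 h1]
  have a1 := binom_term_le_one h0 h1 f.1 l.1
  have a2 := binom_term_le_one h0 h1 f.2 l.2
  have b1 : 0 ≤ ((f.1 + l.1).choose l.1 : ℝ) * η ^ f.1 * (1 - η) ^ l.1 :=
    mul_nonneg (mul_nonneg (Nat.cast_nonneg _) (pow_nonneg h0 _)) (pow_nonneg (by linarith) _)
  have b2 : 0 ≤ ((f.2 + l.2).choose l.2 : ℝ) * η ^ f.2 * (1 - η) ^ l.2 :=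
    mul_nonneg (mul_nonneg (Nat.cast_nonneg _) (pow_nonneg h0 _)) (pow_nonneg (by linarith) _)
  calc _ ≤ (1:ℝ) * 1 := mul_le_mul a1 a2 b2 zero_le_one
    _ = 1 := by ring

lemma diag_rho_nonneg {ρ : ℕ × ℕ → ℕ × ℕ → ℂ} (hpsd : ∀ m, (levelBlock ρ m).PosSemidef)
    (e : ℕ × ℕ) : 0 ≤ (ρ e e).re := by
  have h := diag_re_nonneg (hpsd (e.1 + e.2)) ⟨e.2, by omega⟩
  simp only [levelBlock] at h
  have e1 : e.1 + e.2 - e.2 = e.1 := by omega
  simp only [e1] at h
  exact h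

lemma summable_termM {η : ℝ} (h0 : 0 ≤ η) (h1 : η ≤ 1) {ρ : ℕ × ℕ → ℕ × ℕ → ℂ}
    (hpsd : ∀ m, (levelBlock ρ m).PosSemidef) (hdiag : Summable fun e => (ρ e e).re) (J : ℕ)
    (k k' : Fin (J + 1)) : Summable fun p => termM η ρ J p k k' := by
  have hinj : ∀ f : ℕ × ℕ, Function.Injective (fun p : ℕ × ℕ => f + p) := by
    intro f p q h
    exact add_left_cancel h
  have hS : ∀ k : Fin (J + 1), Summable fun p : ℕ × ℕ => (ρ (fk J k + p) (fk J k + p)).re :=
    fun k => hdiag.comp_injective (hinj (fk J k))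
  have hd : ∀ (k : Fin (J + 1)) (p : ℕ × ℕ), (termM η ρ J p k k).re
      ≤ (ρ (fk J k + p) (fk J k + p)).re := by
    intro k p
    simp only [termM]
    rw [Complex.re_ofReal_mul]
    have a1 := lossAmp_sq_le_one h0 h1 p (fk J k)
    have a2 := diag_rho_nonneg hpsd (fk J k + p)
    calc _ ≤ (1:ℝ) * (ρ (fk J k + p) (fk J k + p)).re := mul_le_mul_of_nonneg_right a1 a2
      _ = _ := one_mul _
  apply Summable.of_norm_bounded (g := fun p => ((ρ (fk J k + p) (fk J k + p)).re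
      + (ρ (fk J k' + p) (fk J k' + p)).re) / 2) (((hS k).add (hS k')).div_const 2)
  intro p
  have h3 := norm_entry_le (termM_posSemidef η hpsd J p) k k'
  have h4 := hd k p
  have h5 := hd k' p
  linarith

lemma hasSum_termM {η : ℝ} (h0 : 0 ≤ η) (h1 : η ≤ 1) {ρ : ℕ × ℕ → ℕ × ℕ → ℂ}
    (hpsd : ∀ m, (levelBlock ρ m).PosSemidef) (hdiag : Summable fun e => (ρ e e).re) (J : ℕ) :
    HasSum (fun p => termM η ρ J p) (levelBlock (lossOutput η ρ) J) := by
  apply Pi.hasSum.mpr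
  intro k
  apply Pi.hasSum.mpr
  intro k'
  exact (summable_termM h0 h1 hpsd hdiag J k k').hasSum

/-- The environment states compatible with output level `J` and cut-off `L`. -/
def tset (J L : ℕ) : Finset (ℕ × ℕ) :=
  ((range (L + 1)) ×ˢ (range (L + 1))).filter (fun p => J + p.1 + p.2 ≤ L)

lemma mem_tset {J L : ℕ} {p : ℕ × ℕ} : p ∈ tset J L ↔ J + p.1 + p.2 ≤ L := by
  simp only [tset, Finset.mem_filter, Finset.mem_product, Finset.mem_range]
  omega

lemma kv_eq_lossAmp (z : ℝ) (l f : Fock2 L) : kv z l f = lossAmp z (xx l, yy l) (xx f, yy f) := rfl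

/-- The block of the output of the truncated matrix. -/
theorem blockF_lossChannel_trunc (η : ℝ) (ρ : ℕ × ℕ → ℕ × ℕ → ℂ) {J : ℕ} (hJ : J ≤ L) :
    blockF (lossChannel η (trunc ρ L)) J = ∑ p ∈ tset J L, termM η ρ J p := by
  ext k k'
  have hk : (k : ℕ) ≤ J := by omega
  have hk' : (k' : ℕ) ≤ J := by omega
  simp only [blockF]
  rw [lossChannel_apply, Matrix.sum_apply]
  simp only [kv_eq_lossAmp, rhoHat_trunc, xx_emb hk hJ, yy_emb hk hJ, xx_emb hk' hJ, yy_emb hk' hJ]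
  rw [sum_box (fun a b => ((lossAmp η (a, b) (J - (k : ℕ), (k : ℕ))
      * lossAmp η (a, b) (J - (k' : ℕ), (k' : ℕ)) : ℝ) : ℂ)
      * if J - (k : ℕ) + a + ((k : ℕ) + b) ≤ L ∧ J - (k' : ℕ) + a + ((k' : ℕ) + b) ≤ L then
          ρ (J - (k : ℕ) + a, (k : ℕ) + b) (J - (k' : ℕ) + a, (k' : ℕ) + b) else 0)]
  · rw [← Finset.sum_product' (range (L + 1)) (range (L + 1))
      (fun a b => ((lossAmp η (a, b) (J - (k : ℕ), (k : ℕ))
      * lossAmp η (a, b) (J - (k' : ℕ), (k' : ℕ)) : ℝ) : ℂ)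
      * if J - (k : ℕ) + a + ((k : ℕ) + b) ≤ L ∧ J - (k' : ℕ) + a + ((k' : ℕ) + b) ≤ L then
          ρ (J - (k : ℕ) + a, (k : ℕ) + b) (J - (k' : ℕ) + a, (k' : ℕ) + b) else 0)]
    unfold tset
    rw [Finset.sum_filter]
    apply Finset.sum_congr rfl
    rintro ⟨a, b⟩ _
    have e1 : J - (k : ℕ) + a + ((k : ℕ) + b) = J + a + b := by omega
    have e2 : J - (k' : ℕ) + a + ((k' : ℕ) + b) = J + a + b := by omega
    simp only [e1, e2, and_self]
    split_ifs with h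
    · simp only [termM, fk]
      rfl
    · simp
  · intro a b hab
    rw [if_neg, mul_zero]
    rintro ⟨h, _⟩
    omega

lemma tendsto_tset (J : ℕ) : Tendsto (fun L => tset J L) atTop atTop := by
  apply tendsto_atTop_finset_of_monotone
  · intro L L' hLL p hp
    rw [mem_tset] at hp ⊢
    omega
  · intro p
    exact ⟨J + p.1 + p.2, mem_tset.mpr le_rfl⟩

/-- The finite sets exhausting the Fock basis. -/
noncomputable def sset (L : ℕ) : Finset (ℕ × ℕ) := tset 0 L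

lemma sum_fock_sset {M : Type*} [AddCommMonoid M] (φ : ℕ × ℕ → M) :
    ∑ e : Fock2 L, φ (xx e, yy e) = ∑ p ∈ sset L, φ p := by
  classical
  have h1 := sum_box (L := L) (fun a b => if a + b ≤ L then φ (a, b) else 0)
    (by intro a b hab; rw [if_neg (by omega)])
  have h2 : ∑ l : Fock2 L, (if xx l + yy l ≤ L then φ (xx l, yy l) else 0)
      = ∑ l : Fock2 L, φ (xx l, yy l) :=
    Finset.sum_congr rfl (fun l _ => if_pos (xx_add_yy_le l))
  rw [← h2, h1, ← Finset.sum_product' (range (L + 1)) (range (L + 1))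
    (fun a b => if a + b ≤ L then φ (a, b) else 0)]
  unfold sset tset
  rw [Finset.sum_filter]
  apply Finset.sum_congr rfl
  rintro ⟨a, b⟩ _
  simp

end Vale.Agent.Lib.P369
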