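import Vale.Agent.Lib.P369.Infinite2

/-!
Removing the photon-number cut-off.
-/

namespace Vale.Agent.Lib.P369

open Matrix Finset Filter Topology
open scoped ComplexOrder ENNReal

lemma hasSum_comp_tendsto {β M : Type*} [AddCommMonoid M] [TopologicalSpace M] {f : β → M} {a : M}
    (h : HasSum f a) {s : ℕ → Finset β} (hs : Tendsto s atTop atTop) :
    Tendsto (fun n => ∑ b ∈ s n, f b) atTop (𝓝 a) := by
  have h1 : Tendsto (fun s : Finset β => ∑ b ∈ s, f b) atTop (𝓝 a) := by
    simpa [HasSum] using h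
  exact h1.comp hs

/-- Total mass of the truncation. -/
noncomputable def massP (ρ : ℕ × ℕ → ℕ × ℕ → ℂ) (L : ℕ) : ℝ := (trace (trunc ρ L)).re

lemma massP_eq (ρ : ℕ × ℕ → ℕ × ℕ → ℂ) (L : ℕ) : massP ρ L = ∑ p ∈ sset L, (ρ p p).re := by
  unfold massP trace
  simp only [diag_apply, trunc, Complex.re_sum]
  exact sum_fock_sset (L := L) (fun p => (ρ p p).re)

section

variable {ρ : ℕ × ℕ → ℕ × ℕ → ℂ} (hg : ∀ e f : ℕ × ℕ, e.1 + e.2 ≠ f.1 + f.2 → ρ e f = 0)
  (hpsd : ∀ m, (levelBlock ρ m).PosSemidef) (htr : HasSum (fun e => ρ e e) 1)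

include hpsd htr in
lemma massP_le_one (L : ℕ) : massP ρ L ≤ 1 := by
  rw [massP_eq]
  have h := Complex.hasSum_re htr
  simp only [Complex.one_re] at h
  exact sum_le_hasSum _ (fun e _ => diag_rho_nonneg hpsd e) h

include htr in
lemma massP_tendsto : Tendsto (massP ρ) atTop (𝓝 1) := by
  have h := Complex.hasSum_re htr
  simp only [Complex.one_re] at h
  have h2 := hasSum_comp_tendsto h (tendsto_tset 0)
  have e : massP ρ = fun L => ∑ p ∈ tset 0 L, (ρ p p).re := by
    funext L
    rw [massP_eq]
    rfl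
  rw [e]
  exact h2

include hpsd htr in
lemma summable_diag : Summable fun e => (ρ e e).re := (Complex.hasSum_re htr).summable

include hg hpsd in
lemma trace_trunc (L : ℕ) : trace (trunc ρ L) = (massP ρ L : ℂ) := by
  have h := (trunc_posSemidef (L := L) hg hpsd).trace_nonneg
  apply Complex.ext
  · simp [massP]
  · simp only [Complex.ofReal_im]
    exact ((Complex.le_def.mp h).2).symm

include hg hpsd htr in
/-- The blocks of the output have total trace at most one. -/
lemma sum_trace_output_le {η : ℝ} (h0 : 0 ≤ η) (h1 : η ≤ 1) (M : ℕ) :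
    ∑ J ∈ range M, (trace (levelBlock (lossOutput η ρ) J)).re ≤ 1 := by
  have hdiag := summable_diag hpsd htr
  have hlim : Tendsto (fun L => ∑ J ∈ range M, (trace (∑ p ∈ tset J L, termM η ρ J p)).re) atTop
      (𝓝 (∑ J ∈ range M, (trace (levelBlock (lossOutput η ρ) J)).re)) := by
    apply tendsto_finset_sum
    intro J _
    have h2 := hasSum_comp_tendsto (hasSum_termM h0 h1 hpsd hdiag J) (tendsto_tset J)
    have hc : Continuous (fun A : Matrix (Fin (J + 1)) (Fin (J + 1)) ℂ => (trace A).re) :=
      Complex.continuous_re.comp (Continuous.matrix_trace continuous_id)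
    exact (hc.tendsto _).comp h2
  apply le_of_tendsto hlim
  filter_upwards [eventually_ge_atTop M] with L hL
  have hW := lossChannel_posSemidef (trunc_posSemidef (L := L) hg hpsd) η
  have hWg := lossChannel_gauge (trunc_gauge (L := L) hg) η
  have e1 : ∀ J ∈ range M, (trace (∑ p ∈ tset J L, termM η ρ J p)).re
      = (trace (blockF (lossChannel η (trunc ρ L)) J)).re := by
    intro J hJ
    rw [Finset.mem_range] at hJ
    rw [blockF_lossChannel_trunc η ρ (by omega)]
  rw [Finset.sum_congr rfl e1]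
  have e2 : ∑ J ∈ range (L + 1), (trace (blockF (lossChannel η (trunc ρ L)) J)).re
      = massP ρ L := by
    rw [← Complex.re_sum, ← trace_eq_sum_blocks, trace_lossChannel (trunc_gauge hg) h0 h1]
    rfl
  have hle : ∑ J ∈ range M, (trace (blockF (lossChannel η (trunc ρ L)) J)).re
      ≤ ∑ J ∈ range (L + 1), (trace (blockF (lossChannel η (trunc ρ L)) J)).re := by
    apply Finset.sum_le_sum_of_subset_of_nonneg
    · intro J hJ
      rw [Finset.mem_range] at hJ ⊢
      omega
    · intro J _ _
      have := (blockF_posSemidef hW J).trace_nonneg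
      exact (Complex.le_def.mp this).1
  rw [e2] at hle
  exact le_trans hle (massP_le_one hpsd htr L)

include hg hpsd htr in
lemma output_block_posSemidef {η : ℝ} (h0 : 0 ≤ η) (h1 : η ≤ 1) (J : ℕ) :
    (levelBlock (lossOutput η ρ) J).PosSemidef :=
  hasSum_posSemidef (hasSum_termM h0 h1 hpsd (summable_diag hpsd htr) J)
    (fun p => termM_posSemidef η hpsd J p)

include hg hpsd htr in
lemma output_block_trace_le {η : ℝ} (h0 : 0 ≤ η) (h1 : η ≤ 1) (J : ℕ) :
    (trace (levelBlock (lossOutput η ρ) J)).re ≤ 1 := by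
  have h2 := sum_trace_output_le hg hpsd htr h0 h1 (J + 1)
  have h3 := Finset.single_le_sum (s := range (J + 1))
    (f := fun J => (trace (levelBlock (lossOutput η ρ) J)).re)
    (fun J' _ => by
      have := (output_block_posSemidef hg hpsd htr h0 h1 J').trace_nonneg
      exact (Complex.le_def.mp this).1) (Finset.mem_range.mpr (Nat.lt_succ_self J))
  exact le_trans h3 h2

include hg hpsd htr in
lemma input_block_trace_le (m : ℕ) : (trace (levelBlock ρ m)).re ≤ 1 := by
  have h1 := massP_le_one hpsd htr m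
  have h2 : massP ρ m = ∑ m' ∈ range (m + 1), (trace (blockF (trunc ρ m) m')).re := by
    unfold massP
    rw [trace_eq_sum_blocks, Complex.re_sum]
  have h3 := Finset.single_le_sum (s := range (m + 1))
    (f := fun m' => (trace (blockF (trunc ρ m) m')).re)
    (fun m' _ => by
      have := (blockF_posSemidef (trunc_posSemidef (L := m) hg hpsd) m').trace_nonneg
      exact (Complex.le_def.mp this).1) (Finset.mem_range.mpr (Nat.lt_succ_self m))
  simp only [blockF_trunc ρ le_rfl] at h3
  rw [h2] at h1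
  exact le_trans h3 h1

/-- The monotone form of the inequality on the truncated space. -/
lemma final_mono {L : ℕ} {σ : Matrix (Fock2 L) (Fock2 L) ℂ} (hσ : σ.PosSemidef)
    (hσg : ∀ e f, photons e ≠ photons f → σ e f = 0) (hσtr : trace σ = 1) {η : ℝ} (h0 : 0 < η)
    (h1 : η ≤ 1) {u : ℝ} (hu : 0 ≤ u) (hS : 2 * gFun u ≤ vonNeumann σ) :
    2 * gFun (η * u) ≤ vonNeumann (lossChannel η σ) := by
  have hS0 : 0 ≤ vonNeumann σ / 2 := by
    have := vonNeumann_nonneg hσ hσtr
    linarith
  obtain ⟨v, hv0, hv⟩ := exists_gFun_eq hS0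
  have hle : gFun u ≤ gFun v := by linarith
  have huv : u ≤ v := by
    by_contra hcon
    push Not at hcon
    have := strictMonoOn_gFun (show v ∈ Set.Ici (0:ℝ) from hv0) (show u ∈ Set.Ici (0:ℝ) from hu) hcon
    linarith
  have h3 := final_ineq hσ hσg hσtr h0 h1 hv0 (by rw [hv]; ring)
  have h4 := strictMonoOn_gFun.monotoneOn
    (show η * u ∈ Set.Ici (0:ℝ) by simp only [Set.mem_Ici]; positivity)
    (show η * v ∈ Set.Ici (0:ℝ) by simp only [Set.mem_Ici]; positivity)
    (mul_le_mul_of_nonneg_left huv h0.le)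
  linarith

include hg hpsd htr in
/-- The key estimate at a finite cut-off. -/
lemma key_finite {η : ℝ} (h0 : 0 < η) (h1 : η ≤ 1) {u' A : ℝ} (hu' : 0 ≤ u') {L : ℕ}
    (hmass : 0 < massP ρ L) (hA : A ≤ ∑ m ∈ range (L + 1), vonNeumann (levelBlock ρ m))
    (hlog : 2 * gFun u' ≤ A + Real.log (massP ρ L)) :
    massP ρ L * (2 * gFun (η * u')) ≤ ∑ J ∈ range (L + 1), vonNeumann (levelBlock (lossOutput η ρ) J) := by
  set c := massP ρ L with hc
  have hc1 : c ≤ 1 := massP_le_one hpsd htr L
  set σ : Matrix (Fock2 L) (Fock2 L) ℂ := ((c⁻¹ : ℝ) : ℂ) • trunc ρ L with hσ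
  have htrunc := trunc_posSemidef (L := L) hg hpsd
  have hcinv : 0 < c⁻¹ := inv_pos.mpr hmass
  have hσpsd : σ.PosSemidef := by
    apply htrunc.smul
    exact_mod_cast hcinv.le
  have hσg : ∀ e f, photons e ≠ photons f → σ e f = 0 := by
    intro e f h
    rw [hσ, Matrix.smul_apply, trunc_gauge hg e f h, smul_zero]
  have hσtr : trace σ = 1 := by
    rw [hσ, trace_smul, trace_trunc hg hpsd, smul_eq_mul, ← Complex.ofReal_mul, inv_mul_cancel₀ hmass.ne']
    simp
  -- entropy of the normalised truncation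
  have hblock : ∀ m ∈ range (L + 1), vonNeumann (blockF σ m)
      = c⁻¹ * vonNeumann (levelBlock ρ m)
        - c⁻¹ * Real.log c⁻¹ * (trace (levelBlock ρ m)).re := by
    intro m hm
    rw [Finset.mem_range] at hm
    rw [hσ, blockF_smul, blockF_trunc ρ (by omega)]
    exact vonNeumann_smul (hpsd m).isHermitian hcinv
  have hSσ : vonNeumann σ = c⁻¹ * (∑ m ∈ range (L + 1), vonNeumann (levelBlock ρ m)) + Real.log c := by
    rw [vonNeumann_eq_sum_blocks hσpsd.isHermitian hσg, Finset.sum_congr rfl hblock,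
      Finset.sum_sub_distrib, ← Finset.mul_sum, ← Finset.mul_sum]
    have e : ∑ m ∈ range (L + 1), (trace (levelBlock ρ m)).re = c := by
      have : massP ρ L = ∑ m ∈ range (L + 1), (trace (blockF (trunc ρ L) m)).re := by
        unfold massP
        rw [trace_eq_sum_blocks, Complex.re_sum]
      rw [hc, this]
      apply Finset.sum_congr rfl
      intro m hm
      rw [Finset.mem_range] at hm
      rw [blockF_trunc ρ (by omega)]
    rw [e, Real.log_inv]
    field_simp
    ring
  have hsumnn : 0 ≤ ∑ m ∈ range (L + 1), vonNeumann (levelBlock ρ m) :=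
    Finset.sum_nonneg fun m _ => vonNeumann_nonneg' (hpsd m) (input_block_trace_le hg hpsd htr m)
  have hSσ2 : 2 * gFun u' ≤ vonNeumann σ := by
    rw [hSσ]
    have h3 : ∑ m ∈ range (L + 1), vonNeumann (levelBlock ρ m)
        ≤ c⁻¹ * ∑ m ∈ range (L + 1), vonNeumann (levelBlock ρ m) := by
      have : 1 ≤ c⁻¹ := (one_le_inv₀ hmass).mpr hc1
      nlinarith
    linarith
  have hout := final_mono hσpsd hσg hσtr h0 h1 hu' hSσ2
  -- compare the blocks
  have h0' := h0.le
  have hW := lossChannel_posSemidef hσpsd η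
  have hWg := lossChannel_gauge hσg η
  have hWtr := trace_lossChannel hσg h0' h1
  have hsumS := vonNeumann_eq_sum_blocks hW.isHermitian hWg
  have hblockW : ∀ J, J ≤ L → ((c : ℂ) • blockF (lossChannel η σ) J)
      = ∑ p ∈ tset J L, termM η ρ J p := by
    intro J hJ
    rw [hσ, lossChannel_smul, blockF_smul, smul_smul, ← Complex.ofReal_mul, mul_inv_cancel₀ hmass.ne']
    simp only [Complex.ofReal_one, one_smul]
    exact blockF_lossChannel_trunc η ρ hJ
  have hkey : ∀ J ∈ range (L + 1), c * (vonNeumann (blockF (lossChannel η σ) J)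
        + (trace (blockF (lossChannel η σ) J)).re - (trace (levelBlock (lossOutput η ρ) J)).re)
      ≤ vonNeumann (levelBlock (lossOutput η ρ) J) := by
    intro J hJ
    rw [Finset.mem_range] at hJ
    apply klein_dominated (blockF_posSemidef hW J) (output_block_posSemidef hg hpsd htr h0' h1 J)
      hmass _ (output_block_trace_le hg hpsd htr h0' h1 J)
    rw [hblockW J (by omega)]
    exact posSemidef_sub_of_hasSum (hasSum_termM h0' h1 hpsd (summable_diag hpsd htr) J)
      (fun p => termM_posSemidef η hpsd J p) _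
  have hfin := Finset.sum_le_sum hkey
  rw [← Finset.mul_sum, Finset.sum_sub_distrib, Finset.sum_add_distrib, ← hsumS, ← Complex.re_sum,
    ← trace_eq_sum_blocks, hWtr, hσtr] at hfin
  have hT := sum_trace_output_le hg hpsd htr h0' h1 (L + 1)
  simp only [Complex.one_re] at hfin
  have hfin2 : c * vonNeumann (lossChannel η σ)
      ≤ ∑ J ∈ range (L + 1), vonNeumann (levelBlock (lossOutput η ρ) J) := by
    refine le_trans ?_ hfin
    apply mul_le_mul_of_nonneg_left _ hmass.le
    linarith
  have := mul_le_mul_of_nonneg_left hout hmass.le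
  linarith

include hg hpsd htr in
/-- **Entropy photon-number inequality for two-mode gauge-invariant states with vacuum second
input, without any cut-off.** -/
theorem main_infinite {η : ℝ} (h0 : 0 ≤ η) (h1 : η ≤ 1) {u : ℝ} (hu : 0 ≤ u)
    (hS : ENNReal.ofReal (2 * gFun u) ≤ gaugeEntropy ρ) :
    ENNReal.ofReal (2 * gFun (η * u)) ≤ gaugeEntropy (lossOutput η ρ) := by
  rcases h0.eq_or_lt with rfl | hη
  · simp [gFun_zero]
  rcases hu.eq_or_lt with rfl | hupos
  · simp [gFun_zero]
  -- first for every smaller u'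
  have hsmall : ∀ u', 0 ≤ u' → u' < u →
      ENNReal.ofReal (2 * gFun (η * u')) ≤ gaugeEntropy (lossOutput η ρ) := by
    intro u' hu'0 hu'
    have hgu : gFun u' < gFun u :=
      strictMonoOn_gFun (show u' ∈ Set.Ici (0:ℝ) from hu'0) (show u ∈ Set.Ici (0:ℝ) from hu) hu'
    have hgu0 : 0 ≤ gFun u' := gFun_nonneg hu'0
    have hlt : ENNReal.ofReal (2 * gFun u') < gaugeEntropy ρ := by
      refine lt_of_lt_of_le ?_ hS
      rw [ENNReal.ofReal_lt_ofReal_iff (by linarith)]
      linarith
    unfold gaugeEntropy at hlt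
    rw [ENNReal.tsum_eq_iSup_nat, lt_iSup_iff] at hlt
    obtain ⟨M, hM⟩ := hlt
    have hnn : ∀ m, 0 ≤ vonNeumann (levelBlock ρ m) := fun m =>
      vonNeumann_nonneg' (hpsd m) (input_block_trace_le hg hpsd htr m)
    rw [← ENNReal.ofReal_sum_of_nonneg (fun m _ => hnn m),
      ENNReal.ofReal_lt_ofReal_iff_of_nonneg (by linarith)] at hM
    set A := ∑ m ∈ range M, vonNeumann (levelBlock ρ m) with hA
    have hmassT := massP_tendsto htr
    have hlogT : Tendsto (fun L => A + Real.log (massP ρ L)) atTop (𝓝 (A + Real.log 1)) :=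
      tendsto_const_nhds.add (hmassT.log (by norm_num))
    rw [Real.log_one, add_zero] at hlogT
    have hev1 : ∀ᶠ L in atTop, 2 * gFun u' < A + Real.log (massP ρ L) :=
      hlogT.eventually (lt_mem_nhds hM)
    have hev2 : ∀ᶠ L in atTop, 0 < massP ρ L :=
      hmassT.eventually (lt_mem_nhds zero_lt_one)
    have hlimit : Tendsto (fun L => ENNReal.ofReal (massP ρ L * (2 * gFun (η * u')))) atTop
        (𝓝 (ENNReal.ofReal (2 * gFun (η * u')))) := by
      apply ENNReal.tendsto_ofReal
      have := hmassT.mul_const (2 * gFun (η * u'))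
      simpa using this
    apply le_of_tendsto hlimit
    filter_upwards [hev1, hev2, eventually_ge_atTop M] with L hL1 hL2 hL3
    have hAle : A ≤ ∑ m ∈ range (L + 1), vonNeumann (levelBlock ρ m) := by
      apply Finset.sum_le_sum_of_subset_of_nonneg
      · intro m hm
        rw [Finset.mem_range] at hm ⊢
        omega
      · intro m _ _
        exact hnn m
    have hk := key_finite hg hpsd htr hη h1 hu'0 hL2 hAle hL1.le
    have hnnout : ∀ J, 0 ≤ vonNeumann (levelBlock (lossOutput η ρ) J) := fun J =>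
      vonNeumann_nonneg' (output_block_posSemidef hg hpsd htr hη.le h1 J)
        (output_block_trace_le hg hpsd htr hη.le h1 J)
    calc ENNReal.ofReal (massP ρ L * (2 * gFun (η * u')))
        ≤ ENNReal.ofReal (∑ J ∈ range (L + 1), vonNeumann (levelBlock (lossOutput η ρ) J)) :=
          ENNReal.ofReal_le_ofReal hk
      _ = ∑ J ∈ range (L + 1), ENNReal.ofReal (vonNeumann (levelBlock (lossOutput η ρ) J)) :=
          ENNReal.ofReal_sum_of_nonneg (fun J _ => hnnout J)
      _ ≤ gaugeEntropy (lossOutput η ρ) := ENNReal.sum_le_tsum _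
  -- limit in u'
  have hcg : ContinuousWithinAt gFun (Set.Ici 0) (η * u) :=
    continuousOn_gFun (η * u) (by simp only [Set.mem_Ici]; positivity)
  have hE : Tendsto (fun u' : ℝ => η * u') (𝓝[<] u) (𝓝[Set.Ici 0] (η * u)) := by
    rw [tendsto_nhdsWithin_iff]
    constructor
    · have : Tendsto (fun u' : ℝ => η * u') (𝓝 u) (𝓝 (η * u)) :=
        (continuous_const.mul continuous_id).tendsto u
      exact this.mono_left nhdsWithin_le_nhds
    · filter_upwards [Ioo_mem_nhdsLT hupos] with u' hu'
      simp only [Set.mem_Ici]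
      exact mul_nonneg hη.le hu'.1.le
  have hlim := ENNReal.tendsto_ofReal ((hcg.tendsto.comp hE).const_mul 2)
  apply le_of_tendsto hlim
  filter_upwards [Ioo_mem_nhdsLT hupos] with u' hu'
  exact hsmall u' hu'.1.le hu'.2

end

end Vale.Agent.Lib.P369
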