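import Vale.Agent.Lib.P369.Channel

/-!
From the Kraus form of the channel to the polynomial form, positivity, trace preservation and the
differential equation for the output state.
-/

namespace Vale.Agent.Lib.P369

open Matrix Finset
open scoped ComplexOrder

variable {L : ℕ}

/-- The value of the Kraus matrix at its single nonzero entry in a row. -/
noncomputable def kv (z : ℝ) (l f : Fock2 L) : ℝ :=
  Real.sqrt (((xx f + xx l).choose (xx l) : ℝ) * ((yy f + yy l).choose (yy l) : ℝ))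
    * (Real.sqrt z) ^ photons f * (Real.sqrt (1 - z)) ^ photons l

lemma lossKraus_apply (z : ℝ) (l f e : Fock2 L) :
    lossKraus z l f e = if xx e = xx f + xx l ∧ yy e = yy f + yy l then
      ((Real.sqrt (((xx e).choose (xx l) : ℝ) * ((yy e).choose (yy l) : ℝ))
        * (Real.sqrt z) ^ photons f * (Real.sqrt (1 - z)) ^ photons l : ℝ) : ℂ) else 0 := rfl

lemma lossKraus_of_cond {z : ℝ} {l f e : Fock2 L} (h : xx e = xx f + xx l ∧ yy e = yy f + yy l) :
    lossKraus z l f e = (kv z l f : ℂ) := by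
  rw [lossKraus_apply, if_pos h, kv, h.1, h.2]

lemma star_lossKraus (z : ℝ) (l f e : Fock2 L) : star (lossKraus z l f e) = lossKraus z l f e := by
  rw [lossKraus_apply]
  split_ifs with h
  · rw [Complex.star_def, Complex.conj_ofReal]
  · simp

lemma sum_kraus_mul (z : ℝ) (l f : Fock2 L) (φ : Fock2 L → ℂ) :
    ∑ e, lossKraus z l f e * φ e
      = if h : xx f + xx l + (yy f + yy l) ≤ L then
          (kv z l f : ℂ) * φ (mkF (xx f + xx l) (yy f + yy l) h) else 0 := by
  by_cases h : xx f + xx l + (yy f + yy l) ≤ L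
  · rw [dif_pos h]
    rw [Finset.sum_eq_single (mkF (xx f + xx l) (yy f + yy l) h)]
    · rw [lossKraus_of_cond (by simp)]
    · intro e _ he
      rw [lossKraus_apply, if_neg, zero_mul]
      rintro ⟨h1, h2⟩
      exact he (fock_ext h1 h2)
    · intro h'
      exact absurd (Finset.mem_univ _) h'
  · rw [dif_neg h]
    apply Finset.sum_eq_zero
    intro e _
    rw [lossKraus_apply, if_neg, zero_mul]
    rintro ⟨h1, h2⟩
    have := xx_add_yy_le e
    omega

lemma kraus_sandwich (z : ℝ) (l : Fock2 L) (ρ : Matrix (Fock2 L) (Fock2 L) ℂ) (f f' : Fock2 L) :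
    (lossKraus z l * ρ * (lossKraus z l)ᴴ) f f'
      = ((kv z l f * kv z l f' : ℝ) : ℂ)
        * rhoHat ρ (xx f + xx l) (yy f + yy l) (xx f' + xx l) (yy f' + yy l) := by
  rw [Matrix.mul_assoc, Matrix.mul_apply]
  have h1 : ∀ e, (ρ * (lossKraus z l)ᴴ) e f'
      = if h : xx f' + xx l + (yy f' + yy l) ≤ L then
          (kv z l f' : ℂ) * ρ e (mkF (xx f' + xx l) (yy f' + yy l) h) else 0 := by
    intro e
    rw [Matrix.mul_apply, ← sum_kraus_mul]
    apply Finset.sum_congr rfl
    intro e' _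
    rw [conjTranspose_apply, star_lossKraus, mul_comm]
  simp only [h1]
  rw [sum_kraus_mul]
  unfold rhoHat
  by_cases h : xx f + xx l + (yy f + yy l) ≤ L
  · rw [dif_pos h, dif_pos h]
    by_cases h' : xx f' + xx l + (yy f' + yy l) ≤ L
    · rw [dif_pos h', dif_pos h']
      push_cast
      ring
    · rw [dif_neg h', dif_neg h']
      simp
  · rw [dif_neg h, dif_neg h]
    simp

lemma kv_mul_kv {z : ℝ} (hz0 : 0 ≤ z) (hz1 : z ≤ 1) (l : Fock2 L) {f f' : Fock2 L}
    (hff : photons f = photons f') :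
    kv z l f * kv z l f'
      = cc (xx f) (xx f') (xx l) * cc (yy f) (yy f') (yy l)
        * (z ^ (xx f + yy f) * (1 - z) ^ (xx l + yy l)) := by
  unfold kv cc
  rw [← hff, photons_eq f, photons_eq l]
  rw [Real.sqrt_mul (Nat.cast_nonneg _), Real.sqrt_mul (Nat.cast_nonneg _)]
  have h1 : (Real.sqrt z) ^ (xx f + yy f) * (Real.sqrt z) ^ (xx f + yy f) = z ^ (xx f + yy f) := by
    rw [← mul_pow, Real.mul_self_sqrt hz0]
  have h2 : (Real.sqrt (1 - z)) ^ (xx l + yy l) * (Real.sqrt (1 - z)) ^ (xx l + yy l)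
      = (1 - z) ^ (xx l + yy l) := by
    rw [← mul_pow, Real.mul_self_sqrt (by linarith)]
  rw [← h1, ← h2]
  ring

/-- Sum over the basis of a function of the occupations vanishing beyond the truncation. -/
lemma sum_box {M : Type*} [AddCommMonoid M] (h : ℕ → ℕ → M) (hv : ∀ a b, L < a + b → h a b = 0) :
    ∑ l : Fock2 L, h (xx l) (yy l) = ∑ a ∈ range (L + 1), ∑ b ∈ range (L + 1), h a b := by
  rw [sum_levels]
  have e1 : ∑ m ∈ range (L + 1), ∑ k ∈ range (m + 1), h (xx (emb L m k)) (yy (emb L m k))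
      = ∑ m ∈ range (L + 1), ∑ k ∈ range (m + 1), h (m - k) k := by
    apply Finset.sum_congr rfl
    intro m hm
    rw [Finset.mem_range] at hm
    apply Finset.sum_congr rfl
    intro k hk
    rw [Finset.mem_range] at hk
    rw [xx_emb (by omega) (by omega), yy_emb (by omega) (by omega)]
  rw [e1, tri_sum]
  apply Finset.sum_congr rfl
  intro x hx
  rw [Finset.mem_range] at hx
  apply Finset.sum_subset
  · intro y hy
    rw [Finset.mem_range] at hy ⊢
    omega
  · intro y _ hy
    apply hv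
    rw [Finset.mem_range] at hy
    omega

lemma lossChannel_apply (z : ℝ) (ρ : Matrix (Fock2 L) (Fock2 L) ℂ) (f f' : Fock2 L) :
    lossChannel z ρ f f' = ∑ l : Fock2 L, ((kv z l f * kv z l f' : ℝ) : ℂ)
        * rhoHat ρ (xx f + xx l) (yy f + yy l) (xx f' + xx l) (yy f' + yy l) := by
  unfold lossChannel
  rw [Matrix.sum_apply]
  apply Finset.sum_congr rfl
  intro l _
  exact kraus_sandwich z l ρ f f'

/-- The entries of the channel output, for gauge-invariant input. -/
theorem lossChannel_eq_polyE {ρ : Matrix (Fock2 L) (Fock2 L) ℂ}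
    (hg : ∀ e f, photons e ≠ photons f → ρ e f = 0) {z : ℝ} (hz0 : 0 ≤ z) (hz1 : z ≤ 1)
    (f f' : Fock2 L) :
    lossChannel z ρ f f' = polyE ρ (xx f) (yy f) (xx f') (yy f') z := by
  rw [lossChannel_apply]
  unfold polyE
  by_cases hff : photons f = photons f'
  · rw [← sum_box (fun a b => ((cc (xx f) (xx f') a * cc (yy f) (yy f') b
        * (z ^ (xx f + yy f) * (1 - z) ^ (a + b)) : ℝ) : ℂ)
        * rhoHat ρ (xx f + a) (yy f + b) (xx f' + a) (yy f' + b))]
    · apply Finset.sum_congr rfl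
      intro l _
      rw [kv_mul_kv hz0 hz1 l hff]
    · intro a b hab
      rw [rhoHat_of_gt1 ρ _ _ (by omega), mul_zero]
  · have hne : ∀ a b : ℕ, xx f + a + (yy f + b) ≠ xx f' + a + (yy f' + b) := by
      intro a b h
      apply hff
      simp only [photons_eq]
      omega
    rw [Finset.sum_eq_zero, Finset.sum_eq_zero]
    · intro a _
      apply Finset.sum_eq_zero
      intro b _
      rw [rhoHat_gauge hg (hne a b), mul_zero]
    · intro l _
      rw [rhoHat_gauge hg (hne _ _), mul_zero]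

lemma lossChannel_gauge {ρ : Matrix (Fock2 L) (Fock2 L) ℂ}
    (hg : ∀ e f, photons e ≠ photons f → ρ e f = 0) (z : ℝ) :
    ∀ e f, photons e ≠ photons f → lossChannel z ρ e f = 0 := by
  intro f f' hff
  rw [lossChannel_apply]
  apply Finset.sum_eq_zero
  intro l _
  have hne : xx f + xx l + (yy f + yy l) ≠ xx f' + xx l + (yy f' + yy l) := by
    intro h
    apply hff
    simp only [photons_eq]
    omega
  rw [rhoHat_gauge hg hne, mul_zero]

lemma polyE_one (ρ : Matrix (Fock2 L) (Fock2 L) ℂ) (f1 f2 g1 g2 : ℕ) :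
    polyE ρ f1 f2 g1 g2 1 = rhoHat ρ f1 f2 g1 g2 := by
  unfold polyE
  rw [Finset.sum_eq_single 0]
  · rw [Finset.sum_eq_single 0]
    · simp [cc_zero]
    · intro b _ hb
      have : (1 - (1:ℝ)) ^ (0 + b) = 0 := by
        rw [sub_self]
        exact zero_pow (by omega)
      rw [this]
      simp
    · intro h
      exact absurd (Finset.mem_range.mpr (by omega)) h
  · intro a _ ha
    apply Finset.sum_eq_zero
    intro b _
    have : (1 - (1:ℝ)) ^ (a + b) = 0 := by
      rw [sub_self]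
      exact zero_pow (by omega)
    rw [this]
    simp
  · intro h
    exact absurd (Finset.mem_range.mpr (by omega)) h

/-- At transmissivity one the channel is the identity. -/
theorem lossChannel_one {ρ : Matrix (Fock2 L) (Fock2 L) ℂ}
    (hg : ∀ e f, photons e ≠ photons f → ρ e f = 0) : lossChannel 1 ρ = ρ := by
  ext f f'
  rw [lossChannel_eq_polyE hg zero_le_one le_rfl, polyE_one, rhoHat_mk]

lemma lossChannel_posSemidef {ρ : Matrix (Fock2 L) (Fock2 L) ℂ} (hρ : ρ.PosSemidef) (z : ℝ) :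
    (lossChannel z ρ).PosSemidef := by
  unfold lossChannel
  apply Matrix.posSemidef_sum
  intro l _
  exact hρ.mul_mul_conjTranspose_same _

/-- The vacuum index. -/
def vac (L : ℕ) : Fock2 L := mkF 0 0 (by omega)

lemma lossKraus_vac {z : ℝ} (f e : Fock2 L) :
    lossKraus z (vac L) f e
      = if e = f then (((Real.sqrt z) ^ photons f : ℝ) : ℂ) else 0 := by
  rw [lossKraus_apply]
  have hx : xx (vac L) = 0 := rfl
  have hy : yy (vac L) = 0 := rfl
  have hp : photons (vac L) = 0 := rfl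
  by_cases h : e = f
  · subst h
    rw [if_pos (by simp [hx, hy]), if_pos rfl, hx, hy, hp]
    simp
  · rw [if_neg, if_neg h]
    rintro ⟨h1, h2⟩
    rw [hx] at h1
    rw [hy] at h2
    exact h (fock_ext (by omega) (by omega))

lemma lossChannel_posDef {ρ : Matrix (Fock2 L) (Fock2 L) ℂ} (hρ : ρ.PosDef) {z : ℝ} (hz : 0 < z) :
    (lossChannel z ρ).PosDef := by
  unfold lossChannel
  rw [← Finset.add_sum_erase _ _ (Finset.mem_univ (vac L))]
  apply Matrix.PosDef.add_posSemidef
  · apply hρ.mul_mul_conjTranspose_same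
    intro v w hvw
    funext f
    have h := congrFun hvw f
    simp only [vecMul, dotProduct] at h
    have hs : ∀ u : Fock2 L → ℂ, ∑ e, u e * lossKraus z (vac L) e f
        = (((Real.sqrt z) ^ photons f : ℝ) : ℂ) * u f := by
      intro u
      rw [Finset.sum_eq_single f]
      · rw [lossKraus_vac, if_pos rfl, mul_comm]
      · intro e _ he
        rw [lossKraus_vac, if_neg (Ne.symm he), mul_zero]
      · intro h'
        exact absurd (Finset.mem_univ _) h'
    rw [hs, hs] at h
    have hne : (((Real.sqrt z) ^ photons f : ℝ) : ℂ) ≠ 0 := by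
      have : (Real.sqrt z) ^ photons f ≠ 0 := pow_ne_zero _ (Real.sqrt_pos.mpr hz).ne'
      exact_mod_cast this
    exact mul_left_cancel₀ hne h
  · apply Matrix.posSemidef_sum
    intro l _
    exact hρ.posSemidef.mul_mul_conjTranspose_same _

lemma sum_ann1_mul (f : Fock2 L) (φ : Fock2 L → ℂ) :
    ∑ e, ann1 L f e * φ e
      = if h : xx f + 1 + yy f ≤ L then
          ((Real.sqrt ((xx f : ℝ) + 1) : ℝ) : ℂ) * φ (mkF (xx f + 1) (yy f) h) else 0 := by
  by_cases h : xx f + 1 + yy f ≤ L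
  · rw [dif_pos h]
    rw [Finset.sum_eq_single (mkF (xx f + 1) (yy f) h)]
    · unfold ann1
      rw [if_pos (by simp)]
      simp
    · intro e _ he
      unfold ann1
      rw [if_neg, zero_mul]
      rintro ⟨h1, h2⟩
      exact he (fock_ext h1 h2)
    · intro h'
      exact absurd (Finset.mem_univ _) h'
  · rw [dif_neg h]
    apply Finset.sum_eq_zero
    intro e _
    unfold ann1
    rw [if_neg, zero_mul]
    rintro ⟨h1, h2⟩
    have := xx_add_yy_le e
    omega

lemma sum_ann2_mul (f : Fock2 L) (φ : Fock2 L → ℂ) :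
    ∑ e, ann2 L f e * φ e
      = if h : xx f + (yy f + 1) ≤ L then
          ((Real.sqrt ((yy f : ℝ) + 1) : ℝ) : ℂ) * φ (mkF (xx f) (yy f + 1) h) else 0 := by
  by_cases h : xx f + (yy f + 1) ≤ L
  · rw [dif_pos h]
    rw [Finset.sum_eq_single (mkF (xx f) (yy f + 1) h)]
    · unfold ann2
      rw [if_pos (by simp)]
      simp
    · intro e _ he
      unfold ann2
      rw [if_neg, zero_mul]
      rintro ⟨h1, h2⟩
      exact he (fock_ext h1 h2)
    · intro h'
      exact absurd (Finset.mem_univ _) h'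
  · rw [dif_neg h]
    apply Finset.sum_eq_zero
    intro e _
    unfold ann2
    rw [if_neg, zero_mul]
    rintro ⟨h1, h2⟩
    have := xx_add_yy_le e
    omega

lemma star_ann1 (f e : Fock2 L) : star (ann1 L f e) = ann1 L f e := by
  unfold ann1
  split_ifs
  · rw [Complex.star_def, Complex.conj_ofReal]
  · simp

lemma star_ann2 (f e : Fock2 L) : star (ann2 L f e) = ann2 L f e := by
  unfold ann2
  split_ifs
  · rw [Complex.star_def, Complex.conj_ofReal]
  · simp

lemma ann1_sandwich (b : Matrix (Fock2 L) (Fock2 L) ℂ) (f f' : Fock2 L) :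
    (ann1 L * b * (ann1 L)ᴴ) f f'
      = ((Real.sqrt ((xx f : ℝ) + 1) * Real.sqrt ((xx f' : ℝ) + 1) : ℝ) : ℂ)
        * rhoHat b (xx f + 1) (yy f) (xx f' + 1) (yy f') := by
  rw [Matrix.mul_assoc, Matrix.mul_apply]
  have h1 : ∀ e, (b * (ann1 L)ᴴ) e f'
      = if h : xx f' + 1 + yy f' ≤ L then
          ((Real.sqrt ((xx f' : ℝ) + 1) : ℝ) : ℂ) * b e (mkF (xx f' + 1) (yy f') h) else 0 := by
    intro e
    rw [Matrix.mul_apply, ← sum_ann1_mul]
    apply Finset.sum_congr rfl
    intro e' _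
    rw [conjTranspose_apply, star_ann1, mul_comm]
  simp only [h1]
  rw [sum_ann1_mul]
  unfold rhoHat
  by_cases h : xx f + 1 + yy f ≤ L
  · rw [dif_pos h, dif_pos h]
    by_cases h' : xx f' + 1 + yy f' ≤ L
    · rw [dif_pos h', dif_pos h']
      push_cast
      ring
    · rw [dif_neg h', dif_neg h']
      simp
  · rw [dif_neg h, dif_neg h]
    simp

lemma ann2_sandwich (b : Matrix (Fock2 L) (Fock2 L) ℂ) (f f' : Fock2 L) :
    (ann2 L * b * (ann2 L)ᴴ) f f'
      = ((Real.sqrt ((yy f : ℝ) + 1) * Real.sqrt ((yy f' : ℝ) + 1) : ℝ) : ℂ)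
        * rhoHat b (xx f) (yy f + 1) (xx f') (yy f' + 1) := by
  rw [Matrix.mul_assoc, Matrix.mul_apply]
  have h1 : ∀ e, (b * (ann2 L)ᴴ) e f'
      = if h : xx f' + (yy f' + 1) ≤ L then
          ((Real.sqrt ((yy f' : ℝ) + 1) : ℝ) : ℂ) * b e (mkF (xx f') (yy f' + 1) h) else 0 := by
    intro e
    rw [Matrix.mul_apply, ← sum_ann2_mul]
    apply Finset.sum_congr rfl
    intro e' _
    rw [conjTranspose_apply, star_ann2, mul_comm]
  simp only [h1]
  rw [sum_ann2_mul]
  unfold rhoHat
  by_cases h : xx f + (yy f + 1) ≤ L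
  · rw [dif_pos h, dif_pos h]
    by_cases h' : xx f' + (yy f' + 1) ≤ L
    · rw [dif_pos h', dif_pos h']
      push_cast
      ring
    · rw [dif_neg h', dif_neg h']
      simp
  · rw [dif_neg h, dif_neg h]
    simp

lemma rhoHat_lossChannel {ρ : Matrix (Fock2 L) (Fock2 L) ℂ}
    (hg : ∀ e f, photons e ≠ photons f → ρ e f = 0) {z : ℝ} (hz0 : 0 ≤ z) (hz1 : z ≤ 1)
    (x1 y1 x2 y2 : ℕ) :
    rhoHat (lossChannel z ρ) x1 y1 x2 y2 = polyE ρ x1 y1 x2 y2 z := by
  unfold rhoHat
  by_cases h1 : x1 + y1 ≤ L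
  · rw [dif_pos h1]
    by_cases h2 : x2 + y2 ≤ L
    · rw [dif_pos h2, lossChannel_eq_polyE hg hz0 hz1]
      rfl
    · rw [dif_neg h2, polyE_of_gt2 ρ _ _ (by omega)]
  · rw [dif_neg h1, polyE_of_gt1 ρ _ _ (by omega)]

/-- The Lindblad generator on gauge-invariant operators. -/
noncomputable def genM (b : Matrix (Fock2 L) (Fock2 L) ℂ) : Matrix (Fock2 L) (Fock2 L) ℂ :=
  ann1 L * b * (ann1 L)ᴴ + ann2 L * b * (ann2 L)ᴴ - numOp L * b

/-- The derivative of the output in the entries: `z * b'(z) = - gen b(z)`. -/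
theorem polyD_eq_gen {ρ : Matrix (Fock2 L) (Fock2 L) ℂ}
    (hg : ∀ e f, photons e ≠ photons f → ρ e f = 0) {z : ℝ} (hz0 : 0 ≤ z) (hz1 : z ≤ 1)
    (f f' : Fock2 L) :
    (z : ℂ) * polyD ρ (xx f) (yy f) (xx f') (yy f') z = - genM (lossChannel z ρ) f f' := by
  rw [polyD_ode]
  unfold genM
  rw [Matrix.sub_apply, Matrix.add_apply, ann1_sandwich, ann2_sandwich, rhoHat_lossChannel hg hz0 hz1,
    rhoHat_lossChannel hg hz0 hz1]
  have hN : (numOp L * lossChannel z ρ) f f' = ((photons f : ℝ) : ℂ) * lossChannel z ρ f f' := by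
    rw [numOp, rdiag, diagonal_mul]
  rw [hN, lossChannel_eq_polyE hg hz0 hz1, photons_eq]
  push_cast
  ring

/-- Trace of the output against a fixed matrix, in polynomial form. -/
noncomputable def traceP (ρ Lg : Matrix (Fock2 L) (Fock2 L) ℂ) (z : ℝ) : ℂ :=
  ∑ f, ∑ f', polyE ρ (xx f) (yy f) (xx f') (yy f') z * Lg f' f

/-- Its derivative. -/
noncomputable def tracePD (ρ Lg : Matrix (Fock2 L) (Fock2 L) ℂ) (z : ℝ) : ℂ :=
  ∑ f, ∑ f', polyD ρ (xx f) (yy f) (xx f') (yy f') z * Lg f' f

lemma hasDerivAt_traceP (ρ Lg : Matrix (Fock2 L) (Fock2 L) ℂ) (z : ℝ) :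
    HasDerivAt (traceP ρ Lg) (tracePD ρ Lg z) z := by
  unfold traceP tracePD
  apply HasDerivAt.fun_sum
  intro f _
  apply HasDerivAt.fun_sum
  intro f' _
  exact (hasDerivAt_polyE ρ _ _ _ _ z).mul_const _

lemma trace_eq_traceP {ρ : Matrix (Fock2 L) (Fock2 L) ℂ}
    (hg : ∀ e f, photons e ≠ photons f → ρ e f = 0) (Lg : Matrix (Fock2 L) (Fock2 L) ℂ)
    {z : ℝ} (hz0 : 0 ≤ z) (hz1 : z ≤ 1) :
    trace (lossChannel z ρ * Lg) = traceP ρ Lg z := by
  unfold trace traceP
  apply Finset.sum_congr rfl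
  intro f _
  rw [diag_apply, Matrix.mul_apply]
  apply Finset.sum_congr rfl
  intro f' _
  rw [lossChannel_eq_polyE hg hz0 hz1]

lemma mul_tracePD {ρ : Matrix (Fock2 L) (Fock2 L) ℂ}
    (hg : ∀ e f, photons e ≠ photons f → ρ e f = 0) (Lg : Matrix (Fock2 L) (Fock2 L) ℂ)
    {z : ℝ} (hz0 : 0 ≤ z) (hz1 : z ≤ 1) :
    (z : ℂ) * tracePD ρ Lg z = - trace (genM (lossChannel z ρ) * Lg) := by
  unfold trace tracePD
  rw [Finset.mul_sum, ← Finset.sum_neg_distrib]
  apply Finset.sum_congr rfl
  intro f _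
  rw [diag_apply, Matrix.mul_apply, Finset.mul_sum, ← Finset.sum_neg_distrib]
  apply Finset.sum_congr rfl
  intro f' _
  rw [← mul_assoc, polyD_eq_gen hg hz0 hz1]
  ring

/-- The trace of the generator vanishes. -/
lemma trace_genM (b : Matrix (Fock2 L) (Fock2 L) ℂ) : trace (genM b) = 0 := by
  unfold genM
  rw [trace_sub, trace_add, Matrix.mul_assoc (ann1 L), Matrix.mul_assoc (ann2 L),
    Matrix.trace_mul_comm (ann1 L), Matrix.trace_mul_comm (ann2 L), Matrix.mul_assoc, Matrix.mul_assoc,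
    ← trace_add, ← Matrix.mul_add, sum_annH_ann, Matrix.trace_mul_comm b, sub_self]

lemma continuous_traceP (ρ Lg : Matrix (Fock2 L) (Fock2 L) ℂ) : Continuous (traceP ρ Lg) :=
  continuous_iff_continuousAt.mpr fun z => (hasDerivAt_traceP ρ Lg z).continuousAt

/-- Trace preservation on the open-closed interval. -/
theorem trace_lossChannel {ρ : Matrix (Fock2 L) (Fock2 L) ℂ}
    (hg : ∀ e f, photons e ≠ photons f → ρ e f = 0) {z : ℝ} (hz0 : 0 ≤ z) (hz1 : z ≤ 1) :
    trace (lossChannel z ρ) = trace ρ := by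
  have hT : ∀ w, 0 ≤ w → w ≤ 1 → trace (lossChannel w ρ) = traceP ρ 1 w := by
    intro w h0 h1
    rw [← trace_eq_traceP hg 1 h0 h1, Matrix.mul_one]
  have hzero : ∀ w, 0 < w → w ≤ 1 → tracePD ρ 1 w = 0 := by
    intro w h0 h1
    have h := mul_tracePD hg (1 : Matrix (Fock2 L) (Fock2 L) ℂ) h0.le h1
    rw [Matrix.mul_one, trace_genM, neg_zero] at h
    have hw : (w : ℂ) ≠ 0 := by exact_mod_cast h0.ne'
    exact (mul_eq_zero.mp h).resolve_left hw
  have hpos : ∀ a, 0 < a → a ≤ 1 → traceP ρ 1 a = traceP ρ 1 1 := by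
    intro a ha ha1
    have := constant_of_has_deriv_right_zero (f := traceP ρ 1) (a := a) (b := 1)
      (continuous_traceP ρ 1).continuousOn
      (fun x hx => by
        have h1 := hasDerivAt_traceP ρ (1 : Matrix (Fock2 L) (Fock2 L) ℂ) x
        rw [hzero x (by linarith [hx.1]) hx.2.le] at h1
        exact h1.hasDerivWithinAt)
    exact (this 1 ⟨ha1, le_rfl⟩).symm
  have hone : traceP ρ 1 1 = trace ρ := by
    rw [← hT 1 zero_le_one le_rfl, lossChannel_one hg]
  rw [hT z hz0 hz1]
  rcases hz0.eq_or_lt with rfl | hz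
  · -- by continuity at zero
    have hcl : (0 : ℝ) ∈ closure (Set.Ioc (0:ℝ) 1) := by
      rw [closure_Ioc (by norm_num)]
      exact ⟨le_rfl, zero_le_one⟩
    have hcont : ContinuousOn (traceP ρ 1) (closure (Set.Ioc (0:ℝ) 1)) :=
      (continuous_traceP ρ 1).continuousOn
    have heq : Set.EqOn (traceP ρ 1) (fun _ => trace ρ) (Set.Ioc (0:ℝ) 1) := by
      intro w hw
      rw [hpos w hw.1 hw.2, hone]
    have := heq.of_subset_closure (continuous_traceP ρ 1).continuousOn continuousOn_const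
      subset_closure (subset_refl _) hcl
    exact this
  · rw [hpos z hz hz1, hone]

lemma continuous_lossKraus (l f e : Fock2 L) : Continuous (fun z : ℝ => lossKraus z l f e) := by
  simp only [lossKraus_apply]
  split_ifs
  · apply Complex.continuous_ofReal.comp
    have h1 : Continuous (fun z : ℝ => Real.sqrt z) := Real.continuous_sqrt
    have h2 : Continuous (fun z : ℝ => Real.sqrt (1 - z)) :=
      Real.continuous_sqrt.comp (continuous_const.sub continuous_id)
    exact (continuous_const.mul (h1.pow _)).mul (h2.pow _)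
  · exact continuous_const

lemma continuous_lossChannel (ρ : Matrix (Fock2 L) (Fock2 L) ℂ) :
    Continuous (fun z : ℝ => lossChannel z ρ) := by
  unfold lossChannel
  apply continuous_finsetSum
  intro l _
  have h : Continuous (fun z : ℝ => lossKraus z l) := by
    apply continuous_matrix
    intro f e
    exact continuous_lossKraus l f e
  exact (h.matrix_mul continuous_const).matrix_mul h.matrix_conjTranspose

/-- Linearity in the state. -/
lemma lossChannel_add (z : ℝ) (ρ σ : Matrix (Fock2 L) (Fock2 L) ℂ) :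
    lossChannel z (ρ + σ) = lossChannel z ρ + lossChannel z σ := by
  unfold lossChannel
  rw [← Finset.sum_add_distrib]
  apply Finset.sum_congr rfl
  intro l _
  rw [Matrix.mul_add, Matrix.add_mul]

lemma lossChannel_smul (z : ℝ) (c : ℂ) (ρ : Matrix (Fock2 L) (Fock2 L) ℂ) :
    lossChannel z (c • ρ) = c • lossChannel z ρ := by
  unfold lossChannel
  rw [Finset.smul_sum]
  apply Finset.sum_congr rfl
  intro l _
  rw [Matrix.mul_smul, Matrix.smul_mul]

end Vale.Agent.Lib.P369
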