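import Vale.Agent.Lib.P369.Defs

/-!
Real-variable facts for the two-mode gauge-invariant entropy photon-number bound.
`gFun t = (t+1) log (t+1) - t log t`, `chi t = t (log (t+1) - log t)`.
-/

namespace Vale.Agent.Lib.P369

open Real Set

/-- `chi t = t * g'(t)`. -/
noncomputable def chi (t : ℝ) : ℝ := t * (Real.log (t + 1) - Real.log t)

/-- `g'(t) = log (t+1) - log t`. -/
noncomputable def ell (t : ℝ) : ℝ := Real.log (t + 1) - Real.log t

/-- `w t = (t+1) g'(t)`. -/
noncomputable def wFun (t : ℝ) : ℝ := (t + 1) * ell t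

/-- The slope of the tangent line: `psi u = 1 - 1 / ((u+1) g'(u))`. -/
noncomputable def psi (u : ℝ) : ℝ := 1 - 1 / wFun u

lemma continuous_gFun_aux : Continuous fun t : ℝ => t * Real.log t := Real.continuous_mul_log

lemma gFun_zero : gFun 0 = 0 := by simp [gFun]

lemma chi_zero : chi 0 = 0 := by simp [chi]

lemma continuousOn_gFun : ContinuousOn gFun (Ici 0) := by
  unfold gFun
  refine ContinuousOn.sub ?_ Real.continuous_mul_log.continuousOn
  have h : Continuous fun t : ℝ => (t + 1) * Real.log (t + 1) :=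
    Real.continuous_mul_log.comp (continuous_id.add continuous_const)
  exact h.continuousOn

lemma continuousOn_chi : ContinuousOn chi (Ici 0) := by
  have : ∀ t ∈ Ici (0:ℝ), chi t = t * Real.log (t + 1) - t * Real.log t := by
    intro t _; simp [chi]; ring
  refine ContinuousOn.congr ?_ this
  refine ContinuousOn.sub (ContinuousOn.mul continuousOn_id ?_) Real.continuous_mul_log.continuousOn
  intro t ht
  have ht' : (0:ℝ) ≤ t := ht
  refine ContinuousAt.continuousWithinAt ?_
  exact (continuousAt_id.add continuousAt_const).log (by simp; linarith)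

lemma hasDerivAt_ell_parts {t : ℝ} (ht : 0 < t) :
    HasDerivAt gFun (ell t) t := by
  have h1 : HasDerivAt (fun t : ℝ => (t + 1) * Real.log (t + 1))
      (1 * Real.log (t + 1) + (t + 1) * (1 / (t + 1))) t := by
    have hne : t + 1 ≠ 0 := by linarith
    have h2 : HasDerivAt (fun t : ℝ => t + 1) 1 t := (hasDerivAt_id t).add_const 1
    have h3 : HasDerivAt (fun t : ℝ => Real.log (t + 1)) (1 / (t + 1)) t := h2.log hne
    exact h2.mul h3
  have h4 : HasDerivAt (fun t : ℝ => t * Real.log t) (1 * Real.log t + t * (1 / t)) t := by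
    have h5 : HasDerivAt Real.log (1 / t) t := by
      simpa using Real.hasDerivAt_log ht.ne'
    exact (hasDerivAt_id t).mul h5
  have h := h1.sub h4
  have hne : t + 1 ≠ 0 := by linarith
  have e : 1 * Real.log (t + 1) + (t + 1) * (1 / (t + 1)) - (1 * Real.log t + t * (1 / t)) = ell t := by
    unfold ell
    field_simp
    ring
  rw [e] at h
  exact h

lemma ell_pos {t : ℝ} (ht : 0 < t) : 0 < ell t := by
  unfold ell
  have := Real.log_lt_log ht (by linarith : t < t + 1)
  linarith

/-- `log(1+1/t) ≤ 1/t`. -/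
lemma ell_le {t : ℝ} (ht : 0 < t) : ell t ≤ 1 / t := by
  unfold ell
  have h1 : Real.log ((t + 1) / t) ≤ (t + 1) / t - 1 :=
    Real.log_le_sub_one_of_pos (by positivity)
  rw [Real.log_div (by linarith) ht.ne'] at h1
  have : (t + 1) / t - 1 = 1 / t := by field_simp; ring
  linarith

/-- `1/(t+1) ≤ log(1+1/t)`. -/
lemma ell_ge {t : ℝ} (ht : 0 < t) : 1 / (t + 1) ≤ ell t := by
  unfold ell
  have h1 : Real.log (t / (t + 1)) ≤ t / (t + 1) - 1 :=
    Real.log_le_sub_one_of_pos (by positivity)
  rw [Real.log_div ht.ne' (by linarith)] at h1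
  have : t / (t + 1) - 1 = - (1 / (t + 1)) := by field_simp; ring
  linarith

lemma wFun_ge_one {t : ℝ} (ht : 0 < t) : 1 ≤ wFun t := by
  unfold wFun
  have h := ell_ge ht
  have hp : 0 < t + 1 := by linarith
  calc (1:ℝ) = (t + 1) * (1 / (t + 1)) := by field_simp
    _ ≤ (t + 1) * ell t := by gcongr

lemma wFun_pos {t : ℝ} (ht : 0 < t) : 0 < wFun t := by
  have := wFun_ge_one ht; linarith

lemma hasDerivAt_ell {t : ℝ} (ht : 0 < t) : HasDerivAt ell (1 / (t + 1) - 1 / t) t := by
  have hne : t + 1 ≠ 0 := by linarith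
  have h2 : HasDerivAt (fun t : ℝ => t + 1) 1 t := (hasDerivAt_id t).add_const 1
  have h3 : HasDerivAt (fun t : ℝ => Real.log (t + 1)) (1 / (t + 1)) t := h2.log hne
  have h5 : HasDerivAt Real.log (1 / t) t := by
    simpa using Real.hasDerivAt_log ht.ne'
  exact h3.sub h5

lemma hasDerivAt_wFun {t : ℝ} (ht : 0 < t) : HasDerivAt wFun (ell t - 1 / t) t := by
  have h2 : HasDerivAt (fun t : ℝ => t + 1) 1 t := (hasDerivAt_id t).add_const 1
  have h := h2.mul (hasDerivAt_ell ht)
  have hne : t + 1 ≠ 0 := by linarith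
  have e : 1 * ell t + (t + 1) * (1 / (t + 1) - 1 / t) = ell t - 1 / t := by
    field_simp
    ring
  rw [e] at h
  exact h

lemma wFun_antitoneOn : AntitoneOn wFun (Ioi 0) := by
  apply antitoneOn_of_deriv_nonpos (convex_Ioi 0)
  · intro t ht
    exact (hasDerivAt_wFun ht).continuousAt.continuousWithinAt
  · intro t ht
    rw [interior_Ioi] at ht
    exact (hasDerivAt_wFun ht).differentiableAt.differentiableWithinAt
  · intro t ht
    rw [interior_Ioi] at ht
    rw [(hasDerivAt_wFun ht).deriv]
    have := ell_le ht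
    linarith

lemma hasDerivAt_chi {t : ℝ} (ht : 0 < t) : HasDerivAt chi (ell t - 1 / (t + 1)) t := by
  have h := (hasDerivAt_id t).mul (hasDerivAt_ell ht)
  have hne : t + 1 ≠ 0 := by linarith
  have e : 1 * ell t + id t * (1 / (t + 1) - 1 / t) = ell t - 1 / (t + 1) := by
    simp only [id]
    field_simp
    ring
  rw [e] at h
  exact h

/-- `phi` is the gap in the tangent inequality. -/
noncomputable def phiTan (c x : ℝ) : ℝ := chi x - c * gFun x

lemma continuousOn_phiTan (c : ℝ) : ContinuousOn (phiTan c) (Ici 0) := by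
  unfold phiTan
  exact continuousOn_chi.sub (continuousOn_const.mul continuousOn_gFun)

lemma hasDerivAt_phiTan (c : ℝ) {x : ℝ} (hx : 0 < x) :
    HasDerivAt (phiTan c) ((1 - c) * ell x - 1 / (x + 1)) x := by
  have h := (hasDerivAt_chi hx).sub ((hasDerivAt_ell_parts hx).const_mul c)
  have e : ell x - 1 / (x + 1) - c * ell x = (1 - c) * ell x - 1 / (x + 1) := by ring
  rw [e] at h
  exact h

/-- Sign of the derivative: positive iff `w x ≥ w u`. -/
lemma deriv_phiTan_formula {u x : ℝ} (hu : 0 < u) (hx : 0 < x) :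
    (1 - psi u) * ell x - 1 / (x + 1) = (wFun x - wFun u) / (wFun u * (x + 1)) := by
  have hw := wFun_pos hu
  unfold psi
  have hx1 : x + 1 ≠ 0 := by linarith
  have : wFun x = (x + 1) * ell x := rfl
  rw [this]
  field_simp
  ring

/-- **Tangent inequality.** For `u>0`, `x ≥ 0`:
`chi x ≤ chi u + psi u * (g x - g u)`. -/
theorem tangent_ineq {u x : ℝ} (hu : 0 < u) (hx : 0 ≤ x) :
    chi x ≤ chi u + psi u * (gFun x - gFun u) := by
  have key : phiTan (psi u) x ≤ phiTan (psi u) u := by
    rcases le_total x u with hxu | hxu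
    · -- increasing on [0,u]
      have hm : MonotoneOn (phiTan (psi u)) (Icc 0 u) := by
        apply monotoneOn_of_deriv_nonneg (convex_Icc 0 u)
        · exact (continuousOn_phiTan _).mono (fun t ht => ht.1)
        · intro t ht
          rw [interior_Icc] at ht
          exact (hasDerivAt_phiTan _ ht.1).differentiableAt.differentiableWithinAt
        · intro t ht
          rw [interior_Icc] at ht
          rw [(hasDerivAt_phiTan _ ht.1).deriv, deriv_phiTan_formula hu ht.1]
          have h1 : wFun u ≤ wFun t := wFun_antitoneOn ht.1 hu ht.2.le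
          have h2 := wFun_pos hu
          have h3 : 0 < t + 1 := by linarith [ht.1]
          exact div_nonneg (by linarith) (by positivity)
      exact hm ⟨hx, hxu⟩ ⟨hu.le, le_rfl⟩ hxu
    · have hm : AntitoneOn (phiTan (psi u)) (Ici u) := by
        apply antitoneOn_of_deriv_nonpos (convex_Ici u)
        · exact (continuousOn_phiTan _).mono (fun t ht => le_trans hu.le ht)
        · intro t ht
          rw [interior_Ici] at ht
          exact (hasDerivAt_phiTan _ (lt_trans hu ht)).differentiableAt.differentiableWithinAt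
        · intro t ht
          rw [interior_Ici] at ht
          have ht' : 0 < t := lt_trans hu ht
          rw [(hasDerivAt_phiTan _ ht').deriv, deriv_phiTan_formula hu ht']
          have h1 : wFun t ≤ wFun u := wFun_antitoneOn hu ht' (le_of_lt ht)
          have h2 := wFun_pos hu
          have h3 : 0 < t + 1 := by linarith
          exact div_nonpos_of_nonpos_of_nonneg (by linarith) (by positivity)
      exact hm (le_refl u) hxu hxu
  unfold phiTan at key
  nlinarith [key]

/-- `g` is strictly increasing on `[0,∞)`. -/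
lemma strictMonoOn_gFun : StrictMonoOn gFun (Ici 0) := by
  apply strictMonoOn_of_deriv_pos (convex_Ici 0) continuousOn_gFun
  intro t ht
  rw [interior_Ici] at ht
  rw [(hasDerivAt_ell_parts ht).deriv]
  exact ell_pos ht

lemma gFun_nonneg {t : ℝ} (ht : 0 ≤ t) : 0 ≤ gFun t := by
  rw [← gFun_zero]
  exact strictMonoOn_gFun.monotoneOn (by simp) ht ht

lemma chi_nonneg {t : ℝ} (ht : 0 ≤ t) : 0 ≤ chi t := by
  rcases ht.eq_or_lt with rfl | ht
  · simp [chi]
  · exact mul_nonneg ht.le (ell_pos ht).le

lemma log_add_one_le_gFun {t : ℝ} (ht : 0 ≤ t) : Real.log (t + 1) ≤ gFun t := by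
  rcases ht.eq_or_lt with rfl | ht
  · simp [gFun]
  · have : gFun t = Real.log (t + 1) + chi t := by
      simp only [gFun, chi]; ring
    rw [this]
    have := chi_nonneg ht.le
    linarith

/-- `g` maps `[0,∞)` onto `[0,∞)`. -/
lemma exists_gFun_eq {s : ℝ} (hs : 0 ≤ s) : ∃ u, 0 ≤ u ∧ gFun u = s := by
  have h1 : 0 ≤ Real.exp s - 1 := by
    have := Real.add_one_le_exp s
    linarith
  have h2 : s ≤ gFun (Real.exp s - 1) := by
    have := log_add_one_le_gFun h1
    simpa using this
  have hc : ContinuousOn gFun (Icc 0 (Real.exp s - 1)) :=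
    continuousOn_gFun.mono (fun t ht => ht.1)
  have := intermediate_value_Icc h1 hc
  obtain ⟨u, hu, hu2⟩ := this (⟨by rw [gFun_zero]; exact hs, h2⟩ : s ∈ Icc (gFun 0) (gFun (Real.exp s - 1)))
  exact ⟨u, hu.1, hu2⟩

/-- Identity at positive argument used in the barrier argument. -/
lemma chi_eq_mul_ell (t : ℝ) : chi t = t * ell t := rfl

end Vale.Agent.Lib.P369
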