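import Vale.Agent.Lib.P369.Defs

/-!
Spectral tools: entropy from a unitary diagonalisation, the sandwich trace formula,
Klein's inequality and continuity of the entropy.
-/

namespace Vale.Agent.Lib.P369

open Matrix
open scoped ComplexOrder

variable {ι : Type*} [Fintype ι] [DecidableEq ι]

/-- Real diagonal matrix with complex entries. -/
noncomputable abbrev rdiag (a : ι → ℝ) : Matrix ι ι ℂ := diagonal (fun i => (a i : ℂ))

lemma vonNeumann_eq_eig {ρ : Matrix ι ι ℂ} (hρ : ρ.IsHermitian) :
    vonNeumann ρ = ∑ i, Real.negMulLog (hρ.eigenvalues i) := by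
  unfold vonNeumann
  rw [hρ.cfc_eq, IsHermitian.cfc, Unitary.conjStarAlgAut_apply, Matrix.trace_mul_cycle]
  simp [Matrix.trace_diagonal]

open Polynomial in
/-- The multiset of eigenvalues can be read from any unitary diagonalisation. -/
lemma sum_eig_eq_of_decomp {ρ U : Matrix ι ι ℂ} {a : ι → ℝ} (hρ : ρ.IsHermitian)
    (hU : Uᴴ * U = 1) (hd : ρ = U * rdiag a * Uᴴ) (F : ℝ → ℝ) :
    ∑ i, F (hρ.eigenvalues i) = ∑ i, F (a i) := by
  have h1 : ρ.charpoly = ∏ i, (X - C ((a i : ℂ))) := by
    rw [hd, Matrix.charpoly_mul_comm, ← Matrix.mul_assoc, hU, Matrix.one_mul, Matrix.charpoly_diagonal]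
  have h2 : ρ.charpoly = ∏ i, (X - C ((hρ.eigenvalues i : ℂ))) := hρ.charpoly_eq
  have h3 : (∏ i, (X - C ((a i : ℂ)))).roots = (∏ i, (X - C ((hρ.eigenvalues i : ℂ)))).roots := by
    rw [← h1, h2]
  have r : ∀ b : ι → ℝ, (∏ i, (X - C ((b i : ℂ)))).roots
      = Multiset.map (fun i => ((b i : ℝ) : ℂ)) Finset.univ.val := by
    intro b
    rw [Polynomial.roots_prod]
    · simp
    · simp [Finset.prod_ne_zero_iff, Polynomial.X_sub_C_ne_zero]
  rw [r, r] at h3
  have h4 := congrArg (fun M : Multiset ℂ => (M.map (fun z => F z.re)).sum) h3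
  simp only [Multiset.map_map, Function.comp, Complex.ofReal_re] at h4
  exact h4.symm

lemma vonNeumann_of_decomp {ρ U : Matrix ι ι ℂ} {a : ι → ℝ} (hρ : ρ.IsHermitian)
    (hU : Uᴴ * U = 1) (hd : ρ = U * rdiag a * Uᴴ) :
    vonNeumann ρ = ∑ i, Real.negMulLog (a i) := by
  rw [vonNeumann_eq_eig hρ]
  exact sum_eig_eq_of_decomp hρ hU hd _

/-- Sandwich trace formula. -/
lemma trace_sandwich {α β : Type*} [Fintype α] [Fintype β] [DecidableEq α] [DecidableEq β]
    (G : Matrix α β ℂ) (a : β → ℝ) (l : α → ℝ) :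
    trace (G * rdiag a * Gᴴ * rdiag l)
      = ((∑ f, ∑ e, Complex.normSq (G f e) * (a e * l f) : ℝ) : ℂ) := by
  unfold trace
  push_cast
  apply Finset.sum_congr rfl
  intro f _
  simp only [diag_apply, Matrix.mul_apply, Matrix.diagonal_apply,
    conjTranspose_apply, Finset.sum_mul, mul_ite, mul_zero, Finset.sum_ite_eq', Finset.mem_univ,
    if_true]
  apply Finset.sum_congr rfl
  intro e _
  have h : (G f e) * (star (G f e)) = ((Complex.normSq (G f e) : ℝ) : ℂ) := by
    rw [Complex.star_def, Complex.mul_conj]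
  calc G f e * (a e : ℂ) * star (G f e) * (l f : ℂ)
      = (G f e * star (G f e)) * ((a e : ℂ) * (l f : ℂ)) := by ring
    _ = _ := by rw [h]

lemma sum_normSq_row {α β : Type*} [Fintype α] [Fintype β] [DecidableEq α]
    (Q : Matrix α β ℂ) (f : α) :
    ((∑ e, Complex.normSq (Q f e) : ℝ) : ℂ) = (Q * Qᴴ) f f := by
  push_cast
  rw [Matrix.mul_apply]
  apply Finset.sum_congr rfl
  intro e _
  rw [conjTranspose_apply, Complex.star_def, Complex.mul_conj]

lemma sum_normSq_col {α β : Type*} [Fintype α] [Fintype β] [DecidableEq β]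
    (Q : Matrix α β ℂ) (e : β) :
    ((∑ f, Complex.normSq (Q f e) : ℝ) : ℂ) = (Qᴴ * Q) e e := by
  push_cast
  rw [Matrix.mul_apply]
  apply Finset.sum_congr rfl
  intro f _
  rw [conjTranspose_apply, Complex.star_def, mul_comm, Complex.mul_conj]

lemma pointwise_klein {s a : ℝ} (hs : 0 ≤ s) (ha : 0 < a) :
    Real.negMulLog s + s - a ≤ - (s * Real.log a) := by
  rcases hs.eq_or_lt with rfl | hs
  · simp [Real.negMulLog]; linarith
  have h1 : Real.log (a / s) ≤ a / s - 1 := Real.log_le_sub_one_of_pos (by positivity)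
  rw [Real.log_div ha.ne' hs.ne'] at h1
  have h2 := mul_le_mul_of_nonneg_left h1 hs.le
  have h3 : s * (a / s - 1) = a - s := by field_simp
  rw [h3] at h2
  simp only [Real.negMulLog]
  nlinarith [h2]

/-- **Klein's inequality**, with the logarithm of the second operator given by a
diagonalisation. -/
theorem klein {σ U : Matrix ι ι ℂ} {a : ι → ℝ} (hσ : σ.PosSemidef)
    (hU1 : U * Uᴴ = 1) (hU2 : Uᴴ * U = 1) (ha : ∀ i, 0 < a i) :
    vonNeumann σ ≤ - (trace (σ * (U * rdiag (fun i => Real.log (a i)) * Uᴴ))).re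
      + ∑ i, a i - (trace σ).re := by
  have hH := hσ.isHermitian
  set s := hH.eigenvalues with hs
  set V : Matrix ι ι ℂ := (hH.eigenvectorUnitary : Matrix ι ι ℂ) with hV
  have hV1 : V * Vᴴ = 1 := by
    have := Unitary.mul_star_self_of_mem hH.eigenvectorUnitary.2
    simpa [star_eq_conjTranspose] using this
  have hV2 : Vᴴ * V = 1 := by
    have := Unitary.star_mul_self_of_mem hH.eigenvectorUnitary.2
    simpa [star_eq_conjTranspose] using this
  have hσd : σ = V * rdiag s * Vᴴ := by
    conv_lhs => rw [hH.spectral_theorem, Unitary.conjStarAlgAut_apply]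
    rfl
  have hs0 : ∀ i, 0 ≤ s i := fun i => hσ.eigenvalues_nonneg i
  set G : Matrix ι ι ℂ := Uᴴ * V with hG
  have hGrow : ∀ k, ∑ i, Complex.normSq (G k i) = 1 := by
    intro k
    have h := sum_normSq_row G k
    have e : G * Gᴴ = 1 := by
      rw [hG, conjTranspose_mul, conjTranspose_conjTranspose, Matrix.mul_assoc, ← Matrix.mul_assoc V,
        hV1, Matrix.one_mul, hU2]
    rw [e, Matrix.one_apply_eq] at h
    exact_mod_cast h
  have hGcol : ∀ i, ∑ k, Complex.normSq (G k i) = 1 := by
    intro i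
    have h := sum_normSq_col G i
    have e : Gᴴ * G = 1 := by
      rw [hG, conjTranspose_mul, conjTranspose_conjTranspose, Matrix.mul_assoc, ← Matrix.mul_assoc U,
        hU1, Matrix.one_mul, hV2]
    rw [e, Matrix.one_apply_eq] at h
    exact_mod_cast h
  have hT : trace (σ * (U * rdiag (fun i => Real.log (a i)) * Uᴴ))
      = trace (G * rdiag s * Gᴴ * rdiag (fun i => Real.log (a i))) := by
    rw [hσd, hG, conjTranspose_mul, conjTranspose_conjTranspose]
    calc trace (V * rdiag s * Vᴴ * (U * rdiag (fun i => Real.log (a i)) * Uᴴ))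
        = trace (Uᴴ * (V * rdiag s * Vᴴ * (U * rdiag (fun i => Real.log (a i))))) := by
          rw [← Matrix.mul_assoc _ _ Uᴴ, Matrix.trace_mul_comm]
      _ = trace (Uᴴ * V * rdiag s * (Vᴴ * U) * rdiag (fun i => Real.log (a i))) := by
          simp only [Matrix.mul_assoc]
  rw [hT, trace_sandwich, Complex.ofReal_re]
  have hS : vonNeumann σ = ∑ i, Real.negMulLog (s i) := vonNeumann_eq_eig hH
  have htr : (trace σ).re = ∑ i, s i := by
    rw [hσd, Matrix.trace_mul_cycle, hV2, Matrix.one_mul, trace_diagonal]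
    simp
  rw [hS, htr]
  -- termwise
  have key : ∑ k, ∑ i, Complex.normSq (G k i) * (Real.negMulLog (s i) + s i - a k)
      ≤ ∑ k, ∑ i, Complex.normSq (G k i) * (- (s i * Real.log (a k))) := by
    apply Finset.sum_le_sum
    intro k _
    apply Finset.sum_le_sum
    intro i _
    exact mul_le_mul_of_nonneg_left (pointwise_klein (hs0 i) (ha k)) (Complex.normSq_nonneg _)
  have e1 : ∑ k, ∑ i, Complex.normSq (G k i) * (Real.negMulLog (s i) + s i - a k)
      = ∑ i, Real.negMulLog (s i) + ∑ i, s i - ∑ k, a k := by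
    have : ∀ k i, Complex.normSq (G k i) * (Real.negMulLog (s i) + s i - a k)
        = Complex.normSq (G k i) * (Real.negMulLog (s i) + s i)
          - Complex.normSq (G k i) * a k := by intro k i; ring
    simp only [this, Finset.sum_sub_distrib]
    rw [Finset.sum_comm]
    have h2 : ∑ y, ∑ x, Complex.normSq (G x y) * (Real.negMulLog (s y) + s y)
        = ∑ i, (Real.negMulLog (s i) + s i) := by
      apply Finset.sum_congr rfl
      intro i _
      rw [← Finset.sum_mul, hGcol i, one_mul]
    have h3 : ∑ k, ∑ i, Complex.normSq (G k i) * a k = ∑ k, a k := by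
      apply Finset.sum_congr rfl
      intro k _
      rw [← Finset.sum_mul, hGrow k, one_mul]
    rw [h2, h3, Finset.sum_add_distrib]
  have e2 : ∑ k, ∑ i, Complex.normSq (G k i) * (- (s i * Real.log (a k)))
      = - ∑ k, ∑ i, Complex.normSq (G k i) * (s i * Real.log (a k)) := by
    simp only [mul_neg, Finset.sum_neg_distrib]
  rw [e1, e2] at key
  linarith

/-- For a decomposition, the entropy is minus the trace against the logarithm. -/
lemma vonNeumann_eq_neg_trace {B U : Matrix ι ι ℂ} {a : ι → ℝ} (hB : B.IsHermitian)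
    (hU2 : Uᴴ * U = 1) (hd : B = U * rdiag a * Uᴴ) :
    vonNeumann B = - (trace (B * (U * rdiag (fun i => Real.log (a i)) * Uᴴ))).re := by
  rw [vonNeumann_of_decomp hB hU2 hd]
  have : B * (U * rdiag (fun i => Real.log (a i)) * Uᴴ)
      = U * rdiag (fun i => a i * Real.log (a i)) * Uᴴ := by
    rw [hd]
    calc U * rdiag a * Uᴴ * (U * rdiag (fun i => Real.log (a i)) * Uᴴ)
        = U * rdiag a * (Uᴴ * U) * rdiag (fun i => Real.log (a i)) * Uᴴ := by
          simp only [Matrix.mul_assoc]
      _ = U * rdiag (fun i => a i * Real.log (a i)) * Uᴴ := by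
          rw [hU2, Matrix.mul_one, Matrix.mul_assoc U, Matrix.diagonal_mul_diagonal]
          simp only [rdiag, Complex.ofReal_mul]
  rw [this, Matrix.trace_mul_cycle, hU2, Matrix.one_mul, trace_diagonal]
  simp only [Real.negMulLog, Complex.re_sum, Complex.ofReal_re, ← Finset.sum_neg_distrib]
  apply Finset.sum_congr rfl
  intro i _
  ring

lemma spectrum_subset_of_posSemidef {ρ : Matrix ι ι ℂ} (hρ : ρ.PosSemidef) (htr : trace ρ = 1) :
    spectrum ℝ ρ ⊆ Set.Icc (0:ℝ) 1 := by
  have hH := hρ.isHermitian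
  rw [hH.spectrum_real_eq_range_eigenvalues]
  rintro _ ⟨i, rfl⟩
  refine ⟨hρ.eigenvalues_nonneg i, ?_⟩
  have h1 : ∑ j, hH.eigenvalues j = 1 := by
    have := hH.trace_eq_sum_eigenvalues
    rw [htr] at this
    have h2 : ((∑ j, hH.eigenvalues j : ℝ) : ℂ) = 1 := by
      push_cast
      exact this.symm
    exact_mod_cast h2
  rw [← h1]
  exact Finset.single_le_sum (fun j _ => hρ.eigenvalues_nonneg j) (Finset.mem_univ i)

lemma vonNeumann_nonneg {ρ : Matrix ι ι ℂ} (hρ : ρ.PosSemidef) (htr : trace ρ = 1) :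
    0 ≤ vonNeumann ρ := by
  have hH := hρ.isHermitian
  rw [vonNeumann_eq_eig hH]
  apply Finset.sum_nonneg
  intro i _
  have h := spectrum_subset_of_posSemidef hρ htr
  have hm : hH.eigenvalues i ∈ spectrum ℝ ρ := hH.eigenvalues_mem_spectrum_real i
  have := h hm
  exact Real.negMulLog_nonneg this.1 this.2

end Vale.Agent.Lib.P369

section Continuity

open scoped Matrix.Norms.L2Operator ComplexOrder
open Matrix

namespace Vale.Agent.Lib.P369

/-- Continuity of the entropy along families of states. -/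
lemma continuousOn_vonNeumann {ι : Type*} [Fintype ι] [DecidableEq ι] {X : Type*}
    [TopologicalSpace X] {t : Set X} {a : X → Matrix ι ι ℂ} (hc : ContinuousOn a t)
    (hH : ∀ x ∈ t, (a x).PosSemidef) (htr : ∀ x ∈ t, trace (a x) = 1) :
    ContinuousOn (fun x => vonNeumann (a x)) t := by
  have h1 : ContinuousOn (fun x => cfc Real.negMulLog (a x)) t :=
    ContinuousOn.cfc' (𝕜 := ℝ) (A := Matrix ι ι ℂ) (p := IsSelfAdjoint) (s := Set.Icc (0:ℝ) 1)
      isCompact_Icc Real.negMulLog hc
      (fun x hx => spectrum_subset_of_posSemidef (hH x hx) (htr x hx))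
      (fun x hx => (hH x hx).isHermitian)
      Real.continuous_negMulLog.continuousOn
  unfold vonNeumann
  have h2 : Continuous (fun M : Matrix ι ι ℂ => (trace M).re) :=
    Complex.continuous_re.comp (Continuous.matrix_trace continuous_id)
  exact h2.comp_continuousOn h1

end Vale.Agent.Lib.P369

end Continuity
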